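import Vale.Agent.P025.R2.H637.Est

/-! # Closed sets stable under midpoints and harmonic midpoints are algebras -/

namespace Vale.Agent.P025.R2.H637

universe u v

section

variable {p : ℕ} [Fact p.Prime] {κ : Type u} [Field κ] [Algebra ℚ_[p] κ]
  {w : AbsoluteValue κ ℝ}

/-- closed sets stable under midpoints and harmonic means -/
structure MidClosed (w : AbsoluteValue κ ℝ) (P : κ → Prop) : Prop where
  zero : P 0
  one : P 1
  mid : ∀ x y, P x → P y → P ((x + y) / 2)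
  harm : ∀ x y, P x → P y → x + y ≠ 0 → P (2 * x * y / (x + y))
  lim : ∀ x, (∀ δ > 0, ∃ y, P y ∧ w (y - x) < δ) → P x

variable {P : κ → Prop}

namespace MidClosed

omit [Algebra ℚ_[p] κ] [Fact p.Prime] in
lemma dyadic [CharZero κ] (h : MidClosed w P) {a b : κ} (ha : P a) (hb : P b) (n : ℕ) :
    ∀ i : ℕ, i ≤ 2 ^ n → P ((i * a + ((2 : κ) ^ n - i) * b) / 2 ^ n) := by
  induction n with
  | zero =>
    intro i hi
    rw [pow_zero] at hi
    rw [pow_zero, div_one]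
    interval_cases i
    · simpa using hb
    · simpa using ha
  | succ n ih =>
    intro i hi
    have h2 : (2 : κ) ≠ 0 := two_ne_zero
    rcases Nat.even_or_odd i with ⟨j, hj⟩ | ⟨j, hj⟩
    · have h3 := ih j (by rw [pow_succ] at hi; omega)
      convert h3 using 1
      rw [hj]
      push_cast
      field_simp
      ring
    · have h3 := h.mid _ _ (ih j (by rw [pow_succ] at hi; omega))
        (ih (j + 1) (by rw [pow_succ] at hi; omega))
      convert h3 using 1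
      rw [hj]
      push_cast
      field_simp
      ring

/-- the absolute value extends the `p`-adic one -/
lemma convex (h : MidClosed w P) (hw : ∀ x : ℚ_[p], w (algebraMap ℚ_[p] κ x) = ‖x‖)
    (hp2 : p ≠ 2) {a b : κ} (ha : P a) (hb : P b) (l : ℚ_[p]) (hl : ‖l‖ ≤ 1) :
    P (algebraMap ℚ_[p] κ l * a + (1 - algebraMap ℚ_[p] κ l) * b) := by
  have hp : p.Prime := Fact.out
  have hchar : CharZero κ := charZero_of_injective_algebraMap (algebraMap ℚ_[p] κ).injective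
  have hpR : (1 : ℝ) < p := by exact_mod_cast hp.one_lt
  have hpR0 : (0 : ℝ) < p := by linarith
  apply h.lim
  intro δ hδ
  obtain ⟨N, hN⟩ := pow_unbounded_of_one_lt ((w (a - b) + 1) / δ) hpR
  obtain ⟨n, hn⟩ : ∃ n : ℕ, p ^ N ≤ 2 ^ n := ⟨p ^ N, Nat.lt_two_pow_self.le⟩
  have h2n : ‖(2 : ℚ_[p])‖ = 1 := by
    have h3 : ‖((2 : ℕ) : ℚ_[p])‖ = 1 := by
      rw [Padic.norm_natCast_eq_one_iff]
      exact (Nat.coprime_primes hp Nat.prime_two).2 hp2
    exact_mod_cast h3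
  set μ : ℤ_[p] := ⟨2 ^ n * l, by
    rw [norm_mul, norm_pow, h2n, one_pow, one_mul]
    exact hl⟩ with hμ
  set i := μ.appr N with hi
  have hilt : i < p ^ N := PadicInt.appr_lt μ N
  have hspec : ‖μ - (i : ℤ_[p])‖ ≤ (p : ℝ) ^ (-(N : ℤ)) :=
    (PadicInt.norm_le_pow_iff_mem_span_pow _ _).2 (PadicInt.appr_spec N μ)
  have hspec2 : ‖(2 ^ n * l - i : ℚ_[p])‖ ≤ (p : ℝ) ^ (-(N : ℤ)) := hspec
  refine ⟨_, h.dyadic ha hb n i (hilt.le.trans hn), ?_⟩
  have h20 : (2 : κ) ^ n ≠ 0 := pow_ne_zero _ two_ne_zero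
  have h20' : (2 : ℚ_[p]) ^ n ≠ 0 := pow_ne_zero _ two_ne_zero
  have e1 : (i * a + ((2 : κ) ^ n - i) * b) / 2 ^ n -
      (algebraMap ℚ_[p] κ l * a + (1 - algebraMap ℚ_[p] κ l) * b) =
      algebraMap ℚ_[p] κ (-((2 ^ n * l - i) / 2 ^ n)) * (a - b) := by
    rw [map_neg, map_div₀, map_sub, map_mul, map_pow, map_ofNat, map_natCast]
    field_simp
    ring
  rw [e1, w.map_mul, hw, norm_neg, norm_div, norm_pow, h2n, one_pow, div_one]
  have h5 : (p : ℝ) ^ (-(N : ℤ)) = ((p : ℝ) ^ N)⁻¹ := by rw [zpow_neg, zpow_natCast]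
  have hpN : (0 : ℝ) < (p : ℝ) ^ N := pow_pos hpR0 _
  have hw0 := w.nonneg (a - b)
  calc ‖(2 ^ n * l - i : ℚ_[p])‖ * w (a - b) ≤ ((p : ℝ) ^ N)⁻¹ * w (a - b) := by
        rw [← h5]
        exact mul_le_mul_of_nonneg_right hspec2 hw0
    _ < δ := by
        rw [inv_mul_lt_iff₀ hpN]
        rw [div_lt_iff₀ hδ] at hN
        linarith

/-- stable under the integers -/
lemma smul (h : MidClosed w P) (hw : ∀ x : ℚ_[p], w (algebraMap ℚ_[p] κ x) = ‖x‖)
    (hp2 : p ≠ 2) {a : κ} (ha : P a) (l : ℚ_[p]) (hl : ‖l‖ ≤ 1) :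
    P (algebraMap ℚ_[p] κ l * a) := by
  have := h.convex hw hp2 ha h.zero l hl
  rwa [mul_zero, add_zero] at this

lemma add (h : MidClosed w P) (hw : ∀ x : ℚ_[p], w (algebraMap ℚ_[p] κ x) = ‖x‖)
    (hp2 : p ≠ 2) {a b : κ} (ha : P a) (hb : P b) : P (a + b) := by
  have hchar : CharZero κ := charZero_of_injective_algebraMap (algebraMap ℚ_[p] κ).injective
  have h1 := h.smul hw hp2 (h.mid a b ha hb) 2 (by
    have := Padic.norm_int_le_one (p := p) 2
    simpa using this)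
  rw [map_ofNat, mul_div_cancel₀ _ (two_ne_zero : (2 : κ) ≠ 0)] at h1
  exact h1

lemma neg (h : MidClosed w P) (hw : ∀ x : ℚ_[p], w (algebraMap ℚ_[p] κ x) = ‖x‖)
    (hp2 : p ≠ 2) {a : κ} (ha : P a) : P (-a) := by
  have h1 := h.smul hw hp2 ha (-1) (by rw [norm_neg, norm_one])
  rwa [map_neg, map_one, neg_one_mul] at h1

lemma sub (h : MidClosed w P) (hw : ∀ x : ℚ_[p], w (algebraMap ℚ_[p] κ x) = ‖x‖)
    (hp2 : p ≠ 2) {a b : κ} (ha : P a) (hb : P b) : P (a - b) := by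
  rw [sub_eq_add_neg]
  exact h.add hw hp2 ha (h.neg hw hp2 hb)

lemma half (h : MidClosed w P) {a : κ} (ha : P a) : P (a / 2) := by
  have := h.mid a 0 ha h.zero
  rwa [add_zero] at this

lemma sq_div (h : MidClosed w P) (hw : ∀ x : ℚ_[p], w (algebraMap ℚ_[p] κ x) = ‖x‖)
    (hp2 : p ≠ 2) {a : κ} (ha : P a) (l : ℚ_[p]) (hl : ‖l‖ ≤ 1) (hl0 : l ≠ 0) :
    P (a ^ 2 / algebraMap ℚ_[p] κ l) := by
  have hchar : CharZero κ := charZero_of_injective_algebraMap (algebraMap ℚ_[p] κ).injective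
  have hl' : algebraMap ℚ_[p] κ l ≠ 0 := (_root_.map_ne_zero _).2 hl0
  have h1 : P (algebraMap ℚ_[p] κ l - a) := by
    have := h.smul hw hp2 h.one l hl
    rw [mul_one] at this
    exact h.sub hw hp2 this ha
  have h2 := h.half (h.harm a _ ha h1 (by rw [add_sub_cancel]; exact hl'))
  have h3 := h.sub hw hp2 ha h2
  convert h3 using 1
  rw [add_sub_cancel]
  field_simp
  ring

lemma mul_div (h : MidClosed w P) (hw : ∀ x : ℚ_[p], w (algebraMap ℚ_[p] κ x) = ‖x‖)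
    (hp2 : p ≠ 2) {a b : κ} (ha : P a) (hb : P b) (l : ℚ_[p]) (hl : ‖l‖ ≤ 1) (hl0 : l ≠ 0) :
    P (a * b / algebraMap ℚ_[p] κ l) := by
  have hchar : CharZero κ := charZero_of_injective_algebraMap (algebraMap ℚ_[p] κ).injective
  have hl' : algebraMap ℚ_[p] κ l ≠ 0 := (_root_.map_ne_zero _).2 hl0
  have h1 := h.sq_div hw hp2 (h.add hw hp2 ha hb) l hl hl0
  have h2 := h.sq_div hw hp2 ha l hl hl0
  have h3 := h.sq_div hw hp2 hb l hl hl0
  have h4 := h.half (h.sub hw hp2 (h.sub hw hp2 h1 h2) h3)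
  convert h4 using 1
  field_simp
  ring

lemma smul' (h : MidClosed w P) (hw : ∀ x : ℚ_[p], w (algebraMap ℚ_[p] κ x) = ‖x‖)
    (hp2 : p ≠ 2) {a : κ} (ha : P a) (l : ℚ_[p]) : P (algebraMap ℚ_[p] κ l * a) := by
  have hp : p.Prime := Fact.out
  have hpR : (1 : ℝ) < p := by exact_mod_cast hp.one_lt
  have hp0 : (p : ℚ_[p]) ≠ 0 := by exact_mod_cast hp.ne_zero
  obtain ⟨n, hn⟩ := pow_unbounded_of_one_lt ‖l‖ hpR
  have hpn0 : (p : ℚ_[p]) ^ n ≠ 0 := pow_ne_zero _ hp0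
  have h1 := h.mul_div hw hp2 ha h.one ((p : ℚ_[p]) ^ n) (by
    rw [norm_pow, Padic.norm_p]
    exact pow_le_one₀ (by positivity) (inv_le_one_of_one_le₀ hpR.le)) hpn0
  have h2 := h.smul hw hp2 h1 (l * (p : ℚ_[p]) ^ n) (by
    rw [norm_mul, norm_pow, Padic.norm_p, inv_pow, mul_inv_le_iff₀ (pow_pos (by linarith) _),
      one_mul]
    exact hn.le)
  convert h2 using 1
  have h3 : algebraMap ℚ_[p] κ ((p : ℚ_[p]) ^ n) ≠ 0 := (_root_.map_ne_zero _).2 hpn0
  rw [map_mul]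
  field_simp

/-- **The closure is an algebra.** -/
theorem adjoin (h : MidClosed w P) (hw : ∀ x : ℚ_[p], w (algebraMap ℚ_[p] κ x) = ‖x‖)
    (hp2 : p ≠ 2) {x : κ} (hx : x ∈ Algebra.adjoin ℚ_[p] {x | P x}) : P x := by
  induction hx using Algebra.adjoin_induction with
  | mem x hx => exact hx
  | algebraMap r =>
    have := h.smul' hw hp2 h.one r
    rwa [mul_one] at this
  | add x y _ _ hx hy => exact h.add hw hp2 hx hy
  | mul x y _ _ hx hy =>
    have := h.mul_div hw hp2 hx hy 1 (by rw [norm_one]) one_ne_zero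
    rwa [map_one, div_one] at this

end MidClosed

end

end Vale.Agent.P025.R2.H637
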