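import Vale.Agent.P025.R2.H637.Create2
import Vale.Agent.P025.R2.H637.Closure

/-! # Approximable cusps -/

open Polynomial

namespace Vale.Agent.P025.R2.H637

universe u v

section def_app

variable {κ : Type u} {M : Type v} [Field κ] [Field M] [Algebra κ M]

/-- Near `ξ` there are elements with cusps near all elements of `D`. -/
def App (G : Set (M ≃+* M)) (R : Subring M) (v : AbsoluteValue M ℝ) (ξ : M) (D : Finset κ) :
    Prop :=
  ∀ ε > 0, ∃ x ∈ R, Fixed G x ∧ NonConst κ x ∧ v (x - ξ) < ε ∧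
    ∀ d ∈ D, ∃ c : κ, Cusp R x (algebraMap κ M c) ∧ v (algebraMap κ M (c - d)) < ε

variable {G : Set (M ≃+* M)} {R : Subring M} {v : AbsoluteValue M ℝ}

lemma App.mono {ξ : M} {D D' : Finset κ} (h : App G R v ξ D) (hD : D' ⊆ D) : App G R v ξ D' := by
  intro ε hε
  obtain ⟨x, h1, h2, h3, h4, h5⟩ := h ε hε
  exact ⟨x, h1, h2, h3, h4, fun d hd => h5 d (hD hd)⟩

lemma app_self {x : M} {D : Finset κ} (hx : x ∈ R) (hG : Fixed G x) (hc : NonConst κ x)
    (hD : ∀ d ∈ D, Cusp R x (algebraMap κ M d)) : App G R v x D := by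
  intro ε hε
  refine ⟨x, hx, hG, hc, by rw [sub_self, v.map_zero]; exact hε, fun d hd => ⟨d, hD d hd, ?_⟩⟩
  rw [sub_self, map_zero, v.map_zero]
  exact hε

lemma App.trans (hv : NA v) {ξ : M} {D : Finset κ} (h : ∀ ε > 0, ∃ ξ', v (ξ' - ξ) < ε ∧
    App G R v ξ' D) : App G R v ξ D := by
  intro ε hε
  obtain ⟨ξ', h1, h2⟩ := h ε hε
  obtain ⟨x, h3, h4, h5, h6, h7⟩ := h2 ε hε
  refine ⟨x, h3, h4, h5, ?_, h7⟩
  have : x - ξ = (x - ξ') + (ξ' - ξ) := by ring
  rw [this]
  exact hv.add_lt h6 h1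

lemma App.limit [DecidableEq κ] (hv : NA v) {ξ : M} {D : Finset κ} {d : κ}
    (h : ∀ δ > 0, ∃ d', App G R v ξ (insert d' D) ∧ v (algebraMap κ M (d' - d)) < δ) :
    App G R v ξ (insert d D) := by
  intro ε hε
  obtain ⟨d', h1, h2⟩ := h ε hε
  obtain ⟨x, h3, h4, h5, h6, h7⟩ := h1 ε hε
  refine ⟨x, h3, h4, h5, h6, fun e he => ?_⟩
  rcases Finset.mem_insert.1 he with rfl | he
  · obtain ⟨c, hc, hcd⟩ := h7 d' (Finset.mem_insert_self _ _)
    refine ⟨c, hc, ?_⟩
    have : c - e = (c - d') + (d' - e) := by ring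
    rw [this, map_add]
    exact hv.add_lt hcd h2
  · exact h7 e (Finset.mem_insert_of_mem he)

/-- values of inverses -/
lemma NA.inv_near (hv : NA v) {x ξ : M} {δ : ℝ} (hξ : ξ ≠ 0) (h1 : v (x - ξ) < δ)
    (h2 : δ ≤ v ξ) : v (x⁻¹ - ξ⁻¹) < δ / v ξ ^ 2 := by
  have h0 : 0 < v ξ := v.pos hξ
  have h3 : v x = v ξ := hv.eq_of_sub_lt (by rw [v.map_sub]; exact h1.trans_le h2)
  have hx : x ≠ 0 := by
    rintro rfl
    rw [v.map_zero] at h3
    exact h0.ne h3
  have h4 : x⁻¹ - ξ⁻¹ = -(x - ξ) / (x * ξ) := by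
    field_simp
    ring
  rw [h4, map_div₀, v.map_neg, v.map_mul, h3, ← sq]
  exact div_lt_div_of_pos_right h1 (by positivity)

/-- the inverse -/
lemma App.inv [DecidableEq κ] (hconst : ∀ c : κ, algebraMap κ M c ∈ R) (hv : NA v)
    (hfix : ∀ g ∈ G, ∀ c : κ, g (algebraMap κ M c) = algebraMap κ M c)
    {ξ : M} {D : Finset κ}
    (h : App G R v ξ D) (h0 : (0 : κ) ∈ D) (hξ : ξ ≠ 0) :
    App G R v ξ⁻¹ (D.image (fun d => d⁻¹)) := by
  classical
  intro ε hε
  obtain ⟨δ, hδ0, hδ⟩ := Frame.exists_pos_lower (insert ξ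
    ((D.filter (fun c => c ≠ 0)).image (fun c => algebraMap κ M c))) (fun c => v c) (by
      intro c hc
      rcases Finset.mem_insert.1 hc with rfl | hc
      · exact v.pos hξ
      · obtain ⟨d, hd, rfl⟩ := Finset.mem_image.1 hc
        exact v.pos ((_root_.map_ne_zero _).2 (Finset.mem_filter.1 hd).2))
  set η := min δ (min ε (ε * δ ^ 2)) with hη
  have hη0 : 0 < η := by positivity
  obtain ⟨x, hxR, hxG, hxc, hxξ, hcusp⟩ := h η hη0
  obtain ⟨c₀, hc₀, hc₀'⟩ := hcusp 0 h0
  rw [sub_zero] at hc₀'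
  have hηδ : η ≤ δ := min_le_left _ _
  have hηε : η ≤ ε := (min_le_right _ _).trans (min_le_left _ _)
  have hηε2 : ∀ y, δ ≤ v y → η / v y ^ 2 ≤ ε := by
    intro y hy
    have h1 : 0 < v y := hδ0.trans_le hy
    rw [div_le_iff₀ (by positivity)]
    have h2 : δ ^ 2 ≤ v y ^ 2 := pow_le_pow_left₀ hδ0.le hy 2
    calc η ≤ ε * δ ^ 2 := (min_le_right _ _).trans (min_le_right _ _)
      _ ≤ ε * v y ^ 2 := mul_le_mul_of_nonneg_left h2 hε.le
  have hne : x - algebraMap κ M c₀ ≠ 0 := hc₀.2.2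
  refine ⟨(x - algebraMap κ M c₀)⁻¹, hc₀.2.1, ?_, ?_, ?_, ?_⟩
  · intro g hg
    rw [map_inv₀, map_sub, hxG g hg, hfix g hg]
  · intro c hc
    apply hxc (c⁻¹ + c₀)
    rw [map_add, map_inv₀, ← hc, inv_inv]
    ring
  · have h1 : v ((x - algebraMap κ M c₀) - ξ) < η := by
      have : (x - algebraMap κ M c₀) - ξ = (x - ξ) - algebraMap κ M c₀ := by ring
      rw [this]
      exact hv.sub_lt hxξ hc₀'
    have h2 := hδ _ (Finset.mem_insert_self _ _)
    exact (hv.inv_near hξ h1 (hηδ.trans h2)).trans_le (hηε2 ξ h2)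
  · intro d hd
    obtain ⟨e, he, rfl⟩ := Finset.mem_image.1 hd
    by_cases he0 : e = 0
    · rw [he0, inv_zero]
      refine ⟨0, ⟨?_, ?_, ?_⟩, ?_⟩
      · rw [map_zero, sub_zero]
        exact hc₀.2.1
      · rw [map_zero, sub_zero, inv_inv]
        exact hc₀.1
      · rw [map_zero, sub_zero]
        exact inv_ne_zero hne
      · rw [sub_zero, map_zero, v.map_zero]
        exact hε
    · obtain ⟨c, hc, hce⟩ := hcusp e he
      have hmem : algebraMap κ M e ∈ insert ξ
          ((D.filter (fun c => c ≠ 0)).image (fun c => algebraMap κ M c)) :=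
        Finset.mem_insert_of_mem (Finset.mem_image.2 ⟨e, Finset.mem_filter.2 ⟨he, he0⟩, rfl⟩)
      have h2 := hδ _ hmem
      have heM : algebraMap κ M e ≠ 0 := (_root_.map_ne_zero _).2 he0
      have h1 : v (algebraMap κ M (c - c₀) - algebraMap κ M e) < η := by
        have : algebraMap κ M (c - c₀) - algebraMap κ M e =
            algebraMap κ M (c - e) - algebraMap κ M c₀ := by
          rw [map_sub, map_sub]; ring
        rw [this]
        exact hv.sub_lt hce hc₀'
      have h3 := hv.inv_near heM h1 (hηδ.trans h2)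
      have hcc0 : c - c₀ ≠ 0 := by
        intro h4
        rw [h4, map_zero, zero_sub, v.map_neg] at h1
        exact absurd (hηδ.trans h2) (not_le.2 h1)
      have hccM : algebraMap κ M (c - c₀) ≠ 0 := (_root_.map_ne_zero _).2 hcc0
      refine ⟨(c - c₀)⁻¹, ?_, ?_⟩
      · have e1 : (x - algebraMap κ M c₀)⁻¹ - algebraMap κ M (c - c₀)⁻¹ =
            -((x - algebraMap κ M c) * (x - algebraMap κ M c₀)⁻¹ *
              algebraMap κ M (c - c₀)⁻¹) := by
          rw [map_inv₀]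
          rw [map_sub] at hccM ⊢
          field_simp
          ring
        have e2 : ((x - algebraMap κ M c₀)⁻¹ - algebraMap κ M (c - c₀)⁻¹)⁻¹ =
            -((x - algebraMap κ M c)⁻¹ * (x - algebraMap κ M c₀) *
              algebraMap κ M (c - c₀)) := by
          rw [e1, inv_neg, mul_inv, mul_inv, inv_inv, map_inv₀, inv_inv]
        refine ⟨?_, ?_, ?_⟩
        · rw [e1]
          exact R.neg_mem (R.mul_mem (R.mul_mem hc.1 hc₀.2.1) (hconst _))
        · rw [e2]
          exact R.neg_mem (R.mul_mem (R.mul_mem hc.2.1 hc₀.1) (hconst _))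
        · rw [e1]
          refine neg_ne_zero.2 (mul_ne_zero (mul_ne_zero hc.2.2 (inv_ne_zero hne)) ?_)
          exact (_root_.map_ne_zero _).2 (inv_ne_zero hcc0)
      · have e3 : algebraMap κ M ((c - c₀)⁻¹ - e⁻¹) =
            (algebraMap κ M (c - c₀))⁻¹ - (algebraMap κ M e)⁻¹ := by
          rw [map_sub, map_inv₀, map_inv₀]
        rw [e3]
        exact h3.trans_le (hηε2 _ h2)

/-- affine transformations -/
lemma App.affine [DecidableEq κ] (hconst : ∀ c : κ, algebraMap κ M c ∈ R)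
    (hfix : ∀ g ∈ G, ∀ c : κ, g (algebraMap κ M c) = algebraMap κ M c) {ξ : M} {D : Finset κ}
    (h : App G R v ξ D) (α β : κ) (hα : α ≠ 0) :
    App G R v (algebraMap κ M α * ξ + algebraMap κ M β) (D.image (fun d => α * d + β)) := by
  classical
  intro ε hε
  have hα' : algebraMap κ M α ≠ 0 := (_root_.map_ne_zero _).2 hα
  have hα0 : 0 < v (algebraMap κ M α) := v.pos hα'
  obtain ⟨x, hxR, hxG, hxc, hxξ, hcusp⟩ := h (ε / v (algebraMap κ M α)) (by positivity)
  refine ⟨algebraMap κ M α * x + algebraMap κ M β, R.add_mem (R.mul_mem (hconst _) hxR)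
    (hconst _), ?_, ?_, ?_, ?_⟩
  · intro g hg
    rw [map_add, map_mul, hxG g hg, hfix g hg, hfix g hg]
  · intro c hc
    apply hxc ((c - β) / α)
    rw [map_div₀, map_sub, ← hc]
    field_simp
    ring
  · have : algebraMap κ M α * x + algebraMap κ M β - (algebraMap κ M α * ξ + algebraMap κ M β) =
      algebraMap κ M α * (x - ξ) := by ring
    rw [this, v.map_mul]
    rw [lt_div_iff₀ hα0] at hxξ
    linarith
  · intro d hd
    obtain ⟨e, he, rfl⟩ := Finset.mem_image.1 hd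
    obtain ⟨c, hc, hce⟩ := hcusp e he
    have hcu := hc
    refine ⟨α * c + β, ?_, ?_⟩
    · have e1 : algebraMap κ M α * x + algebraMap κ M β - algebraMap κ M (α * c + β) =
          algebraMap κ M α * (x - algebraMap κ M c) := by
        rw [map_add, map_mul]; ring
      refine ⟨?_, ?_, ?_⟩
      · rw [e1]; exact R.mul_mem (hconst _) hc.1
      · rw [e1, mul_inv, ← map_inv₀]; exact R.mul_mem (hconst _) hc.2.1
      · rw [e1]; exact mul_ne_zero hα' hc.2.2
    · have e1 : algebraMap κ M (α * c + β - (α * e + β)) =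
          algebraMap κ M α * algebraMap κ M (c - e) := by
        rw [← map_mul]; congr 1; ring
      rw [e1, v.map_mul]
      rw [lt_div_iff₀ hα0] at hce
      linarith

end def_app

section

variable {p : ℕ} [Fact p.Prime] {κ : Type u} {M : Type v} [Field κ] [Field M]
    [Algebra ℚ_[p] M] [Algebra κ M] {G : Set (M ≃+* M)} {R : Subring M}
    {v : AbsoluteValue M ℝ}

/-- midpoints -/
lemma App.mid [DecidableEq κ] [CharZero κ] (F : Frame p κ G R v) (hp2 : p ≠ 2)
    (hsplit : ∀ P : κ[X], (P.map (algebraMap κ M)).Splits) {ξ : M} {D : Finset κ}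
    (h : App G R v ξ D) {b₁ b₂ : κ} (h1 : b₁ ∈ D) (h2 : b₂ ∈ D) :
    App G R v ξ (insert ((b₁ + b₂) / 2) D) := by
  classical
  have hv := F.na
  by_cases hb : b₁ = b₂
  · rw [hb, add_self_div_two, Finset.insert_eq_of_mem h2]
    exact h
  intro ε hε
  have hb0 : 0 < v (algebraMap κ M (b₁ - b₂)) := v.pos ((_root_.map_ne_zero _).2 (sub_ne_zero.2 hb))
  have h20 : 0 < v (2 : M) := by
    have : CharZero M := charZero_of_injective_algebraMap (algebraMap κ M).injective
    exact v.pos two_ne_zero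
  set η := min (min ε (v (algebraMap κ M (b₁ - b₂)))) (ε * v (2 : M)) with hη
  have hη0 : 0 < η := by positivity
  have hηε : η ≤ ε := (min_le_left _ _).trans (min_le_left _ _)
  have hηb : η ≤ v (algebraMap κ M (b₁ - b₂)) := (min_le_left _ _).trans (min_le_right _ _)
  have hη2 : η ≤ ε * v (2 : M) := min_le_right _ _
  obtain ⟨x, hxR, hxG, hxc, hxξ, hcusp⟩ := h η hη0
  choose! c hc hcd using hcusp
  have hne : c b₁ ≠ c b₂ := by
    intro h0
    have e1 : algebraMap κ M (b₁ - b₂) = algebraMap κ M (c b₂ - b₂) - algebraMap κ M (c b₁ - b₁) := by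
      rw [← map_sub, h0]; congr 1; ring
    have e2 : v (algebraMap κ M (b₁ - b₂)) < η := by
      rw [e1]
      exact hv.sub_lt (hcd b₂ h2) (hcd b₁ h1)
    exact absurd hηb (not_le.2 e2)
  obtain ⟨x', hx'R, hx'G, hx'c, hx'x, hmid, hrest⟩ := F.create hp2 hsplit hxR hxG hxc hne
    (hc b₁ h1) (hc b₂ h2) (D.image c) (by
      intro y hy
      obtain ⟨d, hd, rfl⟩ := Finset.mem_image.1 hy
      exact hc d hd) hη0
  refine ⟨x', hx'R, hx'G, hx'c, ?_, ?_⟩
  · have : x' - ξ = (x' - x) + (x - ξ) := by ring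
    rw [this]
    exact (hv.add_lt hx'x hxξ).trans_le hηε
  · intro d hd
    rcases Finset.mem_insert.1 hd with rfl | hd
    · refine ⟨_, hmid, ?_⟩
      have e1 : algebraMap κ M ((c b₁ + c b₂) / 2 - (b₁ + b₂) / 2) =
          (algebraMap κ M (c b₁ - b₁) + algebraMap κ M (c b₂ - b₂)) / 2 := by
        rw [← map_add, ← map_ofNat (algebraMap κ M) 2, ← map_div₀]
        congr 1
        ring
      rw [e1, map_div₀, div_lt_iff₀ h20]
      exact (hv.add_lt (hcd b₁ h1) (hcd b₂ h2)).trans_le hη2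
    · obtain ⟨c', hc', hcc'⟩ := hrest (c d) (Finset.mem_image_of_mem _ hd)
      refine ⟨c', hc', ?_⟩
      have : c' - d = (c' - c d) + (c d - d) := by ring
      rw [this, map_add]
      exact (hv.add_lt hcc' (hcd d hd)).trans_le hηε

/-- harmonic means -/
lemma App.harm [DecidableEq κ] [CharZero κ] (F : Frame p κ G R v) (hp2 : p ≠ 2)
    (hsplit : ∀ P : κ[X], (P.map (algebraMap κ M)).Splits) {ξ : M} {D : Finset κ}
    (h : App G R v ξ D) (h0 : (0 : κ) ∈ D) (hξ : ξ ≠ 0) {b₁ b₂ : κ} (h1 : b₁ ∈ D) (h2 : b₂ ∈ D)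
    (hb : b₁ + b₂ ≠ 0) : App G R v ξ (insert (2 * b₁ * b₂ / (b₁ + b₂)) D) := by
  by_cases hb1 : b₁ = 0
  · rw [hb1, mul_zero, zero_mul, zero_div, Finset.insert_eq_of_mem h0]
    exact h
  by_cases hb2 : b₂ = 0
  · rw [hb2, mul_zero, zero_div, Finset.insert_eq_of_mem h0]
    exact h
  have e1 := h.inv F.const_mem F.na F.fix_const h0 hξ
  have e2 := e1.mid F hp2 hsplit (Finset.mem_image_of_mem _ h1) (Finset.mem_image_of_mem _ h2)
  have e3 := e2.inv F.const_mem F.na F.fix_const (Finset.mem_insert_of_mem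
    (Finset.mem_image.2 ⟨0, h0, inv_zero⟩)) (inv_ne_zero hξ)
  rw [inv_inv] at e3
  refine e3.mono ?_
  intro d hd
  rw [Finset.mem_image]
  rcases Finset.mem_insert.1 hd with rfl | hd
  · refine ⟨_, Finset.mem_insert_self _ _, ?_⟩
    have e4 : b₁⁻¹ + b₂⁻¹ = (b₁ + b₂) / (b₁ * b₂) := by
      field_simp
      ring
    show ((b₁⁻¹ + b₂⁻¹) / 2)⁻¹ = _
    rw [e4, inv_div, ← div_mul_eq_mul_div, div_div_eq_mul_div]
    ring
  · exact ⟨d⁻¹, Finset.mem_insert_of_mem (Finset.mem_image_of_mem _ hd), inv_inv d⟩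

/-- **Closure theorem**: the approximable cusps form an algebra. -/
theorem App.adjoin [DecidableEq κ] [CharZero κ] [Algebra ℚ_[p] κ] [IsScalarTower ℚ_[p] κ M]
    (F : Frame p κ G R v) (hp2 : p ≠ 2)
    (hsplit : ∀ P : κ[X], (P.map (algebraMap κ M)).Splits) {ξ : M} (hξ : ξ ≠ 0) {D₀ : Finset κ}
    (h0 : (0 : κ) ∈ D₀) (h1 : (1 : κ) ∈ D₀) (h : App G R v ξ D₀) (D : Finset κ)
    (hD : ∀ d ∈ D, d ∈ Algebra.adjoin ℚ_[p] (D₀ : Set κ)) : App G R v ξ (D ∪ D₀) := by
  let w : AbsoluteValue κ ℝ := v.comp (algebraMap κ M).injective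
  have hw : ∀ x : ℚ_[p], w (algebraMap ℚ_[p] κ x) = ‖x‖ := by
    intro x
    show v (algebraMap κ M (algebraMap ℚ_[p] κ x)) = _
    rw [← IsScalarTower.algebraMap_apply]
    exact F.ext x
  let P : κ → Prop := fun x => ∀ D : Finset κ, D₀ ⊆ D → App G R v ξ D → App G R v ξ (insert x D)
  have hP : MidClosed w P := by
    refine ⟨?_, ?_, ?_, ?_, ?_⟩
    · intro D hD hA
      rw [Finset.insert_eq_of_mem (hD h0)]
      exact hA
    · intro D hD hA
      rw [Finset.insert_eq_of_mem (hD h1)]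
      exact hA
    · intro x y hx hy D hD hA
      have e1 := hx _ (hD.trans (Finset.subset_insert _ _)) (hy D hD hA)
      have e2 := e1.mid F hp2 hsplit (Finset.mem_insert_self x _)
        (Finset.mem_insert_of_mem (Finset.mem_insert_self y _))
      exact e2.mono (Finset.insert_subset_insert _
        ((Finset.subset_insert _ _).trans (Finset.subset_insert _ _)))
    · intro x y hx hy hxy D hD hA
      have e1 := hx _ (hD.trans (Finset.subset_insert _ _)) (hy D hD hA)
      have e2 := e1.harm F hp2 hsplit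
        (Finset.mem_insert_of_mem (Finset.mem_insert_of_mem (hD h0))) hξ
        (Finset.mem_insert_self x _)
        (Finset.mem_insert_of_mem (Finset.mem_insert_self y _)) hxy
      exact e2.mono (Finset.insert_subset_insert _
        ((Finset.subset_insert _ _).trans (Finset.subset_insert _ _)))
    · intro x hx D hD hA
      apply App.limit F.na
      intro δ hδ
      obtain ⟨y, hy, hyx⟩ := hx δ hδ
      exact ⟨y, hy D hD hA, hyx⟩
  have hmem : ∀ x ∈ Algebra.adjoin ℚ_[p] (D₀ : Set κ), P x := by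
    intro x hx
    refine hP.adjoin hw hp2 (Algebra.adjoin_mono ?_ hx)
    intro y hy D hD hA
    rw [Finset.insert_eq_of_mem (hD hy)]
    exact hA
  induction D using Finset.induction_on with
  | empty => rwa [Finset.empty_union]
  | insert a D _ ih =>
    rw [Finset.insert_union]
    exact hmem a (hD a (Finset.mem_insert_self _ _)) _ Finset.subset_union_right
      (ih (fun d hd => hD d (Finset.mem_insert_of_mem hd)))

end

end Vale.Agent.P025.R2.H637
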