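import Vale.Agent.P025.R2.H637.Est

/-! # Perturbations over a finite extension of `ℚ_p` -/

open Polynomial

namespace Vale.Agent.P025.R2.H637

universe u v

variable {p : ℕ} [Fact p.Prime] {κ : Type u} [Field κ] [Algebra ℚ_[p] κ]
  [FiniteDimensional ℚ_[p] κ]

/-- linear independence is an open condition -/
lemma linInd_near {ι : Type*} [Finite ι] {θ : ι → κ} (h : LinearIndependent ℚ_[p] θ) :
    ∃ δ > 0, ∀ θ' : ι → κ, (∀ i, spectralNorm ℚ_[p] κ (θ' i - θ i) < δ) →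
      LinearIndependent ℚ_[p] θ' := by
  let inst1 : NontriviallyNormedField κ := spectralNorm.nontriviallyNormedField ℚ_[p] κ
  let _ : NormedAlgebra ℚ_[p] κ := spectralNorm.normedAlgebra ℚ_[p] κ
  have _ := Fintype.ofFinite ι
  have h1 := isOpen_setOfPred_linearIndependent (𝕜 := ℚ_[p]) (E := κ) (ι := ι)
  rw [Metric.isOpen_iff] at h1
  obtain ⟨δ, hδ, h2⟩ := h1 θ h
  refine ⟨δ, hδ, fun θ' hθ' => h2 ?_⟩
  rw [Metric.mem_ball, dist_pi_lt_iff hδ]
  intro i
  rw [dist_eq_norm]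
  exact hθ' i

/-- continuity of the data of the Kummer step -/
lemma cont_near {n : ℕ} (hn : 0 < n) {e c : κ} (he : e ≠ 0) (h1 : c / (n * e) - 1 ≠ 0)
    (h2 : c / (n * e) + 1 ≠ 0) {η : ℝ} (hη : 0 < η) :
    ∃ δ > 0, ∀ b₁ b₂ c' : κ, spectralNorm ℚ_[p] κ (b₁ - (-(n * e))) < δ →
      spectralNorm ℚ_[p] κ (b₂ - n * e) < δ → spectralNorm ℚ_[p] κ (c' - c) < δ →
      spectralNorm ℚ_[p] κ ((b₂ - b₁) / (2 * n) / e - 1) < η ∧
      spectralNorm ℚ_[p] κ ((b₁ + b₂) / 2) < η ∧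
      spectralNorm ℚ_[p] κ ((((c' - (b₁ + b₂) / 2) / (n * ((b₂ - b₁) / (2 * n))) + 1) /
        ((c' - (b₁ + b₂) / 2) / (n * ((b₂ - b₁) / (2 * n))) - 1)) /
          ((c / (n * e) + 1) / (c / (n * e) - 1)) - 1) < η := by
  have hchar : CharZero κ := charZero_of_injective_algebraMap (algebraMap ℚ_[p] κ).injective
  let inst1 : NontriviallyNormedField κ := spectralNorm.nontriviallyNormedField ℚ_[p] κ
  have hnκ : (n : κ) ≠ 0 := Nat.cast_ne_zero.2 hn.ne'
  have h2κ : (2 : κ) ≠ 0 := two_ne_zero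
  let P : κ × κ × κ := (-(n * e), n * e, c)
  have e1 : ((n * e - -(n * e)) / (2 * n) : κ) = e := by
    field_simp
    ring
  have e2 : ((-(n * e) + n * e) / 2 : κ) = 0 := by ring
  have e3 : (c - (-(n * e) + n * e) / 2) / (n * ((n * e - -(n * e)) / (2 * n))) = c / (n * e) := by
    rw [e1, e2, sub_zero]
  have hd : (n * ((n * e - -(n * e)) / (2 * n)) : κ) ≠ 0 := by
    rw [e1]
    exact mul_ne_zero hnκ he
  have c0 : ContinuousAt (fun x : κ × κ × κ => (x.2.1 - x.1) / (2 * n)) P := by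
    exact ((continuous_snd.fst.sub continuous_fst).div_const _).continuousAt
  have c1 : ContinuousAt (fun x : κ × κ × κ => (x.2.1 - x.1) / (2 * n) / e - 1) P := by
    exact (((continuous_snd.fst.sub continuous_fst).div_const _).div_const _
      |>.sub continuous_const).continuousAt
  have c2 : ContinuousAt (fun x : κ × κ × κ => (x.1 + x.2.1) / 2) P :=
    ((continuous_fst.add continuous_snd.fst).div_const _).continuousAt
  have c3 : ContinuousAt (fun x : κ × κ × κ =>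
      (x.2.2 - (x.1 + x.2.1) / 2) / (n * ((x.2.1 - x.1) / (2 * n)))) P := by
    refine ContinuousAt.div ?_ ?_ hd
    · exact continuous_snd.snd.continuousAt.sub c2
    · exact continuousAt_const.mul c0
  have c4 : ContinuousAt (fun x : κ × κ × κ =>
      (((x.2.2 - (x.1 + x.2.1) / 2) / (n * ((x.2.1 - x.1) / (2 * n))) + 1) /
        ((x.2.2 - (x.1 + x.2.1) / 2) / (n * ((x.2.1 - x.1) / (2 * n))) - 1)) /
          ((c / (n * e) + 1) / (c / (n * e) - 1)) - 1) P := by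
    refine ((ContinuousAt.div (c3.add continuousAt_const) (c3.sub continuousAt_const)
      ?_).div_const _).sub continuousAt_const
    show (c - (-(n * e) + n * e) / 2) / (n * ((n * e - -(n * e)) / (2 * n))) - 1 ≠ 0
    rw [e3]
    exact h1
  rw [Metric.continuousAt_iff] at c1 c2 c4
  obtain ⟨δ₁, hδ₁, h3⟩ := c1 η hη
  obtain ⟨δ₂, hδ₂, h4⟩ := c2 η hη
  obtain ⟨δ₃, hδ₃, h5⟩ := c4 η hη
  refine ⟨min δ₁ (min δ₂ δ₃), lt_min hδ₁ (lt_min hδ₂ hδ₃), ?_⟩
  intro b₁ b₂ c' hb₁ hb₂ hc'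
  have hdist : dist ((b₁, b₂, c') : κ × κ × κ) P < min δ₁ (min δ₂ δ₃) := by
    rw [Prod.dist_eq, Prod.dist_eq, dist_eq_norm, dist_eq_norm, dist_eq_norm]
    exact max_lt hb₁ (max_lt hb₂ hc')
  have g1 := h3 (hdist.trans_le (min_le_left _ _))
  have g2 := h4 (hdist.trans_le ((min_le_right _ _).trans (min_le_left _ _)))
  have g3 := h5 (hdist.trans_le ((min_le_right _ _).trans (min_le_right _ _)))
  simp only [P] at g1 g2 g3
  rw [e1, div_self he, sub_self, dist_zero_right] at g1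
  rw [e2, dist_zero_right] at g2
  rw [e3, div_self (div_ne_zero h2 h1), sub_self, dist_zero_right] at g3
  exact ⟨g1, g2, g3⟩

end Vale.Agent.P025.R2.H637
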