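import Vale.Agent.P025.R2.H637.Kum

/-! # Creating new cusps: Kummer maps, the main step -/

open Polynomial

namespace Vale.Agent.P025.R2.H637

universe u v

variable {p : ℕ} [Fact p.Prime] {κ : Type u} {M : Type v} [Field κ] [Field M]
    [Algebra ℚ_[p] M] [Algebra κ M] {G : Set (M ≃+* M)} {R : Subring M}
    {v : AbsoluteValue M ℝ}

namespace Frame

variable (F : Frame p κ G R v)

include F in
/-- one Kummer step with given data -/
lemma create_kum [CharZero κ] (hsplit : ∀ P : κ[X], (P.map (algebraMap κ M)).Splits)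
    {n : ℕ} (hn : 0 < n) {x : M} (hx : x ∈ R) (hxG : Fixed G x)
    (hxc : NonConst κ x) {b₁ b₂ : κ} (hb : b₁ ≠ b₂) (h1 : Cusp R x (algebraMap κ M b₁))
    (h2 : Cusp R x (algebraMap κ M b₂)) {a e : κ} (ha : a = (b₁ + b₂) / 2)
    (he : e = (b₂ - b₁) / (2 * n))
    (hsmall : v (algebraMap κ M e) < v (n : M) * v (x - algebraMap κ M a)) :
    ∃ x' : M, x' ∈ R ∧ Fixed G x' ∧ NonConst κ x' ∧
      v (x' - x) ≤ v (algebraMap κ M e) / v (n : M) ∧
      Cusp R x' (algebraMap κ M (a - e)) ∧ Cusp R x' (algebraMap κ M (a + e)) ∧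
      (∀ z₀ : κ, z₀ ≠ 1 → z₀ ^ n ≠ 1 →
        Cusp R x (algebraMap κ M (a + n * e * ((z₀ ^ n + 1) / (z₀ ^ n - 1)))) →
          Cusp R x' (algebraMap κ M (a + e * ((z₀ + 1) / (z₀ - 1))))) ∧
      ∀ c : κ, Cusp R x (algebraMap κ M c) →
        v (algebraMap κ M e) < v (n : M) * v (algebraMap κ M (c - a)) →
        ∃ c' : κ, Cusp R x' (algebraMap κ M c') ∧
          v (algebraMap κ M (c' - c)) ≤ v (algebraMap κ M e) / v (n : M) := by
  have hv := F.na
  have hinj := (algebraMap κ M).injective
  have hcharM : CharZero M := charZero_of_injective_algebraMap hinj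
  have hnκ : (n : κ) ≠ 0 := Nat.cast_ne_zero.2 hn.ne'
  have hnM : (n : M) ≠ 0 := Nat.cast_ne_zero.2 hn.ne'
  have hba : b₂ - b₁ ≠ 0 := sub_ne_zero.2 hb.symm
  have he0 : e ≠ 0 := by
    rw [he]
    exact div_ne_zero hba (mul_ne_zero two_ne_zero hnκ)
  have heM0 : algebraMap κ M e ≠ 0 := (_root_.map_ne_zero _).2 he0
  have h2e : (2 : M) * algebraMap κ M e ≠ 0 := mul_ne_zero two_ne_zero heM0
  have hne : (n : κ) * e = b₂ - a := by
    rw [he, ha]
    field_simp
    ring
  have hne' : -((n : κ) * e) = b₁ - a := by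
    rw [hne, ha]
    ring
  have h2ne : 2 * (n : κ) * e ≠ 0 := mul_ne_zero (mul_ne_zero two_ne_zero hnκ) he0
  set t : R := ⟨x, hx⟩ - F.ι a with ht
  have htM : (t : M) = x - algebraMap κ M a := rfl
  have ht0 : (t : M) ≠ 0 := by
    rw [htM]
    exact sub_ne_zero.2 (hxc a)
  have htG : ∀ g ∈ G, g (t : M) = t := by
    intro g hg
    rw [htM, map_sub, hxG g hg, F.fix_const g hg]
  -- units
  have hcusp : ∀ c : κ, Cusp R x (algebraMap κ M c) → IsUnit (F.ι (c - a) - t) := by
    intro c hc
    have h3 : F.ι (c - a) - t = -⟨x - algebraMap κ M c, hc.1⟩ := by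
      apply Subtype.ext
      show algebraMap κ M (c - a) - (x - algebraMap κ M a) = -(x - algebraMap κ M c)
      rw [map_sub]
      ring
    rw [h3]
    exact hc.isUnit.neg
  set u₁ : R := (F.ι (n * e) - t) * F.ι (2 * n * e)⁻¹ with hu₁
  set u₂ : R := (F.ι (n * e) + t) * F.ι (2 * n * e)⁻¹ with hu₂
  have hu12 : u₁ + u₂ = 1 := by
    rw [hu₁, hu₂, ← add_mul]
    have h3 : F.ι (n * e) - t + (F.ι (n * e) + t) = F.ι (2 * n * e) := by
      have : (2 * n * e : κ) = n * e + n * e := by ring
      rw [this, map_add]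
      ring
    rw [h3, ← map_mul, mul_inv_cancel₀ h2ne, map_one]
  have huu₁ : IsUnit u₁ := by
    refine IsUnit.mul ?_ (F.isUnit_ι (inv_ne_zero h2ne))
    rw [hne]
    exact hcusp b₂ h2
  have huu₂ : IsUnit u₂ := by
    refine IsUnit.mul ?_ (F.isUnit_ι (inv_ne_zero h2ne))
    have h3 : F.ι (n * e) + t = -(F.ι (b₁ - a) - t) := by
      rw [← hne', map_neg]
      ring
    rw [h3]
    exact (hcusp b₁ h1).neg
  set Q : R[X] := KP n (F.ι e) u₁ u₂ with hQ
  have hu₁M : (u₁ : M) = ((n : M) * algebraMap κ M e - t) / (2 * n * algebraMap κ M e) := by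
    show (algebraMap κ M (n * e) - (t : M)) * algebraMap κ M (2 * n * e)⁻¹ = _
    rw [map_inv₀, map_mul, map_mul, map_mul, map_natCast, map_ofNat, div_eq_mul_inv]
  have hu₂M : (u₂ : M) = ((n : M) * algebraMap κ M e + t) / (2 * n * algebraMap κ M e) := by
    show (algebraMap κ M (n * e) + (t : M)) * algebraMap κ M (2 * n * e)⁻¹ = _
    rw [map_inv₀, map_mul, map_mul, map_mul, map_natCast, map_ofNat, div_eq_mul_inv]
  have hQmap : Q.map R.subtype = KP n (algebraMap κ M e)
      (((n : M) * algebraMap κ M e - t) / (2 * n * algebraMap κ M e))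
      (((n : M) * algebraMap κ M e + t) / (2 * n * algebraMap κ M e)) := by
    rw [hQ, KP_map, ← hu₁M, ← hu₂M]
    rfl
  have hQmon : Q.Monic := KP_monic _ _ _ _ hu12
  have hQsep : Q.Separable := by
    refine KP_separable n _ _ _ huu₁ huu₂ ?_ ?_
    · have h3 : (2 : R) * F.ι e = F.ι (2 * e) := by rw [map_mul, map_ofNat]
      rw [h3]
      exact F.isUnit_ι (mul_ne_zero two_ne_zero he0)
    · have h3 : (n : R) = F.ι n := by rw [map_natCast]
      rw [h3]
      exact F.isUnit_ι hnκ
  have hspl := F.splits Q hQmon hQsep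
  rw [hQmap] at hspl
  obtain ⟨y, hyroot, hty⟩ := kum_exists hv hn hnM ht0 two_ne_zero heM0 hspl
  have hsmall' : v (algebraMap κ M e) < v (n : M) * v (t : M) := hsmall
  have hnear := kum_near hv hnM ht0 h2e hsmall' hty hyroot
  have ht00 : 0 < v (t : M) := v.pos ht0
  have hu₁0 : ((n : M) * algebraMap κ M e - t) / (2 * n * algebraMap κ M e) ≠ 0 := by
    rw [← hu₁M]
    intro h0
    have h3 : u₁ = 0 := Subtype.ext h0
    rw [h3, isUnit_zero_iff] at huu₁
    exact zero_ne_one huu₁
  have hyfix : Fixed G y := by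
    intro g hg
    refine kum_unique hv ht00 h2e hsmall' hu₁0 (by rw [F.inv g hg]; exact hty) hty ?_ hyroot
    have h3 := congrArg g hyroot
    rw [KP_eval] at h3 ⊢
    simp only [map_zero, map_add, map_sub, map_mul, map_div₀, map_pow, F.fix_const g hg,
      htG g hg, map_natCast, map_ofNat] at h3
    exact h3
  have hyR : y ∈ R := F.int_closed Q y hQmon (by rw [hQmap]; exact hyroot)
  have hQy : Q.eval (⟨y, hyR⟩ : R) = 0 := by
    apply Subtype.ext
    have h3 : ((Q.eval (⟨y, hyR⟩ : R) : R) : M) = (Q.map R.subtype).eval y := by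
      rw [eval_map]
      exact hom_eval₂ Q (RingHom.id R) R.subtype _
    rw [h3, hQmap]
    exact hyroot
  have hunit : ∀ z : κ, IsUnit (Q.eval (F.ι z)) →
      Cusp R (y + algebraMap κ M a) (algebraMap κ M (a + z)) := by
    intro z hz
    refine cusp_of_isUnit _ (isUnit_sub_of_root _ _ _ hz hQy) ?_
    show y - algebraMap κ M z = _
    rw [map_add]
    ring
  have hy0 : y ≠ 0 := by
    rintro rfl
    rw [v.map_zero] at hty
    exact absurd ht00 (not_lt.2 hty)
  -- values at constants
  have hQev : ∀ z : κ, Q.eval (F.ι z) =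
      (F.ι (n * e * ((z + e) ^ n + (z - e) ^ n)) - t * F.ι ((z + e) ^ n - (z - e) ^ n)) *
        F.ι (2 * n * e)⁻¹ := by
    intro z
    rw [hQ, KP_eval, hu₁, hu₂]
    simp only [map_mul, map_add, map_sub, map_pow]
    ring
  refine ⟨y + algebraMap κ M a, R.add_mem hyR (F.const_mem a), ?_, ?_, ?_, ?_, ?_, ?_, ?_⟩
  · intro g hg
    rw [map_add, hyfix g hg, F.fix_const g hg]
  · intro c hc
    have h3 : y = algebraMap κ M (c - a) := by
      rw [map_sub, ← hc]
      ring
    -- then `t` would be a constant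
    have h4 : (F.ι (n * e * ((c - a + e) ^ n + (c - a - e) ^ n)) -
        t * F.ι ((c - a + e) ^ n - (c - a - e) ^ n)) = 0 := by
      have h5 := hQev (c - a)
      have h6 : F.ι (c - a) = (⟨y, hyR⟩ : R) := Subtype.ext h3.symm
      rw [h6, hQy] at h5
      have h7 := F.isUnit_ι (inv_ne_zero h2ne)
      exact (IsUnit.mul_left_eq_zero h7).1 h5.symm
    have h5 : algebraMap κ M (n * e * ((c - a + e) ^ n + (c - a - e) ^ n)) =
        (x - algebraMap κ M a) * algebraMap κ M ((c - a + e) ^ n - (c - a - e) ^ n) := by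
      have h6 := congrArg Subtype.val h4
      exact sub_eq_zero.1 h6
    by_cases h0 : (c - a + e) ^ n - (c - a - e) ^ n = 0
    · rw [h0, map_zero, mul_zero, ← map_zero (algebraMap κ M)] at h5
      have h6 := hinj h5
      have h7 : (c - a + e) ^ n + (c - a - e) ^ n = 0 :=
        (mul_eq_zero.1 h6).resolve_left (mul_ne_zero hnκ he0)
      have h8 : (c - a + e) ^ n = 0 := by
        have h9 : (2 : κ) * (c - a + e) ^ n = 0 := by linear_combination h0 + h7
        exact (mul_eq_zero.1 h9).resolve_left two_ne_zero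
      have h9 : (c - a - e) ^ n = 0 := by linear_combination h7 - h8
      have h10 := pow_eq_zero_iff (hn.ne') |>.1 h8
      have h11 := pow_eq_zero_iff (hn.ne') |>.1 h9
      have h12 : (2 : κ) * e = 0 := by linear_combination h10 - h11
      exact (mul_ne_zero two_ne_zero he0) h12
    · apply hxc (n * e * ((c - a + e) ^ n + (c - a - e) ^ n) /
        ((c - a + e) ^ n - (c - a - e) ^ n) + a)
      have h6 : algebraMap κ M ((c - a + e) ^ n - (c - a - e) ^ n) ≠ 0 :=
        (_root_.map_ne_zero _).2 h0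
      rw [map_add, map_div₀, h5, mul_div_cancel_right₀ _ h6]
      ring
  · have h3 : y + algebraMap κ M a - x = y - t := by
      rw [htM]
      ring
    rw [h3]
    exact hnear
  · have h3 := hunit (-e) (by
      rw [hQ, KP_eval, map_neg, neg_add_cancel, zero_pow hn.ne', mul_zero, zero_add]
      refine huu₂.mul (IsUnit.pow _ ?_)
      have h4 : -F.ι e - F.ι e = F.ι (-(2 * e)) := by
        rw [map_neg, map_mul, map_ofNat]
        ring
      rw [h4]
      exact F.isUnit_ι (neg_ne_zero.2 (mul_ne_zero two_ne_zero he0)))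
    rwa [← sub_eq_add_neg] at h3
  · refine hunit e ?_
    rw [hQ, KP_eval, sub_self, zero_pow hn.ne', mul_zero, add_zero]
    refine huu₁.mul (IsUnit.pow _ ?_)
    have h4 : F.ι e + F.ι e = F.ι (2 * e) := by
      rw [map_mul, map_ofNat]
      ring
    rw [h4]
    exact F.isUnit_ι (mul_ne_zero two_ne_zero he0)
  · intro z₀ hz1 hzn hc
    refine hunit _ ?_
    have hz1' : z₀ - 1 ≠ 0 := sub_ne_zero.2 hz1
    have hzn' : z₀ ^ n - 1 ≠ 0 := sub_ne_zero.2 hzn
    have e1 : e * ((z₀ + 1) / (z₀ - 1)) + e = 2 * e / (z₀ - 1) * z₀ := by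
      field_simp
      ring
    have e2 : e * ((z₀ + 1) / (z₀ - 1)) - e = 2 * e / (z₀ - 1) := by
      field_simp
      ring
    have h3 : Q.eval (F.ι (e * ((z₀ + 1) / (z₀ - 1)))) =
        F.ι ((2 * e / (z₀ - 1)) ^ n * (z₀ ^ n - 1) * (2 * n * e)⁻¹) *
          (F.ι (a + n * e * ((z₀ ^ n + 1) / (z₀ ^ n - 1)) - a) - t) := by
      rw [hQev, e1, e2]
      have e3 : (n : κ) * e * ((2 * e / (z₀ - 1) * z₀) ^ n + (2 * e / (z₀ - 1)) ^ n) =
          (2 * e / (z₀ - 1)) ^ n * (z₀ ^ n - 1) *
            (a + n * e * ((z₀ ^ n + 1) / (z₀ ^ n - 1)) - a) := by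
        rw [mul_pow]
        field_simp
        ring
      have e4 : (2 * e / (z₀ - 1) * z₀) ^ n - (2 * e / (z₀ - 1)) ^ n =
          (2 * e / (z₀ - 1)) ^ n * (z₀ ^ n - 1) := by
        rw [mul_pow]
        ring
      rw [e3, e4]
      simp only [map_mul]
      ring
    rw [h3]
    refine IsUnit.mul (F.isUnit_ι ?_) (hcusp _ hc)
    exact mul_ne_zero (mul_ne_zero (pow_ne_zero _ (div_ne_zero
      (mul_ne_zero two_ne_zero he0) hz1')) hzn') (inv_ne_zero h2ne)
  · intro c hc hch
    have hca : c - a ≠ 0 := by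
      intro h0
      rw [h0, map_zero, v.map_zero, mul_zero] at hch
      exact absurd (v.nonneg _) (not_le.2 hch)
    set tc : M := algebraMap κ M (c - a) with htc
    have htc0 : tc ≠ 0 := (_root_.map_ne_zero _).2 hca
    have hmapc : (KP n e ((n * e - (c - a)) / (2 * n * e)) ((n * e + (c - a)) / (2 * n * e))).map
        (algebraMap κ M) = KP n (algebraMap κ M e)
        (((n : M) * algebraMap κ M e - tc) / (2 * n * algebraMap κ M e))
        (((n : M) * algebraMap κ M e + tc) / (2 * n * algebraMap κ M e)) := by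
      rw [KP_map]
      simp only [map_div₀, map_sub, map_add, map_mul, map_natCast, map_ofNat, htc]
    have hspc := hsplit (KP n e ((n * e - (c - a)) / (2 * n * e))
      ((n * e + (c - a)) / (2 * n * e)))
    rw [hmapc] at hspc
    obtain ⟨z, hzroot, htz⟩ := kum_exists hv hn hnM htc0 two_ne_zero heM0 hspc
    have hznear := kum_near hv hnM htc0 h2e hch htz hzroot
    have htc00 : 0 < v tc := v.pos htc0
    have hnec : (n : M) * algebraMap κ M e - tc ≠ 0 := by
      intro h0
      have h3 : v tc < v (n : M) * v tc := by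
        have h4 : (n : M) * algebraMap κ M e = tc := sub_eq_zero.1 h0
        have h5 : v tc ≤ v (algebraMap κ M e) := by
          rw [← h4, v.map_mul]
          calc v (n : M) * v (algebraMap κ M e) ≤ 1 * v (algebraMap κ M e) :=
                mul_le_mul_of_nonneg_right (hv.natCast_le n) (v.nonneg _)
            _ = _ := one_mul _
        exact h5.trans_lt hch
      have h4 := mul_le_mul_of_nonneg_right (hv.natCast_le (M := M) n) htc00.le
      rw [one_mul] at h4
      exact absurd h3 (not_lt.2 h4)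
    have hu₁c : ((n : M) * algebraMap κ M e - tc) / (2 * n * algebraMap κ M e) ≠ 0 := by
      refine div_ne_zero hnec ?_
      exact mul_ne_zero (mul_ne_zero two_ne_zero hnM) heM0
    have hzfix : Fixed G z := by
      intro g hg
      refine kum_unique hv htc00 h2e hch hu₁c (by rw [F.inv g hg]; exact htz) htz ?_ hzroot
      have h3 := congrArg g hzroot
      rw [KP_eval] at h3 ⊢
      simp only [map_zero, map_add, map_sub, map_mul, map_div₀, map_pow, F.fix_const g hg,
        map_natCast, map_ofNat, htc] at h3 ⊢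
      exact h3
    have hzint : IsIntegral κ z := by
      refine ⟨KP n e ((n * e - (c - a)) / (2 * n * e)) ((n * e + (c - a)) / (2 * n * e)), ?_, ?_⟩
      · apply KP_monic
        rw [← add_div]
        field_simp
        ring
      · rw [eval₂_eq_eval_map, hmapc]
        exact hzroot
    obtain ⟨z', hz'⟩ := F.const_of_fix z hzint hzfix
    have hroot' : (n * e * ((z' + e) ^ n + (z' - e) ^ n)) =
        (c - a) * ((z' + e) ^ n - (z' - e) ^ n) := by
      apply hinj
      rw [KP_eval, ← hz'] at hzroot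
      have h2nM : (2 : M) * n * algebraMap κ M e ≠ 0 :=
        mul_ne_zero (mul_ne_zero two_ne_zero hnM) heM0
      rw [div_mul_eq_mul_div, div_mul_eq_mul_div, ← add_div, div_eq_zero_iff] at hzroot
      have h3 := hzroot.resolve_right h2nM
      simp only [map_mul, map_add, map_sub, map_pow, map_natCast]
      rw [htc] at h3
      simp only [map_sub] at h3
      linear_combination h3
    have hden : (z' + e) ^ n - (z' - e) ^ n ≠ 0 := by
      intro h0
      rw [h0, mul_zero] at hroot'
      have h7 : (z' + e) ^ n + (z' - e) ^ n = 0 :=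
        (mul_eq_zero.1 hroot').resolve_left (mul_ne_zero hnκ he0)
      have h8 : (z' + e) ^ n = 0 := by
        have h9 : (2 : κ) * (z' + e) ^ n = 0 := by linear_combination h0 + h7
        exact (mul_eq_zero.1 h9).resolve_left two_ne_zero
      have h9 : (z' - e) ^ n = 0 := by linear_combination h7 - h8
      have h10 := pow_eq_zero_iff (hn.ne') |>.1 h8
      have h11 := pow_eq_zero_iff (hn.ne') |>.1 h9
      have h12 : (2 : κ) * e = 0 := by linear_combination h10 - h11
      exact (mul_ne_zero two_ne_zero he0) h12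
    refine ⟨a + z', hunit z' ?_, ?_⟩
    · rw [hQev, hroot']
      have h3 : F.ι ((c - a) * ((z' + e) ^ n - (z' - e) ^ n)) -
          t * F.ι ((z' + e) ^ n - (z' - e) ^ n) =
          (F.ι (c - a) - t) * F.ι ((z' + e) ^ n - (z' - e) ^ n) := by
        rw [map_mul]
        ring
      rw [h3]
      exact ((hcusp c hc).mul (F.isUnit_ι hden)).mul (F.isUnit_ι (inv_ne_zero h2ne))
    · have h3 : algebraMap κ M (a + z' - c) = z - tc := by
        rw [map_sub, map_add, hz', htc, map_sub]
        ring
      rw [h3]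
      exact hznear

end Frame

end Vale.Agent.P025.R2.H637
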