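import Vale.Agent.P025.R2.H637.App
import Vale.Agent.P025.R2.H637.Kum2
import Vale.Agent.P025.R2.H637.Cont

/-! # Enlarging the field of cusps -/

open Polynomial

namespace Vale.Agent.P025.R2.H637

universe u v

variable {p : ℕ} [Fact p.Prime] {κ : Type u} {M : Type v} [Field κ] [Field M]
    [Algebra ℚ_[p] M] [Algebra κ M] {G : Set (M ≃+* M)} {R : Subring M}
    {v : AbsoluteValue M ℝ}

section

variable [Algebra ℚ_[p] κ] [IsScalarTower ℚ_[p] κ M] [FiniteDimensional ℚ_[p] κ]

/-- the absolute value on constants -/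
lemma v_const (hext : Ext p v) (c : κ) : v (algebraMap κ M c) = spectralNorm ℚ_[p] κ c := by
  have h := spectralNorm_unique_field_norm_ext (K := ℚ_[p]) (L := κ)
    (f := v.comp (algebraMap κ M).injective) (fun x => by
      show v (algebraMap κ M (algebraMap ℚ_[p] κ x)) = _
      rw [← IsScalarTower.algebraMap_apply]
      exact hext x) c
  exact h

/-- one step: enlarging the field generated by the cusps -/
lemma kum_grow (F : Frame p κ G R v) (hsplit : ∀ P : κ[X], (P.map (algebraMap κ M)).Splits)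
    {x : M} (hxc : NonConst κ x) (A : Subalgebra ℚ_[p] κ)
    (hApp : ∀ D : Finset κ, (∀ d ∈ D, d ∈ A) → App G R v x D) {z : κ} (hzA : z ∉ A) {n : ℕ}
    (hn : 0 < n) (hzn : z ^ n ∈ A) (hzn1 : z ^ n ≠ 1) {ε : ℝ} (hε : 0 < ε) :
    ∃ x₂ ∈ R, Fixed G x₂ ∧ NonConst κ x₂ ∧ v (x₂ - x) < ε ∧
      ∃ (α β : κ) (D : Finset κ), α ≠ 0 ∧ (0 : κ) ∈ D ∧ (1 : κ) ∈ D ∧
        (∀ d ∈ D, Cusp R x₂ (algebraMap κ M (α * d + β))) ∧
        Module.finrank ℚ_[p] A + 1 ≤ Module.finrank ℚ_[p] (Algebra.adjoin ℚ_[p] (D : Set κ)) := by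
  classical
  have hp : p.Prime := Fact.out
  have hv := F.na
  have hchar : CharZero κ := charZero_of_injective_algebraMap (algebraMap ℚ_[p] κ).injective
  have hcharM : CharZero M := charZero_of_injective_algebraMap (algebraMap κ M).injective
  have hnκ : (n : κ) ≠ 0 := Nat.cast_ne_zero.2 hn.ne'
  have hnM : (n : M) ≠ 0 := Nat.cast_ne_zero.2 hn.ne'
  let w : κ → ℝ := fun c => v (algebraMap κ M c)
  have hw : ∀ c, w c = spectralNorm ℚ_[p] κ c := fun c => v_const F.ext c
  have hinv : ∀ y ∈ A, y⁻¹ ∈ A := fun y hy =>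
    A.inv_mem_of_algebraic (x := ⟨y, hy⟩) (Algebra.IsAlgebraic.isAlgebraic y)
  have hdivA : ∀ y ∈ A, ∀ y' ∈ A, y / y' ∈ A := fun y hy y' hy' => by
    rw [div_eq_mul_inv]
    exact A.mul_mem hy (hinv y' hy')
  have hnatA : ∀ m : ℕ, (m : κ) ∈ A := fun m => natCast_mem A m
  have hx0 : 0 < v x := v.pos (by
    intro h0
    apply hxc 0
    rw [h0, map_zero])
  have hz0 : z ≠ 0 := fun h0 => hzA (h0 ▸ A.zero_mem)
  have hz1 : z ≠ 1 := fun h0 => hzA (h0 ▸ A.one_mem)
  have hwz : 0 < w z := v.pos ((_root_.map_ne_zero _).2 hz0)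
  have hnv : 0 < v (n : M) := v.pos hnM
  -- the basis
  let b := Module.finBasis ℚ_[p] A
  let Θ : Option (Fin (Module.finrank ℚ_[p] A)) → κ :=
    fun o => o.casesOn' z (fun i => (b i : κ))
  have hΘ : LinearIndependent ℚ_[p] Θ := by
    rw [linearIndependent_option']
    refine ⟨?_, ?_⟩
    · have h1 := b.linearIndependent.map' A.val.toLinearMap
        (LinearMap.ker_eq_bot.2 Subtype.val_injective)
      exact h1
    · intro h1
      apply hzA
      have h2 : Submodule.span ℚ_[p] (Set.range (fun i => Θ (some i))) ≤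
          Subalgebra.toSubmodule A := by
        rw [Submodule.span_le]
        rintro _ ⟨i, rfl⟩
        exact (b i).2
      exact h2 h1
  obtain ⟨δ₁, hδ₁, hlin⟩ := linInd_near hΘ
  have hb0 : ∀ i, 0 < w (b i : κ) := by
    intro i
    refine v.pos ((_root_.map_ne_zero _).2 ?_)
    intro h0
    exact b.ne_zero i (Subtype.ext h0)
  obtain ⟨μb, hμb0, hμb⟩ := Frame.exists_pos_lower Finset.univ (fun i => w (b i : κ))
    (fun i _ => hb0 i)
  -- an upper bound for the basis
  obtain ⟨B, hB0, hB⟩ : ∃ B : ℝ, 0 < B ∧ ∀ i, w (b i : κ) < B := by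
    refine ⟨1 + ∑ i, w (b i : κ), by
      have : 0 ≤ ∑ i, w (b i : κ) := Finset.sum_nonneg (fun i _ => (hb0 i).le)
      linarith, fun i => ?_⟩
    have h1 := Finset.single_le_sum (f := fun i => w (b i : κ)) (fun j _ => (hb0 j).le)
      (Finset.mem_univ i)
    linarith
  -- the choice of `e`
  set μ := v (n : M) * min (min (v x) μb) (min δ₁ ε) with hμ
  have hμ0 : 0 < μ := by positivity
  obtain ⟨l, hl⟩ := pow_unbounded_of_one_lt μ⁻¹ (show (1 : ℝ) < p by exact_mod_cast hp.one_lt)
  set e : κ := algebraMap ℚ_[p] κ ((p : ℚ_[p]) ^ l) with he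
  have heA : e ∈ A := A.algebraMap_mem _
  have hpl : (0 : ℝ) < (p : ℝ) ^ l := pow_pos (by exact_mod_cast hp.pos) _
  have hwe : w e = ((p : ℝ) ^ l)⁻¹ := by
    show v (algebraMap κ M (algebraMap ℚ_[p] κ ((p : ℚ_[p]) ^ l))) = _
    rw [← IsScalarTower.algebraMap_apply, F.ext, norm_pow, Padic.norm_p, inv_pow]
  have hweμ : w e < μ := by
    rw [hwe]
    exact inv_lt_of_inv_lt₀ hμ0 hl
  have hwe0 : 0 < w e := by
    rw [hwe]
    exact inv_pos.2 hpl
  have he0 : e ≠ 0 := by
    intro h0
    have : w e = 0 := by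
      show v (algebraMap κ M e) = 0
      rw [h0, map_zero, v.map_zero]
    linarith
  have hμ1 : w e / v (n : M) < min (min (v x) μb) (min δ₁ ε) := by
    rw [div_lt_iff₀ hnv, mul_comm]
    exact hweμ
  have hq1 : w e / v (n : M) < v x :=
    hμ1.trans_le ((min_le_left _ _).trans (min_le_left _ _))
  have hq2 : w e / v (n : M) < μb :=
    hμ1.trans_le ((min_le_left _ _).trans (min_le_right _ _))
  have hq3 : w e / v (n : M) < δ₁ :=
    hμ1.trans_le ((min_le_right _ _).trans (min_le_left _ _))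
  have hq4 : w e / v (n : M) < ε :=
    hμ1.trans_le ((min_le_right _ _).trans (min_le_right _ _))
  -- the target cusp
  set W := z ^ n with hW
  have hW1 : W - 1 ≠ 0 := sub_ne_zero.2 hzn1
  have hW0 : W ≠ 0 := pow_ne_zero _ hz0
  set c : κ := n * e * ((W + 1) / (W - 1)) with hc
  have hcA : c ∈ A := A.mul_mem (A.mul_mem (hnatA n) heA)
    (hdivA _ (A.add_mem hzn A.one_mem) _ (A.sub_mem hzn A.one_mem))
  have hne0 : (n : κ) * e ≠ 0 := mul_ne_zero hnκ he0
  have hcs : c / (n * e) = (W + 1) / (W - 1) := by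
    rw [hc, mul_div_cancel_left₀ _ hne0]
  have hs1 : c / (n * e) - 1 ≠ 0 := by
    have h3 : c / (n * e) - 1 = 2 / (W - 1) := by
      rw [hcs]
      field_simp
      ring
    rw [h3]
    exact div_ne_zero two_ne_zero hW1
  have hs2' : c / (n * e) + 1 = 2 * W / (W - 1) := by
    rw [hcs]
    field_simp
    ring
  have hs2 : c / (n * e) + 1 ≠ 0 := by
    rw [hs2']
    exact div_ne_zero (mul_ne_zero two_ne_zero hW0) hW1
  have hsW : (c / (n * e) + 1) / (c / (n * e) - 1) = W := by
    rw [hcs]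
    field_simp
    ring
  -- the precision for the root
  set η₂ := min (v (n : M)) (min (δ₁ / w z) 1) with hη₂
  have hη₂0 : 0 < η₂ := by positivity
  set η := min (min (η₂ ^ n) 1) (min (min (v x) μb) (min δ₁ (δ₁ / B))) with hη
  have hη0 : 0 < η := by positivity
  obtain ⟨δ₀, hδ₀, hcont⟩ := cont_near (p := p) hn he0 hs1 hs2 hη0
  set δ := min δ₀ (min (min (v x) μb) (min δ₁ ε)) with hδ
  have hδ0 : 0 < δ := by positivity
  -- the approximation
  obtain ⟨x₁, hx₁R, hx₁G, hx₁c, hx₁x, hcusp⟩ := hApp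
    ({-(n * e), (n : κ) * e, c} ∪ Finset.univ.image (fun i => (b i : κ))) (by
      intro d hd
      rcases Finset.mem_union.1 hd with hd | hd
      · simp only [Finset.mem_insert, Finset.mem_singleton] at hd
        rcases hd with rfl | rfl | rfl
        · exact A.neg_mem (A.mul_mem (hnatA n) heA)
        · exact A.mul_mem (hnatA n) heA
        · exact hcA
      · obtain ⟨i, -, rfl⟩ := Finset.mem_image.1 hd
        exact (b i).2) δ hδ0
  obtain ⟨b₁, hb₁, hb₁'⟩ := hcusp (-(n * e)) (by simp)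
  obtain ⟨b₂, hb₂, hb₂'⟩ := hcusp (n * e) (by simp)
  obtain ⟨c', hc', hcc'⟩ := hcusp c (by simp)
  have hθ : ∀ i, ∃ t : κ, Cusp R x₁ (algebraMap κ M t) ∧ w (t - b i) < δ := fun i =>
    hcusp (b i : κ) (Finset.mem_union_right _ (Finset.mem_image_of_mem _ (Finset.mem_univ i)))
  choose θ hθc hθn using hθ
  have hδδ₀ : δ ≤ δ₀ := min_le_left _ _
  obtain ⟨g1, g2, g3⟩ := hcont b₁ b₂ c' (by rw [← hw]; exact hb₁'.trans_le hδδ₀)
    (by rw [← hw]; exact hb₂'.trans_le hδδ₀) (by rw [← hw]; exact hcc'.trans_le hδδ₀)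
  set e' := (b₂ - b₁) / (2 * n) with he'
  set a' := (b₁ + b₂) / 2 with ha'
  set s := (c' - a') / (n * e') with hs
  rw [hsW, ← hw] at g3
  rw [← hw] at g1 g2
  have hη1 : η ≤ 1 := (min_le_left _ _).trans (min_le_right _ _)
  have hηx : η ≤ v x := (min_le_right _ _).trans ((min_le_left _ _).trans (min_le_left _ _))
  have hημ : η ≤ μb := (min_le_right _ _).trans ((min_le_left _ _).trans (min_le_right _ _))
  have hηδ : η ≤ δ₁ := (min_le_right _ _).trans ((min_le_right _ _).trans (min_le_left _ _))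
  have hηB : η ≤ δ₁ / B := (min_le_right _ _).trans ((min_le_right _ _).trans (min_le_right _ _))
  have hηn : η ≤ η₂ ^ n := (min_le_left _ _).trans (min_le_left _ _)
  have hδx : δ ≤ v x := (min_le_right _ _).trans ((min_le_left _ _).trans (min_le_left _ _))
  have hδμ : δ ≤ μb := (min_le_right _ _).trans ((min_le_left _ _).trans (min_le_right _ _))
  have hδδ₁ : δ ≤ δ₁ := (min_le_right _ _).trans ((min_le_right _ _).trans (min_le_left _ _))
  have hδε : δ ≤ ε := (min_le_right _ _).trans ((min_le_right _ _).trans (min_le_right _ _))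
  have hw_mul : ∀ y y' : κ, w (y * y') = w y * w y' := fun y y' => by
    show v (algebraMap κ M (y * y')) = _
    rw [map_mul, v.map_mul]
  have hw_add : ∀ (y y' : κ) (q : ℝ), w y < q → w y' < q → w (y + y') < q := fun y y' q h h' => by
    show v (algebraMap κ M (y + y')) < q
    rw [map_add]
    exact hv.add_lt h h'
  have hw_sub : ∀ (y y' : κ) (q : ℝ), w y < q → w y' < q → w (y - y') < q := fun y y' q h h' => by
    show v (algebraMap κ M (y - y')) < q
    rw [map_sub]
    exact hv.sub_lt h h'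
  have hwee : w (e' / e) = 1 := by
    have h3 := hv.eq_of_sub_lt (x := 1) (y := algebraMap κ M (e' / e)) (by
      rw [v.map_sub, v.map_one, ← map_one (algebraMap κ M), ← map_sub]
      exact g1.trans_le hη1)
    rw [v.map_one] at h3
    exact h3
  have he'0 : e' ≠ 0 := by
    intro h0
    rw [h0, zero_div] at hwee
    have : w (0 : κ) = 0 := by
      show v (algebraMap κ M 0) = 0
      rw [map_zero, v.map_zero]
    rw [this] at hwee
    exact zero_ne_one hwee
  have hwe' : w e' = w e := by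
    have h3 : e' = e' / e * e := by rw [div_mul_cancel₀ _ he0]
    rw [h3, hw_mul, hwee, one_mul]
  have hbne : b₁ ≠ b₂ := by
    intro h0
    apply he'0
    rw [he', h0, sub_self, zero_div]
  -- the position of `x₁`
  have hx₁a : v (x₁ - algebraMap κ M a') = v x := by
    apply hv.eq_of_sub_lt
    have h3 : x - (x₁ - algebraMap κ M a') = -(x₁ - x) + algebraMap κ M a' := by ring
    rw [h3]
    refine hv.add_lt ?_ (g2.trans_le hηx)
    rw [v.map_neg]
    exact hx₁x.trans_le hδx
  have hcond : ∀ q : ℝ, w e / v (n : M) < q → v (algebraMap κ M e') < v (n : M) * q := by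
    intro q hq
    rw [div_lt_iff₀ hnv] at hq
    show w e' < _
    rw [hwe']
    linarith
  obtain ⟨x₂, hx₂R, hx₂G, hx₂c, hx₂x₁, hcm, hcp, hnew, hold⟩ := F.create_kum hsplit hn hx₁R hx₁G
    hx₁c hbne hb₁ hb₂ ha' he' (by rw [hx₁a]; exact hcond _ hq1)
  have hx₂x₁' : v (x₂ - x₁) ≤ w e / v (n : M) := by
    rw [← hwe']
    exact hx₂x₁
  -- the root
  set W' := (s + 1) / (s - 1) with hW'
  have hWW : w (W' / W - 1) < η₂ ^ n := g3.trans_le hηn
  have hWW1 : w (W' / W - 1) < 1 := g3.trans_le hη1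
  have hW'0 : W' ≠ 0 := by
    intro h0
    rw [h0, zero_div, zero_sub] at hWW1
    have : w (-1 : κ) = 1 := by
      show v (algebraMap κ M (-1)) = 1
      rw [map_neg, map_one, v.map_neg, v.map_one]
    rw [this] at hWW1
    exact lt_irrefl _ hWW1
  have hsm : s - 1 ≠ 0 := by
    intro h0
    apply hW'0
    rw [hW', h0, div_zero]
  obtain ⟨ρM, hρM, hρM1⟩ := exists_root_near_one (M := M) (v := v) hn
    (u := algebraMap κ M (W' / W)) (by
      have h3 := hsplit (X ^ n - C (W' / W))
      rwa [Polynomial.map_sub, Polynomial.map_pow, map_X, map_C] at h3) hη₂0 (by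
      rw [← map_one (algebraMap κ M), ← map_sub]
      exact hWW)
  have hρG : ∀ g ∈ G, g ρM = ρM := by
    intro g hg
    refine hv.root_unique (n := n) (q := v (ρM - 1)) (hρM1.trans_le (min_le_left _ _)) ?_ le_rfl ?_
    · have h5 : g ρM - 1 = g (ρM - 1) := by rw [map_sub, map_one]
      rw [h5, F.inv g hg]
    · rw [← map_pow, hρM, F.fix_const g hg]
  obtain ⟨ρ, hρ⟩ := F.const_of_fix ρM (by
    refine ⟨X ^ n - C (W' / W), monic_X_pow_sub_C _ hn.ne', ?_⟩
    rw [eval₂_sub, eval₂_pow, eval₂_X, eval₂_C, hρM, sub_self]) hρG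
  have hρn : ρ ^ n = W' / W := by
    apply (algebraMap κ M).injective
    rw [map_pow, hρ, hρM]
  have hρ1 : w (ρ - 1) < η₂ := by
    show v (algebraMap κ M (ρ - 1)) < η₂
    rw [map_sub, hρ, map_one]
    exact hρM1
  set z' := z * ρ with hz'
  have hz'n : z' ^ n = W' := by
    rw [hz', mul_pow, hρn, ← hW, mul_div_cancel₀ _ hW0]
  have hz'z : w (z' - z) < δ₁ := by
    have h3 : z' - z = z * (ρ - 1) := by rw [hz']; ring
    rw [h3, hw_mul]
    have h4 : w (ρ - 1) < δ₁ / w z :=
      hρ1.trans_le ((min_le_right _ _).trans (min_le_left _ _))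
    rw [lt_div_iff₀ hwz] at h4
    linarith
  have hW'1 : W' ≠ 1 := by
    intro h0
    rw [hW', div_eq_one_iff_eq hsm] at h0
    have h3 : (2 : κ) = 0 := by linear_combination h0
    exact two_ne_zero h3
  have hz'1 : z' ≠ 1 := by
    intro h0
    apply hW'1
    rw [← hz'n, h0, one_pow]
  have hsW' : (W' + 1) / (W' - 1) = s := by
    have h3 : W' - 1 = 2 / (s - 1) := by
      rw [hW']
      field_simp
      ring
    have h4 : W' + 1 = 2 * s / (s - 1) := by
      rw [hW']
      field_simp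
      ring
    rw [h3, h4]
    field_simp
  have hnewc := hnew z' hz'1 (by rw [hz'n]; exact hW'1) (by
    rw [hz'n, hsW', hs]
    have h3 : a' + n * e' * ((c' - a') / (n * e')) = c' := by
      rw [mul_div_cancel₀ _ (mul_ne_zero hnκ he'0)]
      ring
    rw [h3]
    exact hc')
  -- the other cusps
  have hθa : ∀ i, v (algebraMap κ M (θ i - a')) = w (b i : κ) := by
    intro i
    apply hv.eq_of_sub_lt
    have h3 : algebraMap κ M (b i : κ) - algebraMap κ M (θ i - a') =
        -(algebraMap κ M (θ i - b i)) + algebraMap κ M a' := by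
      rw [map_sub, map_sub]
      ring
    rw [h3]
    have h4 : μb ≤ w (b i : κ) := hμb i (Finset.mem_univ i)
    refine hv.add_lt ?_ (g2.trans_le (hημ.trans h4))
    rw [v.map_neg]
    exact (hθn i).trans_le (hδμ.trans h4)
  have hθ2 : ∀ i, ∃ t : κ, Cusp R x₂ (algebraMap κ M t) ∧
      w (t - θ i) ≤ w e / v (n : M) := by
    intro i
    obtain ⟨t, ht1, ht2⟩ := hold (θ i) (hθc i) (by
      rw [hθa]
      exact hcond _ (hq2.trans_le (hμb i (Finset.mem_univ i))))
    refine ⟨t, ht1, ?_⟩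
    rw [← hwe']
    exact ht2
  choose θ' hθ'c hθ'n using hθ2
  have hθ'b : ∀ i, w (θ' i - b i) < δ₁ := by
    intro i
    have h3 : θ' i - b i = (θ' i - θ i) + (θ i - b i) := by ring
    rw [h3]
    exact hw_add _ _ _ ((hθ'n i).trans_lt hq3) ((hθn i).trans_le hδδ₁)
  -- the new set
  set D : Finset κ := {0, 1, z' / (z' - 1)} ∪ Finset.univ.image
    (fun i => (θ' i - a' + e') / (2 * e')) with hD
  have hz'm : z' - 1 ≠ 0 := sub_ne_zero.2 hz'1
  refine ⟨x₂, hx₂R, hx₂G, hx₂c, ?_, 2 * e', a' - e', D, mul_ne_zero two_ne_zero he'0,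
    by simp [hD], by simp [hD], ?_, ?_⟩
  · have h3 : x₂ - x = (x₂ - x₁) + (x₁ - x) := by ring
    rw [h3]
    exact hv.add_lt (hx₂x₁'.trans_lt hq4) (hx₁x.trans_le hδε)
  · intro d hd
    rcases Finset.mem_union.1 hd with hd | hd
    · simp only [Finset.mem_insert, Finset.mem_singleton] at hd
      rcases hd with rfl | rfl | rfl
      · rw [mul_zero, zero_add]
        exact hcm
      · have h3 : 2 * e' * 1 + (a' - e') = a' + e' := by ring
        rw [h3]
        exact hcp
      · have h3 : 2 * e' * (z' / (z' - 1)) + (a' - e') = a' + e' * ((z' + 1) / (z' - 1)) := by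
          field_simp
          ring
        rw [h3]
        exact hnewc
    · obtain ⟨i, -, rfl⟩ := Finset.mem_image.1 hd
      have h3 : 2 * e' * ((θ' i - a' + e') / (2 * e')) + (a' - e') = θ' i := by
        rw [mul_div_cancel₀ _ (mul_ne_zero two_ne_zero he'0)]
        ring
      rw [h3]
      exact hθ'c i
  · -- the dimension
    set A' := Algebra.adjoin ℚ_[p] (D : Set κ) with hA'
    have hinv' : ∀ y ∈ A', y⁻¹ ∈ A' := fun y hy =>
      A'.inv_mem_of_algebraic (x := ⟨y, hy⟩) (Algebra.IsAlgebraic.isAlgebraic y)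
    have hDA : ∀ d ∈ D, d ∈ A' := fun d hd => Algebra.subset_adjoin hd
    have hz'A : z' ∈ A' := by
      have h3 : z' / (z' - 1) ∈ A' := hDA _ (by simp [hD])
      have h4 : z' = (z' / (z' - 1) - 1)⁻¹ + 1 := by
        have h5 : z' / (z' - 1) - 1 = 1 / (z' - 1) := by
          field_simp
          ring
        rw [h5, one_div, inv_inv]
        ring
      rw [h4]
      exact A'.add_mem (hinv' _ (A'.sub_mem h3 A'.one_mem)) A'.one_mem
    have heA' : e ∈ A' := A'.algebraMap_mem _
    have h2A : (2 : κ) ∈ A' := by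
      have := natCast_mem A' 2
      exact_mod_cast this
    let Θ' : Option (Fin (Module.finrank ℚ_[p] A)) → κ := fun o =>
      o.casesOn' z' (fun i => 2 * e * ((θ' i - a' + e') / (2 * e')) - e)
    have hΘ'A : ∀ o, Θ' o ∈ A' := by
      rintro (_ | i)
      · exact hz'A
      · refine A'.sub_mem (A'.mul_mem (A'.mul_mem h2A heA') (hDA _ ?_)) heA'
        exact Finset.mem_union_right _ (Finset.mem_image_of_mem _ (Finset.mem_univ i))
    have hwee' : w (e / e') = 1 := by
      have h3 : e / e' * (e' / e) = 1 := by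
        field_simp
      have h4 := hw_mul (e / e') (e' / e)
      rw [h3, hwee, mul_one] at h4
      rw [← h4]
      show v (algebraMap κ M 1) = 1
      rw [map_one, v.map_one]
    have hΘ'lin : LinearIndependent ℚ_[p] Θ' := by
      apply hlin
      rintro (_ | i)
      · rw [← hw]
        exact hz'z
      · rw [← hw]
        show w (2 * e * ((θ' i - a' + e') / (2 * e')) - e - (b i : κ)) < δ₁
        have h3 : 2 * e * ((θ' i - a' + e') / (2 * e')) - e - (b i : κ) =
            e / e' * ((θ' i - b i) - a' - (e' / e - 1) * b i) := by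
          field_simp
          ring
        rw [h3, hw_mul, hwee', one_mul]
        refine hw_sub _ _ _ (hw_sub _ _ _ (hθ'b i) (g2.trans_le hηδ)) ?_
        rw [hw_mul]
        calc w (e' / e - 1) * w (b i : κ) < δ₁ / B * B :=
              mul_lt_mul'' (g1.trans_le hηB) (hB i) (v.nonneg _) (v.nonneg _)
          _ = δ₁ := div_mul_cancel₀ _ hB0.ne'
    have h3 : LinearIndependent ℚ_[p] (fun o => (⟨Θ' o, hΘ'A o⟩ : A')) := by
      apply LinearIndependent.of_comp A'.val.toLinearMap
      exact hΘ'lin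
    have h4 := h3.fintype_card_le_finrank
    rw [Fintype.card_option, Fintype.card_fin] at h4
    exact h4

/-- near `T` there are elements with cusps generating a field of degree at least `f`, after an
affine transformation -/
def Lvl (p : ℕ) [Fact p.Prime] (κ : Type u) {M : Type v} [Field κ] [Field M] [Algebra κ M]
    [Algebra ℚ_[p] κ] (G : Set (M ≃+* M)) (R : Subring M) (v : AbsoluteValue M ℝ) (T : M)
    (f : ℕ) : Prop :=
  ∀ ε > 0, ∃ x ∈ R, Fixed G x ∧ NonConst κ x ∧ v (x - T) < ε ∧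
    ∃ (α β : κ) (D : Finset κ), α ≠ 0 ∧ (0 : κ) ∈ D ∧ (1 : κ) ∈ D ∧
      (∀ d ∈ D, Cusp R x (algebraMap κ M (α * d + β))) ∧
      f ≤ Module.finrank ℚ_[p] (Algebra.adjoin ℚ_[p] (D : Set κ))

/-- `κ` is generated by radicals over each proper subalgebra, in a weak sense -/
def Rad (p : ℕ) [Fact p.Prime] (κ : Type u) [Field κ] [Algebra ℚ_[p] κ] : Prop :=
  ∀ A : Subalgebra ℚ_[p] κ, A ≠ ⊤ → ∃ z ∉ A, ∃ n : ℕ, 0 < n ∧ z ^ n ∈ A

omit [Algebra ℚ_[p] M] [IsScalarTower ℚ_[p] κ M] [FiniteDimensional ℚ_[p] κ] [Fact p.Prime]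
  [Algebra ℚ_[p] κ] in
lemma cusp_affine (hconst : ∀ c : κ, algebraMap κ M c ∈ R) {x : M} {α β d : κ} (hα : α ≠ 0)
    (h : Cusp R x (algebraMap κ M (α * d + β))) :
    Cusp R (algebraMap κ M α⁻¹ * (x - algebraMap κ M β)) (algebraMap κ M d) := by
  have hα' : algebraMap κ M α ≠ 0 := (_root_.map_ne_zero _).2 hα
  have e1 : algebraMap κ M α⁻¹ * (x - algebraMap κ M β) - algebraMap κ M d =
      algebraMap κ M α⁻¹ * (x - algebraMap κ M (α * d + β)) := by
    rw [map_add, map_mul, map_inv₀]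
    field_simp
    ring
  refine ⟨?_, ?_, ?_⟩
  · rw [e1]
    exact R.mul_mem (hconst _) h.1
  · rw [e1, mul_inv, ← map_inv₀]
    exact R.mul_mem (hconst _) h.2.1
  · rw [e1]
    exact mul_ne_zero ((_root_.map_ne_zero _).2 (inv_ne_zero hα)) h.2.2

omit [Algebra ℚ_[p] M] [IsScalarTower ℚ_[p] κ M] [FiniteDimensional ℚ_[p] κ] [Fact p.Prime]
  [Algebra ℚ_[p] κ] in
lemma cusp_affine' (hconst : ∀ c : κ, algebraMap κ M c ∈ R) {x : M} {α β d : κ} (hα : α ≠ 0)
    (h : Cusp R x (algebraMap κ M d)) :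
    Cusp R (algebraMap κ M α * x + algebraMap κ M β) (algebraMap κ M (α * d + β)) := by
  have h1 := cusp_affine (x := algebraMap κ M α⁻¹⁻¹ * (x - algebraMap κ M (-(β / α))))
    (α := 1) (β := 0) (d := α * d + β) hconst one_ne_zero (by
      have h2 := cusp_affine (x := x) (α := α⁻¹) (β := -(β / α)) (d := α * d + β) hconst
        (inv_ne_zero hα) (by
          have h3 : α⁻¹ * (α * d + β) + -(β / α) = d := by
            field_simp
            ring
          rw [h3]
          exact h)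
      rwa [one_mul, add_zero])
  rw [inv_one, map_one, map_zero, one_mul, sub_zero, inv_inv] at h1
  have hα' : algebraMap κ M α ≠ 0 := (_root_.map_ne_zero _).2 hα
  have h2 : algebraMap κ M α * (x - algebraMap κ M (-(β / α))) =
      algebraMap κ M α * x + algebraMap κ M β := by
    rw [map_neg, map_div₀]
    field_simp
    ring
  rwa [h2] at h1

omit [Algebra ℚ_[p] M] [IsScalarTower ℚ_[p] κ M] [FiniteDimensional ℚ_[p] κ] [Fact p.Prime]
  [Algebra ℚ_[p] κ] in
lemma nonConst_affine {x : M} (h : NonConst κ x) {α : κ} (hα : α ≠ 0) (β : κ) :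
    NonConst κ (algebraMap κ M α * x + algebraMap κ M β) := by
  intro c hc
  apply h ((c - β) / α)
  have hα' : algebraMap κ M α ≠ 0 := (_root_.map_ne_zero _).2 hα
  rw [map_div₀, map_sub, ← hc]
  field_simp
  ring

/-- the degree grows -/
lemma Lvl.succ (F : Frame p κ G R v) (hp2 : p ≠ 2)
    (hsplit : ∀ P : κ[X], (P.map (algebraMap κ M)).Splits) (hrad : Rad p κ) {T : M} {f : ℕ}
    (h : Lvl p κ G R v T f) (hf : f < Module.finrank ℚ_[p] κ) : Lvl p κ G R v T (f + 1) := by
  classical
  have hv := F.na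
  have hchar : CharZero κ := charZero_of_injective_algebraMap (algebraMap ℚ_[p] κ).injective
  intro ε hε
  obtain ⟨x, hxR, hxG, hxc, hxT, α, β, D, hα, h0, h1, hcusp, hrank⟩ := h ε hε
  set A := Algebra.adjoin ℚ_[p] (D : Set κ) with hA
  by_cases hlt : f + 1 ≤ Module.finrank ℚ_[p] A
  · exact ⟨x, hxR, hxG, hxc, hxT, α, β, D, hα, h0, h1, hcusp, hlt⟩
  have hAtop : A ≠ ⊤ := by
    intro h2
    have h3 : Module.finrank ℚ_[p] A = Module.finrank ℚ_[p] κ := by
      rw [h2]
      exact subalgebra_top_finrank_eq_submodule_top_finrank.trans (finrank_top ℚ_[p] κ)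
    omega
  obtain ⟨z₀, hz₀, n, hn, hz₀n⟩ := hrad A hAtop
  -- normalize
  obtain ⟨z, hz, hzn, hzn1⟩ : ∃ z, z ∉ A ∧ z ^ n ∈ A ∧ z ^ n ≠ 1 := by
    by_cases h2 : z₀ ^ n = 1
    · refine ⟨2 * z₀, ?_, ?_, ?_⟩
      · intro h3
        apply hz₀
        have h4 : z₀ = algebraMap ℚ_[p] κ 2⁻¹ * (2 * z₀) := by
          rw [map_inv₀, map_ofNat]
          field_simp
        rw [h4]
        exact A.mul_mem (A.algebraMap_mem _) h3
      · rw [mul_pow]
        refine A.mul_mem (A.pow_mem ?_ n) hz₀n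
        exact_mod_cast natCast_mem A 2
      · rw [mul_pow, h2, mul_one]
        have h3 : (1 : ℕ) < 2 ^ n := Nat.one_lt_two_pow hn.ne'
        intro h4
        have h5 : ((2 ^ n : ℕ) : κ) = ((1 : ℕ) : κ) := by
          push_cast
          exact h4
        have h6 : 2 ^ n = 1 := by exact_mod_cast h5
        omega
    · exact ⟨z₀, hz₀, hz₀n, h2⟩
  have hα' : algebraMap κ M α ≠ 0 := (_root_.map_ne_zero _).2 hα
  have hα0 : 0 < v (algebraMap κ M α) := v.pos hα'
  set y := algebraMap κ M α⁻¹ * (x - algebraMap κ M β) with hy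
  have hyR : y ∈ R := R.mul_mem (F.const_mem _) (R.sub_mem hxR (F.const_mem _))
  have hyG : Fixed G y := by
    intro g hg
    rw [hy, map_mul, map_sub, hxG g hg, F.fix_const g hg, F.fix_const g hg]
  have hyc : NonConst κ y := by
    have h2 : y = algebraMap κ M α⁻¹ * x + algebraMap κ M (-(α⁻¹ * β)) := by
      rw [hy, map_neg, map_mul]
      ring
    rw [h2]
    exact nonConst_affine hxc (inv_ne_zero hα) _
  have hyx : algebraMap κ M α * y + algebraMap κ M β = x := by
    rw [hy, map_inv₀]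
    field_simp
    ring
  have hyD : ∀ d ∈ D, Cusp R y (algebraMap κ M d) := fun d hd =>
    cusp_affine F.const_mem hα (hcusp d hd)
  have hy0 : y ≠ 0 := by
    intro h2
    apply hyc 0
    rw [h2, map_zero]
  obtain ⟨y₂, hy₂R, hy₂G, hy₂c, hy₂y, α', β', D', hα'0, h0', h1', hcusp', hrank'⟩ :=
    kum_grow F hsplit hyc A (fun D' hD' =>
      ((app_self hyR hyG hyc hyD).adjoin F hp2 hsplit hy0 h0 h1 D' hD').mono
        Finset.subset_union_left) hz hn hzn hzn1 (ε := ε / v (algebraMap κ M α)) (by positivity)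
  refine ⟨algebraMap κ M α * y₂ + algebraMap κ M β, R.add_mem (R.mul_mem (F.const_mem _) hy₂R)
    (F.const_mem _), ?_, nonConst_affine hy₂c hα β, ?_, α * α', α * β' + β, D',
    mul_ne_zero hα hα'0, h0', h1', ?_, ?_⟩
  · intro g hg
    rw [map_add, map_mul, hy₂G g hg, F.fix_const g hg, F.fix_const g hg]
  · have h2 : algebraMap κ M α * y₂ + algebraMap κ M β - T =
        algebraMap κ M α * (y₂ - y) + (x - T) := by
      rw [← hyx]
      ring
    rw [h2]
    refine hv.add_lt ?_ hxT
    rw [v.map_mul]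
    rw [lt_div_iff₀ hα0] at hy₂y
    linarith
  · intro d hd
    have h2 : α * α' * d + (α * β' + β) = α * (α' * d + β') + β := by ring
    rw [h2]
    exact cusp_affine' F.const_mem hα (hcusp' d hd)
  · exact (Nat.succ_le_succ hrank).trans hrank'

/-- **All constants are approximable cusps.** -/
theorem app_all (F : Frame p κ G R v) (hp2 : p ≠ 2)
    (hsplit : ∀ P : κ[X], (P.map (algebraMap κ M)).Splits) (hrad : Rad p κ) {T : M}
    (hT : T ∈ R) (hTG : Fixed G T) (hTc : NonConst κ T) (h0 : Cusp R T 0) (h1 : Cusp R T 1)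
    (D : Finset κ) : App G R v T D := by
  classical
  have hv := F.na
  have hchar : CharZero κ := charZero_of_injective_algebraMap (algebraMap ℚ_[p] κ).injective
  have hbase : Lvl p κ G R v T 0 := by
    intro ε hε
    refine ⟨T, hT, hTG, hTc, by rw [sub_self, v.map_zero]; exact hε, 1, 0, {0, 1}, one_ne_zero,
      by simp, by simp, ?_, Nat.zero_le _⟩
    intro d hd
    rw [one_mul, add_zero]
    simp only [Finset.mem_insert, Finset.mem_singleton] at hd
    rcases hd with rfl | rfl
    · rw [map_zero]; exact h0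
    · rw [map_one]; exact h1
  have hall : ∀ f, f ≤ Module.finrank ℚ_[p] κ → Lvl p κ G R v T f := by
    intro f
    induction f with
    | zero => exact fun _ => hbase
    | succ f ih => exact fun hf => (ih (by omega)).succ F hp2 hsplit hrad (by omega)
  refine App.trans hv (fun ε hε => ?_)
  obtain ⟨x, hxR, hxG, hxc, hxT, α, β, D', hα, h0, h1, hcusp, hrank⟩ := hall _ le_rfl ε hε
  refine ⟨x, hxT, ?_⟩
  set A := Algebra.adjoin ℚ_[p] (D' : Set κ) with hA
  have hAtop : ∀ c : κ, c ∈ A := by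
    have h2 : Subalgebra.toSubmodule A = ⊤ := by
      apply Submodule.eq_top_of_finrank_eq
      exact le_antisymm (Submodule.finrank_le _) hrank
    intro c
    have h3 : c ∈ Subalgebra.toSubmodule A := by rw [h2]; trivial
    exact h3
  have hα' : algebraMap κ M α ≠ 0 := (_root_.map_ne_zero _).2 hα
  set y := algebraMap κ M α⁻¹ * (x - algebraMap κ M β) with hy
  have hyR : y ∈ R := R.mul_mem (F.const_mem _) (R.sub_mem hxR (F.const_mem _))
  have hyG : Fixed G y := by
    intro g hg
    rw [hy, map_mul, map_sub, hxG g hg, F.fix_const g hg, F.fix_const g hg]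
  have hyc : NonConst κ y := by
    have h2 : y = algebraMap κ M α⁻¹ * x + algebraMap κ M (-(α⁻¹ * β)) := by
      rw [hy, map_neg, map_mul]
      ring
    rw [h2]
    exact nonConst_affine hxc (inv_ne_zero hα) _
  have hyx : algebraMap κ M α * y + algebraMap κ M β = x := by
    rw [hy, map_inv₀]
    field_simp
    ring
  have hy0 : y ≠ 0 := by
    intro h2
    apply hyc 0
    rw [h2, map_zero]
  have h2 := ((app_self hyR hyG hyc (fun d hd => cusp_affine F.const_mem hα
    (hcusp d hd))).adjoin F hp2 hsplit hy0 h0 h1 (D.image (fun d => α⁻¹ * (d - β)))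
      (fun d _ => hAtop d)).mono Finset.subset_union_left
  have h3 := h2.affine F.const_mem F.fix_const α β hα
  rw [hyx] at h3
  refine h3.mono ?_
  intro d hd
  rw [Finset.mem_image]
  refine ⟨α⁻¹ * (d - β), Finset.mem_image_of_mem _ hd, ?_⟩
  field_simp
  ring

end

end Vale.Agent.P025.R2.H637
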