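import Vale.Agent.P025.R2.H637.Est

/-! # Roots near one -/

open Polynomial

namespace Vale.Agent.P025.R2.H637

universe u v

section

variable {M : Type u} [Field M] {v : AbsoluteValue M ℝ}

lemma NA.natCast_le (hv : NA v) (n : ℕ) : v (n : M) ≤ 1 := by
  induction n with
  | zero => rw [Nat.cast_zero, v.map_zero]; exact zero_le_one
  | succ n ih =>
    rw [Nat.cast_succ]
    exact hv.add_le ih (by rw [v.map_one])

lemma NA.mul_near_one (hv : NA v) {z z' : M} {q : ℝ} (hq : q ≤ 1) (hz : v (z - 1) ≤ q)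
    (hz' : v (z' - 1) ≤ q) : v (z * z' - 1) ≤ q := by
  have h1 : v z' ≤ 1 := by
    have : z' = (z' - 1) + 1 := by ring
    rw [this]
    exact hv.add_le (hz'.trans hq) (by rw [v.map_one])
  have h2 : z * z' - 1 = (z - 1) * z' + (z' - 1) := by ring
  rw [h2]
  refine hv.add_le ?_ hz'
  rw [v.map_mul]
  calc v (z - 1) * v z' ≤ q * 1 := mul_le_mul hz h1 (v.nonneg _) ((v.nonneg _).trans hz)
    _ = q := mul_one q

lemma NA.pow_near_one (hv : NA v) {z : M} {q : ℝ} (hq0 : 0 ≤ q) (hq : q ≤ 1) (hz : v (z - 1) ≤ q)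
    (n : ℕ) : v (z ^ n - 1) ≤ q := by
  induction n with
  | zero => rw [pow_zero, sub_self, v.map_zero]; exact hq0
  | succ n ih =>
    rw [pow_succ]
    exact hv.mul_near_one hq ih hz

/-- uniqueness of roots near one -/
lemma NA.root_unique (hv : NA v) {n : ℕ} {z z' : M} {q : ℝ} (hq : q < v (n : M))
    (hz : v (z - 1) ≤ q) (hz' : v (z' - 1) ≤ q) (h : z ^ n = z' ^ n) : z = z' := by
  by_contra hne
  have hq0 : 0 ≤ q := (v.nonneg _).trans hz
  have hq1 : q ≤ 1 := hq.le.trans (hv.natCast_le n)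
  have h1 := (Commute.all z z').mul_geom_sum₂ n
  rw [h, sub_self] at h1
  have h2 := (mul_eq_zero.1 h1).resolve_left (sub_ne_zero.2 hne)
  have h3 : v (∑ i ∈ Finset.range n, (z ^ i * z' ^ (n - 1 - i) - 1)) ≤ q :=
    hv.sum_le _ _ hq0 (fun i _ => hv.mul_near_one hq1 (hv.pow_near_one hq0 hq1 hz _)
      (hv.pow_near_one hq0 hq1 hz' _))
  rw [Finset.sum_sub_distrib, h2, zero_sub, v.map_neg] at h3
  simp only [Finset.sum_const, Finset.card_range, nsmul_eq_mul, mul_one] at h3
  exact absurd hq (not_lt.2 h3)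

/-- first order expansion -/
lemma NA.expand (hv : NA v) {z : M} (hz : v (z - 1) ≤ 1) (n : ℕ) :
    v (z ^ n - 1 - n * (z - 1)) ≤ v (z - 1) ^ 2 := by
  have hz1 : v z ≤ 1 := by
    have : z = (z - 1) + 1 := by ring
    rw [this]
    exact hv.add_le hz (by rw [v.map_one])
  induction n with
  | zero => simp only [pow_zero, sub_self, Nat.cast_zero, zero_mul, v.map_zero]; positivity
  | succ n ih =>
    have h1 : z ^ (n + 1) - 1 - ((n + 1 : ℕ) : M) * (z - 1) =
        z * (z ^ n - 1 - n * (z - 1)) + n * (z - 1) ^ 2 := by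
      push_cast
      ring
    rw [h1]
    refine hv.add_le ?_ ?_
    · rw [v.map_mul]
      calc v z * v (z ^ n - 1 - n * (z - 1)) ≤ 1 * v (z - 1) ^ 2 :=
            mul_le_mul hz1 ih (v.nonneg _) zero_le_one
        _ = _ := one_mul _
    · rw [v.map_mul, v.map_pow]
      calc v (n : M) * v (z - 1) ^ 2 ≤ 1 * v (z - 1) ^ 2 :=
            mul_le_mul_of_nonneg_right (hv.natCast_le n) (by positivity)
        _ = _ := one_mul _

/-- existence of roots near one -/
lemma exists_root_near_one {n : ℕ} (hn : 0 < n) {u : M} (hs : (X ^ n - C u : M[X]).Splits)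
    {η : ℝ} (hη : 0 < η) (hu : v (u - 1) < η ^ n) : ∃ z : M, z ^ n = u ∧ v (z - 1) < η := by
  by_contra hcon
  push Not at hcon
  have hmon : (X ^ n - C u : M[X]).Monic := monic_X_pow_sub_C u hn.ne'
  have h1 := hs.eq_prod_roots_of_monic hmon
  have h2 := congrArg (eval 1) h1
  rw [eval_sub, eval_pow, eval_X, eval_C, one_pow, eval_multiset_prod, Multiset.map_map] at h2
  have hcard : Multiset.card (X ^ n - C u : M[X]).roots = n := by
    rw [← hs.natDegree_eq_card_roots, natDegree_X_pow_sub_C]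
  have h3 : ∀ s : Multiset M, (∀ z ∈ s, η ≤ v (z - 1)) →
      η ^ (Multiset.card s) ≤ v ((s.map ((eval 1) ∘ fun a => X - C a)).prod) := by
    intro s
    induction s using Multiset.induction_on with
    | empty => intro _; simp
    | cons a s ih =>
      intro hs'
      rw [Multiset.map_cons, Multiset.prod_cons, v.map_mul, Multiset.card_cons, pow_succ']
      have e1 : v ((eval 1 ∘ fun a => X - C a) a) = v (a - 1) := by
        simp only [Function.comp, eval_sub, eval_X, eval_C]
        rw [v.map_sub]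
      rw [e1]
      exact mul_le_mul (hs' a (Multiset.mem_cons_self _ _))
        (ih (fun z hz => hs' z (Multiset.mem_cons_of_mem hz))) (pow_nonneg hη.le _) (v.nonneg _)
  have h4 := h3 (X ^ n - C u : M[X]).roots (by
    intro z hz
    apply hcon
    have h5 : (X ^ n - C u : M[X]).IsRoot z := isRoot_of_mem_roots hz
    rw [IsRoot, eval_sub, eval_pow, eval_X, eval_C, sub_eq_zero] at h5
    exact h5)
  rw [hcard, ← h2, v.map_sub] at h4
  exact absurd hu (not_lt.2 h4)

end

end Vale.Agent.P025.R2.H637
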