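import Vale.Agent.P025.H641.Theta
import Vale.Agent.P025.R2.H637.NearOne

/-! # Galois extensions of local fields are generated by radicals, in a weak sense -/

open Polynomial P025H641

namespace Vale.Agent.P025.R2.H637

universe u v

section char

variable {F₀ : Type u} {κ : Type v} [Field F₀] [Field κ] [Algebra F₀ κ] [FiniteDimensional F₀ κ]
  [IsGalois F₀ κ]

omit [IsGalois F₀ κ] in
/-- characters of finite order with values in a radically closed subfield are trivial -/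
lemma char_trivial (A : Subalgebra F₀ κ) (hcl : ∀ (z : κ) (n : ℕ), 0 < n → z ^ n ∈ A → z ∈ A)
    (H : Subgroup Gal(κ/F₀)) (hH : ∀ x : κ, (∀ σ ∈ H, σ x = x) → x ∈ A)
    (hHA : ∀ σ ∈ H, ∀ x ∈ A, σ x = x) (χ : H →* κ) (hχA : ∀ σ, χ σ ∈ A) {m : ℕ} (hm : 0 < m)
    (hχm : ∀ σ, χ σ ^ m = 1) (σ : H) : χ σ = 1 := by
  classical
  have _ : Fintype H := Fintype.ofFinite H
  have hχ0 : ∀ σ, χ σ ≠ 0 := by
    intro σ h0
    have := hχm σ
    rw [h0, zero_pow hm.ne'] at this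
    exact zero_ne_one this
  have hlin := linearIndependent_monoidHom κ κ
  let i : H → (κ →* κ) := fun τ => ((τ : Gal(κ/F₀)) : κ →* κ)
  have hi : Function.Injective i := by
    intro τ τ' h
    apply Subtype.ext
    ext x
    exact DFunLike.congr_fun h x
  have hlin2 := hlin.comp i hi
  rw [Fintype.linearIndependent_iff] at hlin2
  obtain ⟨y, hy⟩ : ∃ y : κ, ∑ τ : H, (χ τ)⁻¹ * (τ : Gal(κ/F₀)) y ≠ 0 := by
    by_contra hcon
    push Not at hcon
    have h1 := hlin2 (fun τ => (χ τ)⁻¹) (by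
      funext y
      rw [Finset.sum_apply]
      exact hcon y) 1
    rw [map_one, inv_one] at h1
    exact one_ne_zero h1
  set α := ∑ τ : H, (χ τ)⁻¹ * (τ : Gal(κ/F₀)) y with hα
  have hact : ∀ σ : H, (σ : Gal(κ/F₀)) α = χ σ * α := by
    intro σ
    rw [hα, map_sum, Finset.mul_sum]
    have h1 : ∀ τ : H, (σ : Gal(κ/F₀)) ((χ τ)⁻¹ * (τ : Gal(κ/F₀)) y) =
        χ σ * ((χ (σ * τ))⁻¹ * ((σ * τ : H) : Gal(κ/F₀)) y) := by
      intro τ
      rw [map_mul, map_inv₀, hHA σ σ.2 _ (hχA τ), map_mul χ, mul_inv, ← mul_assoc, ← mul_assoc,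
        mul_inv_cancel₀ (hχ0 σ), one_mul]
      rfl
    rw [Finset.sum_congr rfl (fun τ _ => h1 τ)]
    exact Equiv.sum_comp (Equiv.mulLeft σ) (fun τ : H => χ σ * ((χ τ)⁻¹ * (τ : Gal(κ/F₀)) y))
  have hαA : α ∈ A := by
    refine hcl α m hm (hH _ ?_)
    intro τ hτ
    rw [map_pow, hact ⟨τ, hτ⟩, mul_pow, hχm, one_mul]
  have h2 := hact σ
  rw [hHA σ σ.2 α hαA] at h2
  exact (mul_right_cancel₀ hy (by rw [one_mul]; exact h2)).symm

end char

section near

variable {κ : Type u} [NontriviallyNormedField κ] [IsUltrametricDist κ]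

lemma na_norm : NA (NormedField.toAbsoluteValue κ) := fun x y =>
  IsUltrametricDist.norm_add_le_max x y

lemma near_norm {x : κ} (h : ‖x - 1‖ < 1) : ‖x‖ = 1 := by
  have h1 : x = 1 + (x - 1) := by ring
  rw [h1]
  exact norm_one_add h

lemma near_mul {x y : κ} (hx : ‖x - 1‖ < 1) (hy : ‖y - 1‖ < 1) : ‖x * y - 1‖ < 1 := by
  have h1 : x * y - 1 = (x - 1) * y + (y - 1) := by ring
  rw [h1]
  refine (norm_add_le_max' _ _).trans_lt (max_lt ?_ hy)
  rw [norm_mul, near_norm hy, mul_one]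
  exact hx

lemma near_inv {x : κ} (hx : ‖x - 1‖ < 1) : ‖x⁻¹ - 1‖ < 1 := by
  have hn := near_norm hx
  have hx0 : x ≠ 0 := by rintro rfl; rw [norm_zero] at hn; exact zero_ne_one hn
  have h1 : x⁻¹ - 1 = -(x - 1) * x⁻¹ := by field_simp; ring
  rw [h1, norm_mul, norm_neg, norm_inv, hn, inv_one, mul_one]
  exact hx

lemma near_pow {x : κ} (hx : ‖x - 1‖ < 1) (n : ℕ) : ‖x ^ n - 1‖ < 1 := by
  induction n with
  | zero => rw [pow_zero, sub_self, norm_zero]; exact one_pos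
  | succ n ih => rw [pow_succ]; exact near_mul ih hx

lemma near_zpow {x : κ} (hx : ‖x - 1‖ < 1) (n : ℤ) : ‖x ^ n - 1‖ < 1 := by
  obtain ⟨m, rfl | rfl⟩ := n.eq_nat_or_neg
  · rw [zpow_natCast]; exact near_pow hx m
  · rw [zpow_neg, zpow_natCast]; exact near_inv (near_pow hx m)

/-- uniqueness of Teichmueller representatives -/
lemma root_eq {m : ℕ} (hm1 : ‖(m : κ)‖ = 1) {w w' : κ} (h : w ^ m = 1) (h' : w' ^ m = 1)
    (hm : 0 < m) (hw : ‖w - w'‖ < 1) : w = w' := by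
  have hw'0 : w' ≠ 0 := by
    rintro rfl
    rw [zero_pow hm.ne'] at h'
    exact zero_ne_one h'
  have hn' : ‖w'‖ = 1 := by
    have h1 : ‖w'‖ ^ m = 1 := by rw [← norm_pow, h', norm_one]
    exact (pow_eq_one_iff_of_nonneg (norm_nonneg _) hm.ne').1 h1
  have h1 : w / w' = 1 := by
    refine (na_norm (κ := κ)).root_unique (n := m) (q := ‖w / w' - 1‖) ?_ le_rfl ?_ ?_
    · show ‖w / w' - 1‖ < ‖(m : κ)‖
      rw [hm1]
      have h2 : w / w' - 1 = (w - w') / w' := by field_simp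
      rw [h2, norm_div, hn', div_one]
      exact hw
    · show ‖(1 : κ) - 1‖ ≤ _
      rw [sub_self, norm_zero]
      exact norm_nonneg _
    · rw [div_pow, h, h', div_one, one_pow]
  exact (div_eq_one_iff_eq hw'0).1 h1

end near

section main

variable {F₀ : Type u} {κ : Type v} [Field F₀] [NontriviallyNormedField κ] [IsUltrametricDist κ]
  [ProperSpace κ] [Algebra F₀ κ] [FiniteDimensional F₀ κ] [IsGalois F₀ κ]

lemma exists_teich : ∃ m : ℕ, 0 < m ∧ ‖(m : κ)‖ = 1 ∧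
    ∀ x : κ, ‖x‖ = 1 → ‖x ^ m - 1‖ < 1 := by
  classical
  have _ : Fintype (kap κ) := Fintype.ofFinite _
  set q := Fintype.card (kap κ) with hq
  have hq1 : 1 < q := Fintype.one_lt_card
  have hqn : ‖(q : κ)‖ < 1 := by
    have h1 : ‖(q : κ)‖ ≤ 1 := by
      have := (na_norm (κ := κ)).natCast_le q
      exact this
    rw [← rs_eq_zero_iff _ h1]
    have h2 : rs (q : κ) = ((q : ℕ) : kap κ) := by
      rw [rs_eq _ h1, ← map_natCast (IsLocalRing.residue (vring κ)) q]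
      rfl
    rw [h2, hq]
    exact FiniteField.cast_card_eq_zero _
  refine ⟨q - 1, by omega, ?_, ?_⟩
  · rw [Nat.cast_sub hq1.le, Nat.cast_one, ← norm_neg, neg_sub]
    have h1 : (1 : κ) - q = 1 + (-q) := by ring
    rw [h1]
    exact norm_one_add (by rw [norm_neg]; exact hqn)
  · intro x hx
    have hx1 : ‖x ^ (q - 1)‖ = 1 := by rw [norm_pow, hx, one_pow]
    have h0 : rs x ≠ 0 := by
      rw [Ne, rs_eq_zero_iff _ hx.le, hx]
      exact lt_irrefl _
    have h1 : rs (x ^ (q - 1)) = 1 := by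
      rw [rs_pow _ hx.le]
      exact FiniteField.pow_card_sub_one_eq_one _ h0
    have h2 : ‖x ^ (q - 1) - 1‖ ≤ 1 := (norm_sub_le_max _ _).trans (by rw [hx1, norm_one, max_self])
    rw [← rs_eq_zero_iff _ h2]
    have h3 := rs_add (x ^ (q - 1) - 1) 1 h2 (by rw [norm_one])
    rw [sub_add_cancel, h1, rs_one] at h3
    exact left_eq_add.1 (h3.trans (add_comm _ _))

/-- **Radicals generate.** -/
theorem rad_normed {p : ℕ} [Fact p.Prime] (hl : ∀ l : ℕ, l.Prime → l ≠ p → ‖(l : κ)‖ = 1)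
    (hiso : ∀ (σ : Gal(κ/F₀)) (x : κ), ‖σ x‖ = ‖x‖)
    (hroot : ∀ n : ℕ, 0 < n → ‖(n : κ)‖ = 1 → ∀ u : κ, ‖u - 1‖ < 1 →
      ∃ ρ : κ, ρ ^ n = u ∧ ‖ρ - 1‖ < 1)
    {ζ : κ} (hζ : IsPrimitiveRoot ζ p) (A : Subalgebra F₀ κ) (hA : A ≠ ⊤) :
    ∃ z ∉ A, ∃ n : ℕ, 0 < n ∧ z ^ n ∈ A := by
  classical
  have hpp : p.Prime := Fact.out
  by_contra hcon
  have hcl : ∀ (z : κ) (n : ℕ), 0 < n → z ^ n ∈ A → z ∈ A := by
    intro z n hn hz
    by_contra hzA
    exact hcon ⟨z, hzA, n, hn, hz⟩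
  let F : IntermediateField F₀ κ := A.toIntermediateField (fun x hx =>
    A.inv_mem_of_algebraic (x := ⟨x, hx⟩) (Algebra.IsAlgebraic.isAlgebraic x))
  set H := F.fixingSubgroup with hH
  have hHA : ∀ σ ∈ H, ∀ x ∈ A, σ x = x := by
    intro σ hσ x hx
    exact (IntermediateField.mem_fixingSubgroup_iff F σ).1 hσ x hx
  have hfix : ∀ x : κ, (∀ σ ∈ H, σ x = x) → x ∈ A := by
    intro x hx
    have h1 := IsGalois.fixedField_fixingSubgroup F
    have h2 : x ∈ IntermediateField.fixedField F.fixingSubgroup := by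
      rw [IntermediateField.mem_fixedField_iff]
      exact hx
    rw [h1] at h2
    exact h2
  have hHbot : ∃ σ ∈ H, ∃ x : κ, σ x ≠ x := by
    by_contra h1
    push Not at h1
    apply hA
    rw [eq_top_iff]
    intro x _
    exact hfix x (fun σ hσ => h1 σ hσ x)
  -- Teichmueller representatives
  obtain ⟨m, hm, hm1, hmx⟩ := exists_teich (κ := κ)
  have hteich : ∀ x : κ, ‖x‖ = 1 → ∃ w ∈ A, w ^ m = 1 ∧ ‖x - w‖ < 1 := by
    intro x hx
    obtain ⟨ρ, hρ, hρ1⟩ := hroot m hm hm1 (x ^ m) (hmx x hx)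
    have hρn := near_norm hρ1
    have hρ0 : ρ ≠ 0 := by rintro rfl; rw [norm_zero] at hρn; exact zero_ne_one hρn
    have hx0 : x ≠ 0 := by rintro rfl; rw [norm_zero] at hx; exact zero_ne_one hx
    have h1 : (x / ρ) ^ m = 1 := by
      rw [div_pow, hρ, div_self (pow_ne_zero _ hx0)]
    refine ⟨x / ρ, hcl _ m hm (by rw [h1]; exact A.one_mem), h1, ?_⟩
    have h2 : x - x / ρ = x * (ρ - 1) * ρ⁻¹ := by field_simp
    rw [h2, norm_mul, norm_mul, norm_inv, hx, hρn, inv_one, mul_one, one_mul]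
    exact hρ1
  -- trivial action on residues
  have hunit : ∀ σ ∈ H, ∀ x : κ, ‖x‖ = 1 → ‖σ x - x‖ < 1 := by
    intro σ hσ x hx
    obtain ⟨w, hwA, -, hw⟩ := hteich x hx
    have h1 : σ x - x = σ (x - w) - (x - w) := by
      rw [map_sub, hHA σ hσ w hwA]
      ring
    rw [h1]
    exact (norm_sub_le_max _ _).trans_lt (max_lt (by rw [hiso]; exact hw) hw)
  set π := unif κ with hπ
  have hπ0 : π ≠ 0 := unif_ne
  have hπn : 0 < ‖π‖ := norm_pos_iff.2 hπ0
  have hu : ∀ σ : H, ‖(σ : Gal(κ/F₀)) π / π‖ = 1 := by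
    intro σ
    rw [norm_div, hiso, div_self hπn.ne']
  choose c hcA hcm hcn using fun σ : H => hteich _ (hu σ)
  have hcn1 : ∀ σ, ‖c σ‖ = 1 := by
    intro σ
    have h1 : ‖c σ‖ ^ m = 1 := by rw [← norm_pow, hcm, norm_one]
    exact (pow_eq_one_iff_of_nonneg (norm_nonneg _) hm.ne').1 h1
  let χ : H →* κ :=
    { toFun := c
      map_one' := by
        apply root_eq hm1 (hcm 1) (one_pow m) hm
        have h1 := hcn 1
        have h2 : ((1 : H) : Gal(κ/F₀)) π = π := rfl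
        rw [h2, div_self hπ0, ← norm_neg, neg_sub] at h1
        exact h1
      map_mul' := fun σ τ => by
        apply root_eq hm1 (hcm _) (by rw [mul_pow, hcm, hcm, one_mul]) hm
        have h1 : c (σ * τ) - c σ * c τ =
            (((σ * τ : H) : Gal(κ/F₀)) π / π - c σ * c τ) -
              (((σ * τ : H) : Gal(κ/F₀)) π / π - c (σ * τ)) := by ring
        rw [h1]
        refine (norm_sub_le_max _ _).trans_lt (max_lt ?_ (hcn _))
        have hσπ : (σ : Gal(κ/F₀)) π ≠ 0 := (_root_.map_ne_zero _).2 hπ0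
        have h2 : ((σ * τ : H) : Gal(κ/F₀)) π / π - c σ * c τ =
            (σ : Gal(κ/F₀)) ((τ : Gal(κ/F₀)) π / π - c τ) * ((σ : Gal(κ/F₀)) π / π) +
              c τ * ((σ : Gal(κ/F₀)) π / π - c σ) := by
          rw [map_sub, map_div₀, hHA σ σ.2 _ (hcA τ)]
          have h3 : ((σ * τ : H) : Gal(κ/F₀)) π = (σ : Gal(κ/F₀)) ((τ : Gal(κ/F₀)) π) := rfl
          rw [h3]
          field_simp
          ring
        rw [h2]
        refine (norm_add_le_max' _ _).trans_lt (max_lt ?_ ?_)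
        · rw [norm_mul, hiso, hu, mul_one]
          exact hcn τ
        · rw [norm_mul, hcn1, one_mul]
          exact hcn σ }
  have hχ1 : ∀ σ : H, c σ = 1 := fun σ =>
    char_trivial A hcl H hfix hHA χ hcA hm hcm σ
  have hwild : ∀ σ ∈ H, ∀ x : κ, x ≠ 0 → ‖σ x / x - 1‖ < 1 := by
    intro σ hσ x hx
    obtain ⟨n, hn⟩ := exists_zpow x hx
    have hπσ : ‖σ π / π - 1‖ < 1 := by
      have := hcn ⟨σ, hσ⟩
      rwa [hχ1] at this
    have hx' : ‖x / π ^ n‖ = 1 := by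
      rw [norm_div, norm_zpow, hn, div_self (zpow_ne_zero _ hπn.ne')]
    have hxσ : ‖σ (x / π ^ n) / (x / π ^ n) - 1‖ < 1 := by
      have h0 : x / π ^ n ≠ 0 := div_ne_zero hx (zpow_ne_zero _ hπ0)
      have h1 : σ (x / π ^ n) / (x / π ^ n) - 1 =
          (σ (x / π ^ n) - (x / π ^ n)) / (x / π ^ n) := by
        field_simp
      rw [h1, norm_div, hx', div_one]
      exact hunit σ hσ _ hx'
    have hσπ : σ π ≠ 0 := (_root_.map_ne_zero _).2 hπ0
    have h2 : σ x / x = (σ π / π) ^ n * (σ (x / π ^ n) / (x / π ^ n)) := by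
      rw [map_div₀, map_zpow₀, div_zpow]
      have h3 : (σ π) ^ n ≠ 0 := zpow_ne_zero _ hσπ
      have h4 : π ^ n ≠ 0 := zpow_ne_zero _ hπ0
      field_simp
    rw [h2]
    exact near_mul (near_zpow hπσ n) hxσ
  -- the group is a p-group
  have hlt : ∀ σ ∈ H, ∀ x : κ, x ≠ 0 → ‖σ x - x‖ < ‖x‖ := by
    intro σ hσ x hx
    have h1 := hwild σ hσ x hx
    have h2 : σ x - x = (σ x / x - 1) * x := by field_simp
    rw [h2, norm_mul]
    exact mul_lt_of_lt_one_left (norm_pos_iff.2 hx) h1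
  have hpgroup : ∀ l : ℕ, l.Prime → l ∣ Nat.card H → l = p := by
    intro l hlp hdvd
    by_contra hne
    have hln := hl l hlp hne
    have hl0 : (l : κ) ≠ 0 := by
      intro h0
      rw [h0, norm_zero] at hln
      exact zero_ne_one hln
    have _ : Fact l.Prime := ⟨hlp⟩
    obtain ⟨σ, hσ⟩ := exists_prime_orderOf_dvd_card' (G := H) l hdvd
    have hσ1 : σ ≠ 1 := by
      rintro rfl
      rw [orderOf_one] at hσ
      exact hlp.one_lt.ne hσ
    obtain ⟨x₀, hx₀⟩ : ∃ x : κ, (σ : Gal(κ/F₀)) x ≠ x := by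
      by_contra h1
      push Not at h1
      apply hσ1
      apply Subtype.ext
      ext x
      exact h1 x
    have hnat : ∀ x : κ, (σ : Gal(κ/F₀)) x ≠ x → ∃ n : ℕ,
        ‖(σ : Gal(κ/F₀)) x - x‖ = ‖π‖ ^ n * ‖x‖ := by
      intro x hx
      have hx0 : x ≠ 0 := by
        rintro rfl
        exact hx (map_zero _)
      obtain ⟨n, hn⟩ := exists_zpow (((σ : Gal(κ/F₀)) x - x) / x)
        (div_ne_zero (sub_ne_zero.2 hx) hx0)
      rw [norm_div, div_eq_iff (norm_pos_iff.2 hx0).ne'] at hn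
      have h1 := hlt σ σ.2 x hx0
      have h2 : 0 ≤ n := by
        by_contra hneg
        push Not at hneg
        have h3 : 1 ≤ ‖π‖ ^ n := one_le_zpow_of_nonpos₀ hπn unif_lt.le hneg.le
        have h4 : 1 * ‖x‖ ≤ ‖π‖ ^ n * ‖x‖ := mul_le_mul_of_nonneg_right h3 (norm_nonneg _)
        rw [one_mul, ← hn] at h4
        exact absurd h1 (not_lt.2 h4)
      obtain ⟨k, rfl⟩ := Int.eq_ofNat_of_zero_le h2
      exact ⟨k, by rw [hn, zpow_natCast]⟩
    have hex : ∃ n : ℕ, ∃ x : κ, (σ : Gal(κ/F₀)) x ≠ x ∧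
        ‖(σ : Gal(κ/F₀)) x - x‖ = ‖π‖ ^ n * ‖x‖ := by
      obtain ⟨n, hn⟩ := hnat x₀ hx₀
      exact ⟨n, x₀, hx₀, hn⟩
    obtain ⟨x, hx, hxn⟩ := Nat.find_spec hex
    have hmin := fun n hn => Nat.find_min hex (m := n) hn
    have hx0 : x ≠ 0 := by
      rintro rfl
      exact hx (map_zero _)
    set y := ∑ i ∈ Finset.range l, ((σ ^ i : H) : Gal(κ/F₀)) x with hy
    have hσy : (σ : Gal(κ/F₀)) y = y := by
      obtain ⟨j, hj⟩ : ∃ j, l = j + 1 := ⟨l - 1, by have := hlp.pos; omega⟩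
      have h1 : ∀ i, (σ : Gal(κ/F₀)) (((σ ^ i : H) : Gal(κ/F₀)) x) =
          ((σ ^ (i + 1) : H) : Gal(κ/F₀)) x := by
        intro i
        rw [pow_succ']
        rfl
      rw [hy, map_sum, Finset.sum_congr rfl (fun i _ => h1 i), hj, Finset.sum_range_succ,
        Finset.sum_range_succ', ← hj, ← hσ, pow_orderOf_eq_one, pow_zero]
    set x' := x - y / l with hx'
    have hσx' : (σ : Gal(κ/F₀)) x' - x' = (σ : Gal(κ/F₀)) x - x := by
      rw [hx', map_sub, map_div₀, hσy, map_natCast]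
      ring
    have hx'ne : (σ : Gal(κ/F₀)) x' ≠ x' := by
      intro h1
      rw [← sub_eq_zero, hσx', sub_eq_zero] at h1
      exact hx h1
    have hx'lt : ‖x'‖ < ‖x‖ := by
      have h1 : x' = (∑ i ∈ Finset.range l, (x - ((σ ^ i : H) : Gal(κ/F₀)) x)) / l := by
        rw [Finset.sum_sub_distrib, ← hy, Finset.sum_const, Finset.card_range, nsmul_eq_mul, hx']
        field_simp
      rw [h1, norm_div, hln, div_one]
      have h2 := (na_norm (κ := κ)).sum_lt (Finset.range l)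
        (fun i => x - ((σ ^ i : H) : Gal(κ/F₀)) x) (norm_pos_iff.2 hx0) (by
          intro i _
          show ‖x - ((σ ^ i : H) : Gal(κ/F₀)) x‖ < ‖x‖
          rw [← norm_neg, neg_sub]
          exact hlt _ (σ ^ i).2 x hx0)
      exact h2
    obtain ⟨n', hn'⟩ := hnat x' hx'ne
    have hx'0 : x' ≠ 0 := by
      intro h0
      rw [h0] at hx'ne
      exact hx'ne (map_zero _)
    refine hmin n' ?_ ⟨x', hx'ne, hn'⟩
    rw [hσx', hxn] at hn'
    by_contra hge
    push Not at hge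
    have h3 : ‖π‖ ^ n' ≤ ‖π‖ ^ Nat.find hex := pow_le_pow_of_le_one hπn.le unif_lt.le hge
    have h4 : ‖π‖ ^ n' * ‖x'‖ < ‖π‖ ^ Nat.find hex * ‖x‖ :=
      mul_lt_mul' h3 hx'lt (norm_nonneg _) (pow_pos hπn _)
    exact h4.ne hn'.symm
  -- a normal subgroup of index p
  have hcard : Nat.card H = p ^ (Nat.card H).primeFactorsList.length :=
    Nat.eq_prime_pow_of_unique_prime_dvd Nat.card_pos.ne' (fun {d} hd h => hpgroup d hd h)
  set r := (Nat.card H).primeFactorsList.length with hr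
  have hr0 : r ≠ 0 := by
    intro h0
    rw [h0, pow_zero] at hcard
    obtain ⟨σ, hσ, x, hx⟩ := hHbot
    have h1 : Subsingleton H := (Nat.card_eq_one_iff_unique.1 hcard).1
    have h2 : (⟨σ, hσ⟩ : H) = 1 := Subsingleton.elim _ _
    apply hx
    have h3 : σ = 1 := congrArg Subtype.val h2
    rw [h3]
    rfl
  obtain ⟨N, hN⟩ := Sylow.exists_subgroup_card_pow_prime (G := H) p (n := r - 1) (by
    rw [hcard]
    exact pow_dvd_pow p (by omega))
  have hidx : N.index = p := by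
    have h1 := N.card_mul_index
    rw [hN, hcard] at h1
    have h2 : p ^ r = p ^ (r - 1) * p := by
      rw [← pow_succ]
      congr 1
      omega
    rw [h2] at h1
    exact Nat.eq_of_mul_eq_mul_left (pow_pos hpp.pos _) h1
  have hNn : N.Normal := by
    apply Subgroup.normal_of_index_eq_minFac_card
    rw [hidx, hcard, Nat.Prime.pow_minFac hpp hr0]
  have hcq : Nat.card (H ⧸ N) = p := hidx
  have hcr : Nat.card (rootsOfUnity p κ) = p := by
    have : NeZero p := ⟨hpp.ne_zero⟩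
    exact (card_rootsOfUnity_eq_iff_exists_isPrimitiveRoot).2 ⟨ζ, hζ⟩
  let ψ : H ⧸ N ≃* rootsOfUnity p κ := mulEquivOfPrimeCardEq hcq hcr
  let χ' : H →* κ := ((Units.coeHom κ).comp ((rootsOfUnity p κ).subtype)).comp
    ((ψ : H ⧸ N →* rootsOfUnity p κ).comp (QuotientGroup.mk' N))
  have hχ'p : ∀ σ, χ' σ ^ p = 1 := by
    intro σ
    have h1 := (ψ (QuotientGroup.mk' N σ)).2
    rw [mem_rootsOfUnity'] at h1
    exact h1
  have hχ'1 := char_trivial A hcl H hfix hHA χ'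
    (fun σ => hcl _ p hpp.pos (by rw [hχ'p]; exact A.one_mem)) hpp.pos hχ'p
  have hall : ∀ a : H ⧸ N, a = 1 := by
    intro a
    obtain ⟨σ, rfl⟩ := QuotientGroup.mk'_surjective N a
    apply ψ.injective
    rw [map_one]
    apply Subtype.ext
    apply Units.ext
    exact hχ'1 σ
  have h1 : Subsingleton (H ⧸ N) := ⟨fun a b => by rw [hall a, hall b]⟩
  have h2 : Nat.card (H ⧸ N) = 1 := Nat.card_unique
  rw [hcq] at h2
  exact hpp.one_lt.ne' h2

end main

end Vale.Agent.P025.R2.H637
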