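import Vale.Agent.P025.R2.H637.Pattern
import Vale.Agent.P025.R2.H637.Growth
import Vale.Agent.P025.R2.H637.Rad

/-! # The final contradiction -/

open IntermediateField P025H641 Polynomial

namespace Vale.Agent.P025.R2.H637

universe u v w

section frame

variable {p : ℕ} [Fact p.Prime] {κ : Type u} {M : Type v} [Field κ] [Field M]
    [Algebra ℚ_[p] M] [Algebra κ M] {G : Set (M ≃+* M)} {R : Subring M}
    {v : AbsoluteValue M ℝ}

/-- roots of units of `R` near one -/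
lemma Frame.near_pow [CharZero κ] (F : Frame p κ G R v) {u : M} (hu : u ∈ R) (hui : u⁻¹ ∈ R)
    (hu0 : u ≠ 0) (huG : Fixed G u) (hun : v (u - 1) < v (p : M) ^ p) :
    ∃ w : M, Fixed G w ∧ w ^ p = u := by
  have hp : p.Prime := Fact.out
  have hv := F.na
  have hcharM : CharZero M := charZero_of_injective_algebraMap (algebraMap κ M).injective
  have hpM : (p : M) ≠ 0 := Nat.cast_ne_zero.2 hp.ne_zero
  have hpv : 0 < v (p : M) := v.pos hpM
  let U : Rˣ := ⟨⟨u, hu⟩, ⟨u⁻¹, hui⟩, Subtype.ext (mul_inv_cancel₀ hu0),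
    Subtype.ext (inv_mul_cancel₀ hu0)⟩
  have hpR : IsUnit (p : R) := by
    have h1 := F.isUnit_ι (c := (p : κ)) (Nat.cast_ne_zero.2 hp.ne_zero)
    rwa [map_natCast] at h1
  have h1 := F.splits (X ^ p - C (U : R)) (monic_X_pow_sub_C _ hp.ne_zero)
    (separable_X_pow_sub_C_unit U hpR)
  rw [Polynomial.map_sub, Polynomial.map_pow, map_X, map_C] at h1
  obtain ⟨w, hw, hw1⟩ := exists_root_near_one hp.pos h1 hpv hun
  refine ⟨w, fun g hg => ?_, hw⟩
  refine hv.root_unique (n := p) (q := v (w - 1)) hw1 ?_ le_rfl ?_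
  · have h5 : g w - 1 = g (w - 1) := by rw [map_sub, map_one]
    rw [h5, F.inv g hg]
  · rw [← map_pow, hw]
    exact huG g hg

end frame

section dist

variable {p : ℕ} [Fact p.Prime] {κ : Type u} {M : Type v} [Field κ] [Field M]
    [Algebra ℚ_[p] M] [Algebra κ M] {v : AbsoluteValue M ℝ}
    [Algebra ℚ_[p] κ] [IsScalarTower ℚ_[p] κ M] [FiniteDimensional ℚ_[p] κ]

/-- the distance to the constants is positive -/
lemma exists_dist (hv : NA v) (hext : Ext p v) {T : M} (hT : NonConst κ T) :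
    ∃ r : ℝ, 0 < r ∧ ∀ c : κ, r ≤ v (T - algebraMap κ M c) := by
  let inst1 : NontriviallyNormedField κ := spectralNorm.nontriviallyNormedField ℚ_[p] κ
  have hproper : ProperSpace κ := by
    let _ : NormedAlgebra ℚ_[p] κ := spectralNorm.normedAlgebra ℚ_[p] κ
    exact FiniteDimensional.proper ℚ_[p] κ
  have hw : ∀ c : κ, v (algebraMap κ M c) = ‖c‖ := fun c => v_const hext c
  have hcont : Continuous (fun c : κ => v (T - algebraMap κ M c)) := by
    apply LipschitzWith.continuous (K := 1)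
    apply LipschitzWith.of_dist_le_mul
    intro c c'
    rw [NNReal.coe_one, one_mul, Real.dist_eq, dist_eq_norm]
    refine (v.abs_abv_sub_le_abv_sub _ _).trans ?_
    have h1 : T - algebraMap κ M c - (T - algebraMap κ M c') = -algebraMap κ M (c - c') := by
      rw [map_sub]
      ring
    rw [h1, v.map_neg, hw]
  have hT0 : 0 < v T := by
    have := hT 0
    rw [map_zero] at this
    exact v.pos this
  obtain ⟨c₀, -, hc₀⟩ := (isCompact_closedBall (0 : κ) (v T)).exists_isMinOn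
    ⟨0, Metric.mem_closedBall_self hT0.le⟩ hcont.continuousOn
  have hc₀0 : 0 < v (T - algebraMap κ M c₀) := v.pos (sub_ne_zero.2 (hT c₀))
  refine ⟨min (v (T - algebraMap κ M c₀)) (v T), lt_min hc₀0 hT0, fun c => ?_⟩
  by_cases hc : ‖c‖ ≤ v T
  · exact (min_le_left _ _).trans (hc₀ (by rw [mem_closedBall_zero_iff]; exact hc))
  · push Not at hc
    refine (min_le_right _ _).trans ?_
    rw [← hw] at hc
    rw [v.map_sub, hv.sub_eq hc]
    exact hc.le

end dist

section fine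

variable {p : ℕ} [Fact p.Prime] {κ : Type u} [Field κ] [Algebra ℚ_[p] κ]
  [FiniteDimensional ℚ_[p] κ]

/-- perturbation of fine sets -/
lemma fine_perturb {r : ℕ} {A₀ A : Finset κ} [DecidableEq κ] (hA : IsFine p r A₀ A) :
    ∃ δ > 0, ∀ c : κ → κ, (∀ a ∈ A, spectralNorm ℚ_[p] κ (c a - a) < δ) →
      IsFine p r (A₀.image c) (A.image c) := by
  let inst1 : NontriviallyNormedField κ := spectralNorm.nontriviallyNormedField ℚ_[p] κ
  have hu : IsUltrametricDist κ :=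
    IsUltrametricDist.isUltrametricDist_of_isNonarchimedean_norm isNonarchimedean_spectralNorm
  have hpp : p.Prime := Fact.out
  have hpR : (1 : ℝ) < p := by exact_mod_cast hpp.one_lt
  have hpR0 : (0 : ℝ) < p := by linarith
  have hna := na_norm (κ := κ)
  set N := precision (Module.finrank ℚ_[p] κ) r with hN
  refine ⟨min ((p : ℝ) ^ r)⁻¹ ((p : ℝ) ^ N)⁻¹, lt_min (by positivity) (by positivity), ?_⟩
  intro c hc
  have h1 : ∀ a ∈ A, ‖c a - a‖ < ((p : ℝ) ^ r)⁻¹ := fun a ha => (hc a ha).trans_le (min_le_left _ _)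
  have h2 : ∀ a ∈ A, ‖c a - a‖ < ((p : ℝ) ^ N)⁻¹ := fun a ha =>
    (hc a ha).trans_le (min_le_right _ _)
  have h3 : ((p : ℝ) ^ r)⁻¹ ≤ (p : ℝ) ^ r := by
    have : (1 : ℝ) ≤ (p : ℝ) ^ r := one_le_pow₀ hpR.le
    exact (inv_le_one_of_one_le₀ this).trans this
  refine ⟨Finset.image_subset_image hA.subset, ?_, ?_, ?_⟩
  · intro b hb
    obtain ⟨a, ha, rfl⟩ := Finset.mem_image.1 hb
    have h4 : c a = (c a - a) + a := by ring
    show ‖c a‖ ≤ _
    rw [h4]
    exact (norm_add_le_max' _ _).trans (max_le ((h1 a (hA.subset ha)).le.trans h3) (hA.bound a ha))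
  · intro b hb b' hb' hbb'
    obtain ⟨a, ha, rfl⟩ := Finset.mem_image.1 hb
    obtain ⟨a', ha', rfl⟩ := Finset.mem_image.1 hb'
    have haa' : a ≠ a' := fun h => hbb' (by rw [h])
    have h4 := hA.sep a ha a' ha' haa'
    show _ ≤ ‖c a - c a'‖
    have h4' : ((p : ℝ) ^ r)⁻¹ ≤ ‖a - a'‖ := h4
    have h5 : ‖(c a - a) - (c a' - a')‖ < ‖a - a'‖ :=
      ((norm_sub_le_max _ _).trans_lt (max_lt (h1 a (hA.subset ha))
        (h1 a' (hA.subset ha')))).trans_le h4'
    have h6 : c a - c a' = (a - a') + ((c a - a) - (c a' - a')) := by ring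
    have h7 := hna.add_eq (x := a - a') (y := (c a - a) - (c a' - a')) h5
    have h8 : ‖c a - c a'‖ = ‖a - a'‖ := by
      rw [h6]
      exact h7
    rw [h8]
    exact h4'
  · intro x hx
    obtain ⟨a, ha, h4⟩ := hA.dense x hx
    refine ⟨c a, Finset.mem_image_of_mem _ ha, ?_⟩
    show ‖x - c a‖ ≤ _
    have h5 : x - c a = (x - a) - (c a - a) := by ring
    rw [h5]
    exact (norm_sub_le_max _ _).trans (max_le h4 (h2 a ha).le)

end fine

section main

variable {p : ℕ} [Fact p.Prime] {k : Type u} {K : Type v} [Field k] [Field K] [Algebra k K]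
  [CharZero k] {M : IntermediateField K (AlgebraicClosure K)} [Normal K M]
  {s : Gal(constClosure k K/k) →* Gal(M/K)}
  {G : Subgroup Gal(constClosure k K/k)} {k' : Type w} [Field k'] [Algebra k' M]
  [Algebra ℚ_[p] k'] [FiniteDimensional ℚ_[p] k'] [Algebra ℚ_[p] M] [IsScalarTower ℚ_[p] k' M]

/-- the automorphisms of `M` given by a subgroup -/
def autSet (s : Gal(constClosure k K/k) →* Gal(M/K)) (G : Subgroup Gal(constClosure k K/k)) :
    Set (M ≃+* M) := {g | ∃ σ ∈ G, g = (s σ : M ≃ₐ[K] M).toRingEquiv}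

omit [CharZero k] [Normal K M] in
lemma fixed_autSet {x : M} : Fixed (autSet s G) x ↔ ∀ σ ∈ G, s σ x = x := by
  constructor
  · intro h σ hσ
    exact h _ ⟨σ, hσ, rfl⟩
  · rintro h _ ⟨σ, hσ, rfl⟩
    exact h σ hσ

/-- **There is no invariant absolute value of the wrong kind.** -/
theorem no_abs (hM : ConstIn k M) (hs : IsSecOf k M s) (B : BaseM s G k') {ζ : k'}
    (hζ : IsPrimitiveRoot ζ p) {R : Subring M} {v : AbsoluteValue M ℝ}
    (F : Frame p k' (autSet s G) R v) (hp2 : p ≠ 2)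
    (hsplit : ∀ P : k'[X], (P.map (algebraMap k' M)).Splits) (hrad : Rad p k')
    (hroot : ∀ x ∈ R, x⁻¹ ∈ R → x ≠ 0 → ∃ γ : M, γ ^ p = x)
    (hint : ∀ x : M, x ^ p ∈ R → x ∈ R) {T : M} (hT : T ∈ R) (hTG : ∀ σ ∈ G, s σ T = T)
    (hTc : NonConst k' T) (h0 : Cusp R T 0) (h1 : Cusp R T 1) : False := by
  classical
  have hpp : p.Prime := Fact.out
  have hchark : CharZero k' := charZero_of_injective_algebraMap (algebraMap ℚ_[p] k').injective
  have hv := F.na
  have hTG' : Fixed (autSet s G) T := fixed_autSet.2 hTG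
  obtain ⟨r₀, hr₀, hdist⟩ := exists_dist hv F.ext hTc
  let inst1 : NontriviallyNormedField k' := spectralNorm.nontriviallyNormedField ℚ_[p] k'
  have hu : IsUltrametricDist k' :=
    IsUltrametricDist.isUltrametricDist_of_isNonarchimedean_norm isNonarchimedean_spectralNorm
  have hproper : ProperSpace k' := by
    let _ : NormedAlgebra ℚ_[p] k' := spectralNorm.normedAlgebra ℚ_[p] k'
    exact FiniteDimensional.proper ℚ_[p] k'
  have hw : ∀ c : k', v (algebraMap k' M c) = ‖c‖ := fun c => v_const F.ext c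
  have hna := na_norm (κ := k')
  have hpR : (1 : ℝ) < p := by exact_mod_cast hpp.one_lt
  have hpR0 : (0 : ℝ) < p := by linarith
  have hvp : v (p : M) = (p : ℝ)⁻¹ := by
    have h2 := F.ext (p : ℚ_[p])
    rw [map_natCast, Padic.norm_p] at h2
    exact h2
  have hpk : ‖(p : k')‖ = (p : ℝ)⁻¹ := by rw [← hw, map_natCast, hvp]
  set τ := v (p : M) ^ p with hτ
  have hτ0 : 0 < τ := by rw [hτ, hvp]; positivity
  set π := unif k' with hπ
  have hπ0 : π ≠ 0 := unif_ne
  have hπn : 0 < ‖π‖ := norm_pos_iff.2 hπ0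
  have hπ1 : ‖π‖ < 1 := unif_lt
  -- powers
  have hpow : ∀ (u : k') (q : M), (∀ σ ∈ G, s σ q = q) → q ^ p = algebraMap k' M u →
      ∀ i : ℤ, ‖u‖ = ‖π‖ ^ i → (p : ℤ) ∣ i := by
    intro u q hqG hq i hi
    obtain ⟨q', rfl⟩ := B.ex q (isIntegral_of_pow' hpp.pos (by rw [hq]; exact B.alg u)) hqG
    have h2 : q' ^ p = u := by
      apply (algebraMap k' M).injective
      rw [map_pow, hq]
    have hu0 : u ≠ 0 := by
      rintro rfl
      rw [norm_zero] at hi
      exact (zpow_pos hπn i).ne hi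
    have hq0 : q' ≠ 0 := by
      rintro rfl
      rw [zero_pow hpp.ne_zero] at h2
      exact hu0 h2.symm
    obtain ⟨j, hj⟩ := exists_zpow q' hq0
    rw [← h2, norm_pow, hj, ← zpow_natCast, ← zpow_mul] at hi
    refine ⟨j, ?_⟩
    have h3 := zpow_inj' (k := k') hi
    rw [← h3, mul_comm]
  -- scales
  obtain ⟨n₀, hn₀⟩ := exists_pow_lt_of_lt_one (mul_pos hr₀ hτ0) hπ1
  obtain ⟨l, hl⟩ := pow_unbounded_of_one_lt (v T / τ) hpR
  set a₁ : k' := ((p : k') ^ l)⁻¹ with ha₁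
  set a₂ : k' := a₁ / π with ha₂
  have ha₁n : ‖a₁‖ = (p : ℝ) ^ l := by
    rw [ha₁, norm_inv, norm_pow, hpk, inv_pow, inv_inv]
  have ha₁1 : 1 ≤ ‖a₁‖ := by
    rw [ha₁n]
    exact one_le_pow₀ hpR.le
  have ha₂n : ‖a₂‖ = ‖a₁‖ / ‖π‖ := by rw [ha₂, norm_div]
  have ha₁₂ : ‖a₁‖ ≤ ‖a₂‖ := by
    rw [ha₂n, le_div_iff₀ hπn]
    exact mul_le_of_le_one_right (norm_nonneg _) hπ1.le
  set Λ := ‖a₂‖ / τ with hΛ
  obtain ⟨N, -, hN⟩ := (isCompact_closedBall (0 : k') Λ).elim_nhds_subcover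
    (fun x => Metric.closedBall x (‖π‖ ^ (n₀ + 2)))
    (fun x _ => Metric.closedBall_mem_nhds x (pow_pos hπn _))
  set A₀ : Finset k' := N.image (fun a => a + π ^ n₀) ∪ N.image (fun a => a + π ^ (n₀ + 1)) ∪
    {a₁, a₂} with hA₀
  obtain ⟨r, A, hA⟩ := exists_fine (p := p) A₀
  obtain ⟨δ₁, hδ₁, hfine⟩ := fine_perturb hA
  set δ := min (min δ₁ (‖π‖ ^ (n₀ + 2))) (min 1 r₀) with hδ
  have hδ0 : 0 < δ := lt_min (lt_min hδ₁ (pow_pos hπn _)) (lt_min one_pos hr₀)
  have hδδ : δ ≤ δ₁ := (min_le_left _ _).trans (min_le_left _ _)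
  have hδπ : δ ≤ ‖π‖ ^ (n₀ + 2) := (min_le_left _ _).trans (min_le_right _ _)
  have hδ1 : δ ≤ 1 := (min_le_right _ _).trans (min_le_left _ _)
  have hδr : δ ≤ r₀ := (min_le_right _ _).trans (min_le_right _ _)
  obtain ⟨x, hxR, hxG, hxc, hxT, hxcusp⟩ := app_all F hp2 hsplit hrad hT hTG' hTc h0 h1 A δ hδ0
  have hxG' : ∀ σ ∈ G, s σ x = x := fixed_autSet.1 hxG
  have hvx : ∀ c : k', v (x - algebraMap k' M c) = v (T - algebraMap k' M c) := by
    intro c
    apply hv.eq_of_sub_lt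
    have h2 : T - algebraMap k' M c - (x - algebraMap k' M c) = -(x - T) := by ring
    rw [h2, v.map_neg]
    exact (hxT.trans_le hδr).trans_le (hdist c)
  have hvx0 : v x = v T := by
    have := hvx 0
    rwa [map_zero, sub_zero, sub_zero] at this
  choose! c hc hca using hxcusp
  have hcn : ∀ a ∈ A, ‖c a - a‖ < δ := by
    intro a ha
    rw [← hw]
    exact hca a ha
  have hfine' := hfine c (fun a ha => (hcn a ha).trans_le hδδ)
  obtain ⟨z, hz⟩ := pattern_frame hM hs B hζ F.const_mem hroot hint x hxG' hfine' (by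
    intro b hb
    obtain ⟨a, ha, rfl⟩ := Finset.mem_image.1 hb
    exact hc a ha)
  -- the representation
  have hrep : ∀ a ∈ A₀, z ≠ c a ∧ ∃ y : M, y ≠ 0 ∧ (∀ σ ∈ G, s σ y = y) ∧
      x - algebraMap k' M (c a) = algebraMap k' M (z - c a) * y ^ p := by
    intro a ha
    obtain ⟨h2, X, y, hX, hy, hyG, hxy, hcl⟩ := hz (c a) (Finset.mem_image_of_mem _ ha)
    have hzc : z - c a ≠ 0 := sub_ne_zero.2 h2
    have h3 : clsm p (X / (z - c a)) = 0 := by
      rw [clsm_div _ _ hX hzc, hcl, sub_self]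
    obtain ⟨e, he⟩ := (clsm_eq_zero hpp.ne_zero _ (div_ne_zero hX hzc)).1 h3
    have he0 : e ≠ 0 := by
      rintro rfl
      rw [zero_pow hpp.ne_zero] at he
      exact div_ne_zero hX hzc he
    refine ⟨h2, algebraMap k' M e * y, mul_ne_zero ((_root_.map_ne_zero _).2 he0) hy, ?_, ?_⟩
    · intro σ hσ
      rw [map_mul, B.fix e σ hσ, hyG σ hσ]
    · rw [hxy, mul_pow, ← map_pow, ← he, ← mul_assoc, ← map_mul, mul_div_cancel₀ _ hzc]
  have hcuspA₀ : ∀ a ∈ A₀, Cusp R x (algebraMap k' M (c a)) := fun a ha => hc a (hA.subset ha)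
  by_cases hzΛ : ‖z‖ ≤ Λ
  · -- `z` is close
    have h2 := hN (show z ∈ Metric.closedBall (0 : k') Λ by rwa [mem_closedBall_zero_iff])
    simp only [Set.mem_iUnion] at h2
    obtain ⟨a, haN, ha⟩ := h2
    rw [Metric.mem_closedBall, dist_eq_norm] at ha
    have hb : a + π ^ n₀ ∈ A₀ := by
      rw [hA₀]
      exact Finset.mem_union_left _ (Finset.mem_union_left _ (Finset.mem_image_of_mem _ haN))
    have hb' : a + π ^ (n₀ + 1) ∈ A₀ := by
      rw [hA₀]
      exact Finset.mem_union_left _ (Finset.mem_union_right _ (Finset.mem_image_of_mem _ haN))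
    set b := c (a + π ^ n₀) with hbdef
    set b' := c (a + π ^ (n₀ + 1)) with hb'def
    obtain ⟨hzb, y, hy0, hyG, hxb⟩ := hrep _ hb
    obtain ⟨hzb', y', hy'0, hy'G, hxb'⟩ := hrep _ hb'
    have hlt1 : ‖π‖ ^ (n₀ + 1) < ‖π‖ ^ n₀ := pow_lt_pow_right_of_lt_one₀ hπn hπ1 (by omega)
    have hlt2 : ‖π‖ ^ (n₀ + 2) < ‖π‖ ^ (n₀ + 1) := pow_lt_pow_right_of_lt_one₀ hπn hπ1 (by omega)
    have hsmall : ‖(z - a) - (b - (a + π ^ n₀))‖ ≤ ‖π‖ ^ (n₀ + 2) :=
      (norm_sub_le_max _ _).trans (max_le ha ((hcn _ (hA.subset hb)).le.trans hδπ))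
    have hsmall' : ‖(z - a) - (b' - (a + π ^ (n₀ + 1)))‖ ≤ ‖π‖ ^ (n₀ + 2) :=
      (norm_sub_le_max _ _).trans (max_le ha ((hcn _ (hA.subset hb')).le.trans hδπ))
    have hn1 : ‖z - b‖ = ‖π‖ ^ n₀ := by
      have h3 : z - b = -π ^ n₀ + ((z - a) - (b - (a + π ^ n₀))) := by ring
      have h4 := hna.add_eq (x := -π ^ n₀) (y := (z - a) - (b - (a + π ^ n₀))) (by
        show ‖(z - a) - (b - (a + π ^ n₀))‖ < ‖-π ^ n₀‖
        rw [norm_neg, norm_pow]
        exact hsmall.trans_lt (hlt2.trans hlt1))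
      have h5 : ‖-π ^ n₀ + ((z - a) - (b - (a + π ^ n₀)))‖ = ‖-π ^ n₀‖ := h4
      rw [h3, h5, norm_neg, norm_pow]
    have hn2 : ‖z - b'‖ = ‖π‖ ^ (n₀ + 1) := by
      have h3 : z - b' = -π ^ (n₀ + 1) + ((z - a) - (b' - (a + π ^ (n₀ + 1)))) := by ring
      have h4 := hna.add_eq (x := -π ^ (n₀ + 1)) (y := (z - a) - (b' - (a + π ^ (n₀ + 1)))) (by
        show ‖(z - a) - (b' - (a + π ^ (n₀ + 1)))‖ < ‖-π ^ (n₀ + 1)‖
        rw [norm_neg, norm_pow]
        exact hsmall'.trans_lt hlt2)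
      have h5 : ‖-π ^ (n₀ + 1) + ((z - a) - (b' - (a + π ^ (n₀ + 1))))‖ = ‖-π ^ (n₀ + 1)‖ := h4
      rw [h3, h5, norm_neg, norm_pow]
    have hbb' : ‖b' - b‖ ≤ ‖π‖ ^ n₀ := by
      have h3 : b' - b = (z - b) - (z - b') := by ring
      rw [h3]
      exact (norm_sub_le_max _ _).trans (by rw [hn1, hn2]; exact max_le le_rfl hlt1.le)
    obtain ⟨f1, f2, f3⟩ := hcuspA₀ _ hb
    obtain ⟨g1, g2, g3⟩ := hcuspA₀ _ hb'
    obtain ⟨w₀, hw₀G, hw₀⟩ := F.near_pow (u := (x - algebraMap k' M b) / (x - algebraMap k' M b'))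
      (by rw [div_eq_mul_inv]; exact R.mul_mem f1 g2)
      (by rw [inv_div, div_eq_mul_inv]; exact R.mul_mem g1 f2) (div_ne_zero f3 g3)
      (by
        intro g hg
        rw [map_div₀, map_sub, map_sub, hxG g hg, F.fix_const g hg, F.fix_const g hg])
      (by
        have h3 : (x - algebraMap k' M b) / (x - algebraMap k' M b') - 1 =
            algebraMap k' M (b' - b) / (x - algebraMap k' M b') := by
          rw [map_sub, div_sub_one g3]
          congr 1
          ring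
        rw [h3, map_div₀, hw, hvx]
        have h4 := hdist b'
        rw [div_lt_iff₀ (hr₀.trans_le h4)]
        calc ‖b' - b‖ ≤ ‖π‖ ^ n₀ := hbb'
          _ < r₀ * τ := hn₀
          _ ≤ τ * v (T - algebraMap k' M b') := by
            rw [mul_comm]
            exact mul_le_mul_of_nonneg_left h4 hτ0.le)
    rw [fixed_autSet] at hw₀G
    have hw₀0 : w₀ ≠ 0 := by
      rintro rfl
      rw [zero_pow hpp.ne_zero] at hw₀
      exact div_ne_zero f3 g3 hw₀.symm
    have hzbM : algebraMap k' M (z - b) ≠ 0 := (_root_.map_ne_zero _).2 (sub_ne_zero.2 hzb)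
    have hzbM' : algebraMap k' M (z - b') ≠ 0 := (_root_.map_ne_zero _).2 (sub_ne_zero.2 hzb')
    have h3 := hpow ((z - b) / (z - b')) (w₀ * y' / y) (by
      intro σ hσ
      rw [map_div₀, map_mul, hw₀G σ hσ, hy'G σ hσ, hyG σ hσ]) (by
      have e1 : x - algebraMap k' M b = algebraMap k' M (z - b) * y ^ p := hxb
      have e2 : x - algebraMap k' M b' = algebraMap k' M (z - b') * y' ^ p := hxb'
      have e3 := pow_ne_zero p hy0
      have e4 := pow_ne_zero p hy'0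
      rw [div_pow, mul_pow, hw₀, e1, e2, map_div₀]
      field_simp) (-1) (by
      rw [norm_div, hn1, hn2, zpow_neg_one, pow_succ]
      field_simp)
    obtain ⟨j, hj⟩ := h3
    have h4 : (p : ℤ) ∣ 1 := ⟨-j, by linarith⟩
    exact hpp.one_lt.ne' (by exact_mod_cast Int.eq_one_of_dvd_one (by positivity) h4)
  · -- `z` is far
    push Not at hzΛ
    have hb : a₁ ∈ A₀ := by rw [hA₀]; simp
    have hb' : a₂ ∈ A₀ := by rw [hA₀]; simp
    set b := c a₁ with hbdef
    set b' := c a₂ with hb'def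
    obtain ⟨hzb, y, hy0, hyG, hxb⟩ := hrep _ hb
    obtain ⟨hzb', y', hy'0, hy'G, hxb'⟩ := hrep _ hb'
    have hnorm : ∀ a : k', a ∈ A₀ → 1 ≤ ‖a‖ → ‖c a‖ = ‖a‖ := by
      intro a ha h1a
      have h3 : c a = a + (c a - a) := by ring
      have h4 := hna.add_eq (x := a) (y := c a - a) (by
        show ‖c a - a‖ < ‖a‖
        exact ((hcn _ (hA.subset ha)).trans_le hδ1).trans_le h1a)
      have h5 : ‖a + (c a - a)‖ = ‖a‖ := h4
      rw [h3, h5]
    have hbn : ‖b‖ = ‖a₁‖ := hnorm a₁ hb ha₁1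
    have hbn' : ‖b'‖ = ‖a₂‖ := hnorm a₂ hb' (ha₁1.trans ha₁₂)
    have ha₁0 : 0 < ‖a₁‖ := one_pos.trans_le ha₁1
    have ha₂0 : 0 < ‖a₂‖ := ha₁0.trans_le ha₁₂
    have hTτ : v T / τ < ‖a₁‖ := by rw [ha₁n]; exact hl
    rw [div_lt_iff₀ hτ0] at hTτ
    -- roots for `x`
    have hrx : ∀ a : k', a ∈ A₀ → ‖a₁‖ ≤ ‖c a‖ → ∃ w₀ : M, w₀ ≠ 0 ∧ (∀ σ ∈ G, s σ w₀ = w₀) ∧
        x - algebraMap k' M (c a) = algebraMap k' M (-(c a)) * w₀ ^ p := by
      intro a ha hna1
      obtain ⟨f1, f2, f3⟩ := hcuspA₀ _ ha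
      have hc0 : c a ≠ 0 := norm_pos_iff.1 (ha₁0.trans_le hna1)
      have hcM : algebraMap k' M (-(c a)) ≠ 0 := (_root_.map_ne_zero _).2 (neg_ne_zero.2 hc0)
      obtain ⟨w₀, hw₀G, hw₀⟩ := F.near_pow (u := (x - algebraMap k' M (c a)) *
          algebraMap k' M (-(c a))⁻¹) (R.mul_mem f1 (F.const_mem _))
        (by
          rw [mul_inv, ← map_inv₀, inv_inv]
          exact R.mul_mem f2 (F.const_mem _))
        (mul_ne_zero f3 ((_root_.map_ne_zero _).2 (inv_ne_zero (neg_ne_zero.2 hc0))))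
        (by
          intro g hg
          rw [map_mul, map_sub, hxG g hg, F.fix_const g hg, F.fix_const g hg])
        (by
          have h3 : (x - algebraMap k' M (c a)) * algebraMap k' M (-(c a))⁻¹ - 1 =
              x * algebraMap k' M (-(c a))⁻¹ := by
            have h4 : algebraMap k' M (c a) * algebraMap k' M (-(c a))⁻¹ = -1 := by
              have h5 : c a * (-(c a))⁻¹ = -1 := by field_simp
              rw [← map_mul, h5, map_neg, map_one]
            linear_combination -h4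
          rw [h3, v.map_mul, hw, norm_inv, norm_neg, hvx0, ← div_eq_mul_inv,
            div_lt_iff₀ (ha₁0.trans_le hna1)]
          calc v T < ‖a₁‖ * τ := hTτ
            _ ≤ τ * ‖c a‖ := by
              rw [mul_comm]
              exact mul_le_mul_of_nonneg_left hna1 hτ0.le)
      rw [fixed_autSet] at hw₀G
      refine ⟨w₀, ?_, hw₀G, ?_⟩
      · rintro rfl
        rw [zero_pow hpp.ne_zero] at hw₀
        exact mul_ne_zero f3 ((_root_.map_ne_zero _).2 (inv_ne_zero (neg_ne_zero.2 hc0)))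
          hw₀.symm
      · rw [hw₀, map_inv₀]
        field_simp
    have hz0 : z ≠ 0 := by
      rintro rfl
      rw [norm_zero] at hzΛ
      exact absurd (div_nonneg ha₂0.le hτ0.le) (not_le.2 hzΛ)
    have hzn : 0 < ‖z‖ := norm_pos_iff.2 hz0
    have hrz : ∀ a : k', ‖c a‖ ≤ ‖a₂‖ → z ≠ c a → ∃ w₀ : M, w₀ ≠ 0 ∧ (∀ σ ∈ G, s σ w₀ = w₀) ∧
        algebraMap k' M (z - c a) = algebraMap k' M z * w₀ ^ p := by
      intro a hna2 hzne
      have hzc : z - c a ≠ 0 := sub_ne_zero.2 hzne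
      have hzM : algebraMap k' M z ≠ 0 := (_root_.map_ne_zero _).2 hz0
      have hzcM : algebraMap k' M ((z - c a) / z) ≠ 0 :=
        (_root_.map_ne_zero _).2 (div_ne_zero hzc hz0)
      obtain ⟨w₀, hw₀G, hw₀⟩ := F.near_pow (u := algebraMap k' M ((z - c a) / z))
        (F.const_mem _) (by rw [← map_inv₀]; exact F.const_mem _) hzcM
        (fun g hg => F.fix_const g hg _)
        (by
          have h3 : algebraMap k' M ((z - c a) / z) - 1 = algebraMap k' M (-(c a) / z) := by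
            rw [← map_one (algebraMap k' M), ← map_sub]
            congr 1
            field_simp
            ring
          rw [h3, hw, norm_div, norm_neg, div_lt_iff₀ hzn]
          rw [hΛ, div_lt_iff₀ hτ0] at hzΛ
          calc ‖c a‖ ≤ ‖a₂‖ := hna2
            _ < ‖z‖ * τ := hzΛ
            _ = τ * ‖z‖ := mul_comm _ _)
      rw [fixed_autSet] at hw₀G
      refine ⟨w₀, ?_, hw₀G, ?_⟩
      · rintro rfl
        rw [zero_pow hpp.ne_zero] at hw₀
        exact hzcM hw₀.symm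
      · rw [hw₀, ← map_mul]
        congr 1
        field_simp
    obtain ⟨w₁, hw₁0, hw₁G, hw₁⟩ := hrx a₁ hb hbn.ge
    obtain ⟨w₂, hw₂0, hw₂G, hw₂⟩ := hrx a₂ hb' (ha₁₂.trans hbn'.ge)
    obtain ⟨w₃, hw₃0, hw₃G, hw₃⟩ := hrz a₁ (hbn.le.trans ha₁₂) hzb
    obtain ⟨w₄, hw₄0, hw₄G, hw₄⟩ := hrz a₂ hbn'.le hzb'
    rw [hw₃, hw₁] at hxb
    rw [hw₄, hw₂] at hxb'
    have hbM : algebraMap k' M (-b) ≠ 0 := (_root_.map_ne_zero _).2
      (neg_ne_zero.2 (norm_pos_iff.1 (hbn ▸ ha₁0)))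
    have hbM' : algebraMap k' M (-b') ≠ 0 := (_root_.map_ne_zero _).2
      (neg_ne_zero.2 (norm_pos_iff.1 (hbn' ▸ ha₂0)))
    have hzM : algebraMap k' M z ≠ 0 := (_root_.map_ne_zero _).2 hz0
    have h3 := hpow (b / b') (w₃ * y * w₂ / (w₁ * (w₄ * y'))) (by
      intro σ hσ
      rw [map_div₀, map_mul, map_mul, map_mul, map_mul, hw₁G σ hσ, hw₂G σ hσ, hw₃G σ hσ,
        hw₄G σ hσ, hyG σ hσ, hy'G σ hσ]) (by
      have e1 : algebraMap k' M (b / b') = algebraMap k' M (-b) / algebraMap k' M (-b') := by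
        rw [← map_div₀, neg_div_neg_eq]
      rw [e1, div_pow, div_eq_div_iff (pow_ne_zero _ (mul_ne_zero hw₁0 (mul_ne_zero hw₄0 hy'0)))
        hbM']
      apply mul_left_cancel₀ hzM
      calc algebraMap k' M z * ((w₃ * y * w₂) ^ p * algebraMap k' M (-b')) =
          (algebraMap k' M z * w₃ ^ p * y ^ p) * (algebraMap k' M (-b') * w₂ ^ p) := by
            rw [mul_pow, mul_pow]; ring
        _ = (algebraMap k' M (-b) * w₁ ^ p) * (algebraMap k' M z * w₄ ^ p * y' ^ p) := by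
            rw [← hxb, hxb']
        _ = algebraMap k' M z * (algebraMap k' M (-b) * (w₁ * (w₄ * y')) ^ p) := by
            rw [mul_pow, mul_pow]; ring) 1 (by
      rw [norm_div, hbn, hbn', ha₂n, zpow_one]
      field_simp)
    have h4 := Int.eq_one_of_dvd_one (by positivity) h3
    exact hpp.one_lt.ne' (by exact_mod_cast h4)

end main

end Vale.Agent.P025.R2.H637
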