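import Vale.Agent.P025.R2.H637.Frame

/-! # Creating new cusps: the main step -/

open Polynomial

namespace Vale.Agent.P025.R2.H637

universe u v

section root

variable {p : ℕ} [Fact p.Prime] {M : Type u} [Field M] [Algebra ℚ_[p] M] {v : AbsoluteValue M ℝ}

/-- the polynomial over `M` -/
noncomputable def QM (n : ℕ) (h t : M) : M[X] := num M n h - C t * X ^ (2 * n - 1)

lemma numM_natDegree (n : ℕ) (h : M) (hn : 0 < n) : (∑ j ∈ Finset.range n,
    C (al M n (j + 1) * h ^ (2 * (j + 1))) * X ^ (2 * (n - (j + 1))) : M[X]).degree <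
      ((2 * n - 1 : ℕ) : WithBot ℕ) := Frame.num_natDegree n h hn

omit [Algebra ℚ_[p] M] [Fact p.Prime] in
lemma QM_degree (n : ℕ) (h : M) (hn : 0 < n) (t : M) : ((∑ j ∈ Finset.range n,
    C (al M n (j + 1) * h ^ (2 * (j + 1))) * X ^ (2 * (n - (j + 1))) : M[X]) -
      C t * X ^ (2 * n - 1)).degree < ((2 * n : ℕ) : WithBot ℕ) := by
  refine (degree_sub_le _ _).trans_lt (max_lt ?_ ?_)
  · refine (Frame.num_natDegree n h hn).trans ?_
    rw [Nat.cast_lt]; omega
  · refine (degree_C_mul_X_pow_le _ _).trans_lt ?_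
    rw [Nat.cast_lt]; omega

omit [Algebra ℚ_[p] M] [Fact p.Prime] in
lemma QM_monic (n : ℕ) (h : M) (hn : 0 < n) (t : M) : (QM n h t).Monic := by
  rw [QM, num_eq, add_sub_assoc]
  exact monic_X_pow_add (QM_degree n h hn t)

omit [Algebra ℚ_[p] M] [Fact p.Prime] in
lemma QM_nextCoeff (n : ℕ) (h : M) (hn : 0 < n) (t : M) : (QM n h t).nextCoeff = -t := by
  have h1 : (QM n h t).natDegree = 2 * n := by
    rw [QM, num_eq, add_sub_assoc]
    apply natDegree_eq_of_degree_eq_some
    rw [degree_add_eq_left_of_degree_lt, degree_X_pow]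
    rw [degree_X_pow]
    exact QM_degree n h hn t
  rw [nextCoeff_of_natDegree_pos (by omega), h1, QM, num_eq, add_sub_assoc, coeff_add, coeff_X_pow,
    if_neg (by omega), zero_add, coeff_sub, coeff_C_mul, coeff_X_pow, if_pos rfl, mul_one,
    coeff_eq_zero_of_degree_lt, zero_sub]
  exact Frame.num_natDegree n h hn

/-- existence of a root near `t` -/
lemma exists_root (hv : NA v) (hp : Ext p v) {n : ℕ} (hn : 0 < n) {h t : M} (ht : t ≠ 0)
    (hh : v h ≤ v t / 3) (hs : (QM n h t).Splits) : ∃ y : M, (QM n h t).IsRoot y ∧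
      (num M n h).eval y = t * y ^ (2 * n - 1) ∧ v t ≤ v y ∧ v (y - t) ≤ v h ^ 2 / v t := by
  have ht0 : 0 < v t := v.pos ht
  have hmon := QM_monic n h hn t
  have h1 := hs.nextCoeff_eq_neg_sum_roots_of_monic hmon
  rw [QM_nextCoeff n h hn t] at h1
  have h2 : (QM n h t).roots.sum = t := by linear_combination h1
  have h3 : ∃ y ∈ (QM n h t).roots, v t ≤ v y := by
    by_contra hcon
    push Not at hcon
    have h4 := hv.multiset_sum_lt _ ht0 hcon
    rw [h2] at h4
    exact lt_irrefl _ h4
  obtain ⟨y, hy, hty⟩ := h3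
  have hroot : (QM n h t).IsRoot y := isRoot_of_mem_roots hy
  have h5 : (num M n h).eval y = t * y ^ (2 * n - 1) := by
    have h6 : (QM n h t).eval y = 0 := hroot
    rw [QM, eval_sub, eval_mul, eval_C, eval_pow, eval_X] at h6
    linear_combination h6
  exact ⟨y, hroot, h5, hty, root_near hv hp hn ht0 hh hty h5⟩

/-- the root is fixed by automorphisms -/
lemma root_fixed (hv : NA v) (hp : Ext p v) {n : ℕ} (hn : 0 < n) {h t y : M} (ht : t ≠ 0)
    (hh : v h ≤ v t / 3) (hroot : (num M n h).eval y = t * y ^ (2 * n - 1)) (hty : v t ≤ v y)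
    (g : M ≃+* M) (hgh : g h = h) (hgt : g t = t) (hgv : v (g y) = v y) : g y = y := by
  have ht0 : 0 < v t := v.pos ht
  refine root_unique hv hp hn ht0 hh (by rw [hgv]; exact hty) hty ?_ hroot
  have h1 := congrArg g hroot
  rw [map_mul, map_pow, hgt] at h1
  rw [← h1]
  have h2 := map_num_eval (g : M →+* M) n h y
  have h3 : (g : M →+* M) h = h := hgh
  rw [h3] at h2
  exact h2

end root

section

variable {p : ℕ} [Fact p.Prime] {κ : Type u} {M : Type v} [Field κ] [Field M]
    [Algebra ℚ_[p] M] [Algebra κ M] {G : Set (M ≃+* M)} {R : Subring M}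
    {v : AbsoluteValue M ℝ}

/-- fixed by all elements of `G` -/
def Fixed (G : Set (M ≃+* M)) (x : M) : Prop := ∀ g ∈ G, g x = x

/-- not a constant -/
def NonConst (κ : Type u) {M : Type v} [Field κ] [Field M] [Algebra κ M] (x : M) : Prop :=
  ∀ c : κ, x ≠ algebraMap κ M c

namespace Frame

variable (F : Frame p κ G R v)

lemma Q_map (n : ℕ) (h : κ) (t : R) : (F.Q n h t).map R.subtype =
    QM n (algebraMap κ M h) (t : M) := by
  rw [Q, QM, Polynomial.map_sub, Polynomial.map_map, Polynomial.map_mul, map_C,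
    Polynomial.map_pow, map_X]
  congr 1
  have h2 : R.subtype.comp F.ι = algebraMap κ M := rfl
  rw [h2, map_num]

include F in
/-- one step with given data -/
lemma create_step [CharZero κ] (hsplit : ∀ P : κ[X], (P.map (algebraMap κ M)).Splits)
    {n m : ℕ} (hm : 0 < m) (hn : 2 * n - 1 = p ^ m) {x : M} (hx : x ∈ R) (hxG : Fixed G x)
    (hxc : NonConst κ x) {b₁ b₂ : κ} (hb : b₁ ≠ b₂) (h1 : Cusp R x (algebraMap κ M b₁))
    (h2 : Cusp R x (algebraMap κ M b₂)) {a h : κ} (ha : a = (b₁ + b₂) / 2)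
    (hh : h = (b₂ - b₁) / (2 * be κ n))
    (hxh : v (algebraMap κ M h) ≤ v (x - algebraMap κ M a) / 3) :
    ∃ x' : M, x' ∈ R ∧ Fixed G x' ∧ NonConst κ x' ∧
      v (x' - x) ≤ v (algebraMap κ M h) ^ 2 / v (x - algebraMap κ M a) ∧
      Cusp R x' (algebraMap κ M a) ∧
      ∀ c : κ, Cusp R x (algebraMap κ M c) → c ≠ a →
        v (algebraMap κ M h) ≤ v (algebraMap κ M (c - a)) / 3 →
        ∃ c' : κ, Cusp R x' (algebraMap κ M c') ∧
          v (algebraMap κ M (c' - c)) ≤ v (algebraMap κ M h) ^ 2 / v (algebraMap κ M (c - a)) := by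
  have hp : p.Prime := Fact.out
  have hv := F.na
  have hpm : 1 < p ^ m := Nat.one_lt_pow hm.ne' hp.one_lt
  have hn0 : 0 < n := by omega
  have hinj := (algebraMap κ M).injective
  have hbeM : be M n ≠ 0 := by
    intro h0
    have h3 := v_be F.ext hm hn
    rw [h0, v.map_zero] at h3
    have h4 : (0 : ℝ) < (p : ℝ) ^ m := pow_pos (by exact_mod_cast hp.pos) m
    exact h4.ne h3
  have hbe : be κ n ≠ 0 := by
    intro h0
    apply hbeM
    rw [← map_be (algebraMap κ M), h0, map_zero]
  have hba : b₂ - b₁ ≠ 0 := sub_ne_zero.2 hb.symm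
  have hh0 : h ≠ 0 := by
    rw [hh]
    exact div_ne_zero hba (mul_ne_zero two_ne_zero hbe)
  have hhbe : h * be κ n = b₂ - a := by
    rw [hh, ha]
    field_simp
    ring
  have hhbe' : -(h * be κ n) = b₁ - a := by
    rw [hhbe, ha]
    ring
  set t : R := ⟨x, hx⟩ - F.ι a with ht
  have htM : (t : M) = x - algebraMap κ M a := rfl
  have ht0 : (t : M) ≠ 0 := by
    rw [htM]
    exact sub_ne_zero.2 (hxc a)
  -- units
  have hcusp : ∀ c : κ, Cusp R x (algebraMap κ M c) → IsUnit (F.ι (c - a) - t) := by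
    intro c hc
    have h3 : F.ι (c - a) - t = -⟨x - algebraMap κ M c, hc.1⟩ := by
      apply Subtype.ext
      show algebraMap κ M (c - a) - (x - algebraMap κ M a) = -(x - algebraMap κ M c)
      rw [map_sub]
      ring
    rw [h3]
    exact hc.isUnit.neg
  have hu1 : IsUnit ((F.Q n h t).eval (F.ι h)) := by
    rw [F.Q_eval_const n h t h (b₂ - a) (by
      rw [num_eval_self, ← hhbe]
      have : h ^ (2 * n) = h * h ^ (2 * n - 1) := by
        rw [← pow_succ']; congr 1; omega
      rw [this]
      ring)]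
    exact (F.isUnit_ι (pow_ne_zero _ hh0)).mul (hcusp b₂ h2)
  have hu2 : IsUnit ((F.Q n h t).eval (F.ι (-h))) := by
    rw [F.Q_eval_const n h t (-h) (b₁ - a) (by
      rw [num_eval_neg_self, ← hhbe', Odd.neg_pow ⟨n - 1, by omega⟩]
      have : h ^ (2 * n) = h * h ^ (2 * n - 1) := by
        rw [← pow_succ']; congr 1; omega
      rw [this]
      ring)]
    exact (F.isUnit_ι (pow_ne_zero _ (neg_ne_zero.2 hh0))).mul (hcusp b₁ h1)
  have hsep := F.Q_separable n h hn0 t hu1 hu2
  have hmon := F.Q_monic n h hn0 t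
  have hspl : (QM n (algebraMap κ M h) (t : M)).Splits := by
    rw [← F.Q_map]
    exact F.splits _ hmon hsep
  obtain ⟨y, hyroot, hyeq, hty, hynear⟩ := exists_root hv F.ext hn0 ht0 hxh hspl
  have hyfix : Fixed G y := by
    intro g hg
    refine root_fixed hv F.ext hn0 ht0 hxh hyeq hty g (F.fix_const g hg h) ?_ (F.inv g hg y)
    rw [htM, map_sub, hxG g hg, F.fix_const g hg]
  have hyR : y ∈ R := F.int_closed (F.Q n h t) y hmon (by rw [F.Q_map]; exact hyroot)
  have hQy : (F.Q n h t).eval (⟨y, hyR⟩ : R) = 0 := by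
    apply Subtype.ext
    rw [F.Q_eval]
    show (num M n (algebraMap κ M h)).eval y - t * y ^ (2 * n - 1) = 0
    rw [hyeq, sub_self]
  have hunit : ∀ z : κ, IsUnit ((F.Q n h t).eval (F.ι z)) →
      Cusp R (y + algebraMap κ M a) (algebraMap κ M (z + a)) := by
    intro z hz
    refine cusp_of_isUnit _ (isUnit_sub_of_root _ _ _ hz hQy) ?_
    show y - algebraMap κ M z = _
    rw [map_add]
    ring
  have hy0 : y ≠ 0 := by
    rintro rfl
    rw [v.map_zero] at hty
    exact absurd (v.pos ht0) (not_lt.2 hty)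
  refine ⟨y + algebraMap κ M a, R.add_mem hyR (F.const_mem a), ?_, ?_, ?_, ?_, ?_⟩
  · intro g hg
    rw [map_add, hyfix g hg, F.fix_const g hg]
  · intro c hc
    have h3 : y = algebraMap κ M (c - a) := by
      rw [map_sub, ← hc]
      ring
    apply hxc ((num κ n h).eval (c - a) / (c - a) ^ (2 * n - 1) + a)
    have hca : (c - a) ≠ 0 := by
      intro h0
      apply hy0
      rw [h3, h0, map_zero]
    have h4 : x = (num M n (algebraMap κ M h)).eval y / y ^ (2 * n - 1) + algebraMap κ M a := by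
      rw [hyeq, mul_div_cancel_right₀ _ (pow_ne_zero _ hy0), htM]
      ring
    rw [h4, h3, map_num_eval, map_add, map_div₀, map_pow]
  · have h3 : y + algebraMap κ M a - x = y - t := by
      rw [htM]
      ring
    rw [h3]
    exact hynear
  · have h3 := hunit 0 (by
      have h4 : (F.Q n h t).eval (F.ι 0) = F.ι (al κ n n * h ^ (2 * n)) := by
        rw [Q, eval_sub, eval_mul, eval_C, eval_pow, eval_X, map_zero, zero_pow (by omega),
          mul_zero, sub_zero, eval_map]
        have h5 : (num κ n h).eval₂ F.ι 0 = F.ι ((num κ n h).eval 0) := by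
          rw [← eval₂_hom, map_zero]
        rw [h5, num_eval_zero]
      rw [h4]
      exact F.isUnit_ι (mul_ne_zero (al_ne_zero n n le_rfl) (pow_ne_zero _ hh0)))
    rwa [zero_add] at h3
  · intro c hc hca hch
    set tc : M := algebraMap κ M (c - a) with htc
    have htc0 : tc ≠ 0 := by
      rw [htc]
      exact (_root_.map_ne_zero _).2 (sub_ne_zero.2 hca)
    have hspc : (QM n (algebraMap κ M h) tc).Splits := by
      have h3 : QM n (algebraMap κ M h) tc =
          (num κ n h - C (c - a) * X ^ (2 * n - 1)).map (algebraMap κ M) := by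
        rw [QM, Polynomial.map_sub, Polynomial.map_mul, map_C, Polynomial.map_pow, map_X, map_num]
      rw [h3]
      exact hsplit _
    obtain ⟨z, hzroot, hzeq, htz, hznear⟩ := exists_root hv F.ext hn0 htc0 hch hspc
    have hzfix : Fixed G z := by
      intro g hg
      exact root_fixed hv F.ext hn0 htc0 hch hzeq htz g (F.fix_const g hg h)
        (F.fix_const g hg _) (F.inv g hg z)
    have hzint : IsIntegral κ z := by
      refine ⟨num κ n h - C (c - a) * X ^ (2 * n - 1), ?_, ?_⟩
      · exact QM_monic n h hn0 (c - a)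
      · rw [eval₂_eq_eval_map]
        have h3 : QM n (algebraMap κ M h) tc =
            (num κ n h - C (c - a) * X ^ (2 * n - 1)).map (algebraMap κ M) := by
          rw [QM, Polynomial.map_sub, Polynomial.map_mul, map_C, Polynomial.map_pow, map_X, map_num]
        rw [← h3]
        exact hzroot
    obtain ⟨z', hz'⟩ := F.const_of_fix z hzint hzfix
    have hz0 : z ≠ 0 := by
      rintro rfl
      rw [v.map_zero] at htz
      exact absurd (v.pos htc0) (not_lt.2 htz)
    have hz'0 : z' ≠ 0 := by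
      rintro rfl
      apply hz0
      rw [← hz', map_zero]
    have hz'eq : (num κ n h).eval z' = (c - a) * z' ^ (2 * n - 1) := by
      apply hinj
      rw [← map_num_eval, hz', hzeq, map_mul, map_pow, hz']
    refine ⟨z' + a, hunit z' ?_, ?_⟩
    · rw [F.Q_eval_const n h t z' (c - a) hz'eq]
      exact (F.isUnit_ι (pow_ne_zero _ hz'0)).mul (hcusp c hc)
    · have h3 : algebraMap κ M (z' + a - c) = z - tc := by
        rw [map_sub, map_add, hz', htc, map_sub]
        ring
      rw [h3]
      exact hznear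

end Frame

end

end Vale.Agent.P025.R2.H637
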