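import Vale.Agent.P025.R2.H637.Create

/-! # Creating new cusps: midpoints -/

open Polynomial

namespace Vale.Agent.P025.R2.H637

universe u v

variable {p : ℕ} [Fact p.Prime] {κ : Type u} {M : Type v} [Field κ] [Field M]
    [Algebra ℚ_[p] M] [Algebra κ M] {G : Set (M ≃+* M)} {R : Subring M}
    {v : AbsoluteValue M ℝ}

namespace Frame

variable (F : Frame p κ G R v)

/-- a finite set of positive numbers has a positive lower bound -/
lemma exists_pos_lower {α : Type*} (C : Finset α) (f : α → ℝ) (hf : ∀ c ∈ C, 0 < f c) :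
    ∃ δ : ℝ, 0 < δ ∧ ∀ c ∈ C, δ ≤ f c := by
  classical
  induction C using Finset.induction_on with
  | empty => exact ⟨1, one_pos, by simp⟩
  | insert a C _ ih =>
    obtain ⟨δ, h1, h2⟩ := ih (fun c hc => hf c (Finset.mem_insert_of_mem hc))
    refine ⟨min δ (f a), lt_min h1 (hf a (Finset.mem_insert_self _ _)), fun c hc => ?_⟩
    rcases Finset.mem_insert.1 hc with rfl | hc
    · exact min_le_right _ _
    · exact (min_le_left _ _).trans (h2 c hc)

include F in
/-- creation of the midpoint of two cusps -/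
lemma create [CharZero κ] (hp2 : p ≠ 2) (hsplit : ∀ P : κ[X], (P.map (algebraMap κ M)).Splits)
    {x : M} (hx : x ∈ R) (hxG : Fixed G x) (hxc : NonConst κ x) {b₁ b₂ : κ} (hb : b₁ ≠ b₂)
    (h1 : Cusp R x (algebraMap κ M b₁)) (h2 : Cusp R x (algebraMap κ M b₂)) (C : Finset κ)
    (hC : ∀ c ∈ C, Cusp R x (algebraMap κ M c)) {ε : ℝ} (hε : 0 < ε) :
    ∃ x' : M, x' ∈ R ∧ Fixed G x' ∧ NonConst κ x' ∧ v (x' - x) < ε ∧
      Cusp R x' (algebraMap κ M ((b₁ + b₂) / 2)) ∧
      ∀ c ∈ C, ∃ c' : κ, Cusp R x' (algebraMap κ M c') ∧ v (algebraMap κ M (c' - c)) < ε := by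
  classical
  have hp : p.Prime := Fact.out
  have hodd : Odd p := hp.odd_of_ne_two hp2
  set a := (b₁ + b₂) / 2 with ha
  have hx0 : 0 < v (x - algebraMap κ M a) := v.pos (sub_ne_zero.2 (hxc a))
  obtain ⟨δ, hδ0, hδ⟩ := exists_pos_lower (insert (x - algebraMap κ M a)
    ((C.filter (fun c => c ≠ a)).image (fun c => algebraMap κ M (c - a)))) (fun c => v c) (by
      intro c hc
      rcases Finset.mem_insert.1 hc with rfl | hc
      · exact hx0
      · obtain ⟨d, hd, rfl⟩ := Finset.mem_image.1 hc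
        exact v.pos ((_root_.map_ne_zero _).2 (sub_ne_zero.2 (Finset.mem_filter.1 hd).2)))
  -- the choice of `m`
  have hpR : (1 : ℝ) < p := by exact_mod_cast hp.one_lt
  have h2M : (2 : M) ≠ 0 := by
    have h3 := charZero_of_injective_algebraMap (algebraMap κ M).injective
    exact two_ne_zero
  have hv2 : 0 < v (2 : M) := v.pos h2M
  set K := v (algebraMap κ M (b₂ - b₁)) / v (2 : M) with hK
  set η := min (δ / 3) (min 1 (ε * δ / 2)) with hη
  have hη0 : 0 < η := by positivity
  obtain ⟨m, hm⟩ := pow_unbounded_of_one_lt (K / η) hpR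
  set m' := m + 1 with hm'
  have hmm : K / η < (p : ℝ) ^ m' := hm.trans_le (pow_le_pow_right₀ hpR.le (by omega))
  obtain ⟨q, hq⟩ := hodd.pow (n := m')
  set n := q + 1 with hn
  have hn2 : 2 * n - 1 = p ^ m' := by omega
  set h := (b₂ - b₁) / (2 * be κ n) with hh
  have hpm0 : (0 : ℝ) < (p : ℝ) ^ m' := pow_pos (by linarith) _
  have hvh : v (algebraMap κ M h) = K / (p : ℝ) ^ m' := by
    rw [hh, map_div₀, map_mul, map_div₀, map_mul, map_ofNat, map_be,
      v_be F.ext (by omega) hn2, hK, div_div]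
  have hvh1 : v (algebraMap κ M h) ≤ η := by
    rw [hvh, div_le_iff₀ hpm0]
    rw [div_lt_iff₀ hη0] at hmm
    linarith
  have hvhδ : v (algebraMap κ M h) ≤ δ / 3 := hvh1.trans (min_le_left _ _)
  have hvh2 : v (algebraMap κ M h) ^ 2 / δ < ε := by
    rw [div_lt_iff₀ hδ0]
    have h3 : v (algebraMap κ M h) ≤ 1 := hvh1.trans ((min_le_right _ _).trans (min_le_left _ _))
    have h4 : v (algebraMap κ M h) ≤ ε * δ / 2 :=
      hvh1.trans ((min_le_right _ _).trans (min_le_right _ _))
    have h5 : 0 < ε * δ := mul_pos hε hδ0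
    nlinarith [v.nonneg (algebraMap κ M h)]
  have hsmall : ∀ w, δ ≤ w → v (algebraMap κ M h) ^ 2 / w < ε := by
    intro w hw
    refine lt_of_le_of_lt ?_ hvh2
    exact div_le_div_of_nonneg_left (by positivity) hδ0 hw
  obtain ⟨x', hx'R, hx'G, hx'c, hnear, hcusp, hrest⟩ := F.create_step hsplit (m := m') (n := n)
    (by omega) hn2 hx hxG hxc hb h1 h2 ha hh
    (hvhδ.trans (by
      have := hδ _ (Finset.mem_insert_self _ _)
      linarith))
  refine ⟨x', hx'R, hx'G, hx'c, ?_, hcusp, ?_⟩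
  · exact hnear.trans_lt (hsmall _ (hδ _ (Finset.mem_insert_self _ _)))
  · intro c hc
    by_cases hca : c = a
    · refine ⟨a, hcusp, ?_⟩
      rw [hca, sub_self, map_zero, v.map_zero]
      exact hε
    · have hmem : algebraMap κ M (c - a) ∈ insert (x - algebraMap κ M a)
          ((C.filter (fun c => c ≠ a)).image (fun c => algebraMap κ M (c - a))) :=
        Finset.mem_insert_of_mem (Finset.mem_image.2 ⟨c, Finset.mem_filter.2 ⟨hc, hca⟩, rfl⟩)
      have h3 := hδ _ hmem
      obtain ⟨c', hc', hcc'⟩ := hrest c (hC c hc) hca (hvhδ.trans (by linarith))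
      exact ⟨c', hc', hcc'.trans_lt (hsmall _ h3)⟩

end Frame

end Vale.Agent.P025.R2.H637
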