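import Vale.Agent.P025.R2.H637.OutDef
import Vale.Agent.P025.H641.OStmt

/-! # Sections of the fundamental group of an open curve: notions used in the statement -/

open IntermediateField P025H641

namespace Vale.Agent.P025.R2.H637

universe u v w

/-- The homomorphism `φ` to `Gal(M / E)` is valuative: its image stabilizes a valuation ring of `M`
which lies over the ring of integers of `k`, i.e. a valuation of `M` extending the `p`-adic
valuation of `k`. -/
def ValuativeHom (p : ℕ) [Fact p.Prime] {k : Type u} {E : Type v} [Field k] [Algebra ℚ_[p] k]
    [Field E] [Algebra k E] {M : IntermediateField E (AlgebraicClosure E)}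
    (φ : GalOf (constClosure k E) →* GalOf M) : Prop :=
  ∃ W : ValuationSubring M, (∀ c : k, algebraMap k M c ∈ W ↔ spectralNorm ℚ_[p] k c ≤ 1) ∧
    ∀ (σ : GalOf (constClosure k E)) (x y : M), (φ σ).Maps x y → x ∈ W → y ∈ W

/-- The universal cover of the curve with the places in `T` has a nonconstant map to the
projective line without `0`, `1` and `∞`: for some `t` in the maximal extension of `E` unramified
over `T`, not algebraic over `k`, the functions `t` and `t - 1` are units at all places over `T`. -/
def HasTripodMap (k : Type u) {E : Type v} [Field k] [Field E] [Algebra k E]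
    (T : Set (ValuationSubring E)) : Prop :=
  ∃ t : (maxOut k T : IntermediateField E (AlgebraicClosure E)), Transcendental k t ∧
    ∀ W : ValuationSubring (maxOut k T : IntermediateField E (AlgebraicClosure E)),
      IsPlace k E (W.comap (algebraMap E _)) → W.comap (algebraMap E _) ∈ T →
        t ∈ W ∧ t⁻¹ ∈ W ∧ (t - 1)⁻¹ ∈ W

/-- The function `x`, not algebraic over `k`, is regular at the places in `T`, and `f (x)` has
value divisible by `m` there, where the polynomial `f` over `k` is separable, `m` and the degree
of `f` are at least `2`, and not both are `2`. -/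
def IsOrbifoldMap (k : Type u) {E : Type v} [Field k] [Field E] [Algebra k E]
    (T : Set (ValuationSubring E)) (x : E) (f : Polynomial k) (m : ℕ) : Prop :=
  Transcendental k x ∧ f.Separable ∧ 2 ≤ m ∧ 2 ≤ f.natDegree ∧ 5 ≤ m + f.natDegree ∧
    ∀ V ∈ T, IsPlace k E V →
      x ∈ V ∧ ∃ y : E, V.valuation (Polynomial.aeval x f) = V.valuation y ^ m

/-- The elements of the finite extension `K` of `E` are fixed by the section `s₁`, and `s'` is the
induced section of the maximal unramified extension of `K`: for some embedding `j` of the
algebraic closures over `K`, whenever `σ'` acts on constants as `σ`, `s' σ'` acts on the maximal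
unramified extension of `K` as `s₁ σ`. -/
def InducesOn {k : Type u} {E : Type v} [Field k] [Field E] [Algebra k E]
    {M : IntermediateField E (AlgebraicClosure E)} (s₁ : SecOf k M)
    (K : IntermediateField E (AlgebraicClosure E)) (s' : Section k K) : Prop :=
  (∀ x ∈ K, ∀ σ, (s₁.hom σ).Maps x x) ∧
    ∃ j : AlgebraicClosure K →ₐ[K] AlgebraicClosure E,
      ∀ (σ : GalOf (constClosure k E)) (σ' : GalOf (constClosure k K)),
        (∀ x y, σ'.Maps x y → σ.Maps (j x) (j y)) →
          ∀ x y, (s'.hom σ').Maps x y → (s₁.hom σ).Maps (j x) (j y)

end Vale.Agent.P025.R2.H637
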