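import Vale.Agent.P025.R2.H637.MaxOut
import Vale.Agent.P025.R2.H637.Stmt
import Vale.Agent.P025.H641.OKum

/-! # Solutions of the unit equation on the universal covers of superelliptic curves -/

open IntermediateField Polynomial P025H641

namespace Vale.Agent.P025.R2.H637

universe u v w

section root

variable {k : Type u} {E : Type v} [Field k] [CharZero k] [Field E] [Algebra k E]
  {T : Set (ValuationSubring E)}

omit [CharZero k] in
/-- constants in valuation rings of the closure -/
lemma const_mem_place {W : ValuationSubring (AlgebraicClosure E)}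
    (hW : ∀ c : k, algebraMap k (AlgebraicClosure E) c ∈ W) (x : AlgebraicClosure E)
    (hx : IsIntegral k x) : x ∈ W := by
  obtain ⟨P, hP, hPx⟩ := hx
  let ι : k →+* W := (algebraMap k (AlgebraicClosure E)).codRestrict W.toSubring hW
  have hint : IsIntegral W x := by
    refine ⟨P.map ι, hP.map _, ?_⟩
    rw [eval₂_map]
    exact hPx
  obtain ⟨y, hy⟩ := IsIntegrallyClosed.isIntegral_iff.mp hint
  rw [← hy]
  exact y.2

/-- `m`-th roots of `x - e` lie in `maxOut` -/
theorem root_mem_maxOut {x : E} {f : k[X]} {m : ℕ} (hf : f.Separable) (hm : 0 < m)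
    (hfx : aeval x f ≠ 0)
    (hT : ∀ V ∈ T, IsPlace k E V → x ∈ V ∧ ∃ y : E, V.valuation (aeval x f) = V.valuation y ^ m)
    {e a : AlgebraicClosure E} (he : aeval e f = 0)
    (ha : a ^ m = algebraMap E (AlgebraicClosure E) x - e) : a ∈ maxOut k T := by
  classical
  have hcharE : CharZero E := charZero_of_injective_algebraMap (algebraMap k E).injective
  have hf0 : f ≠ 0 := hf.ne_zero
  have heint : IsIntegral k e := IsAlgebraic.isIntegral ⟨f, hf0, he⟩
  have heM : e ∈ maxOut k T := maxUnr_le_maxOut (mem_maxUnr_of_const _ heint)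
  have heE : IsIntegral E e := heint.tower_top
  have hfin : FiniteDimensional E E⟮e⟯ := IntermediateField.adjoin.finiteDimensional heE
  have hAM : E⟮e⟯ ≤ maxOut k T := by
    rw [IntermediateField.adjoin_simple_le_iff]
    exact heM
  refine mem_maxOut_of_sameVal hAM a ?_
  intro W hW hWT
  set A : IntermediateField E (AlgebraicClosure E) := E⟮e⟯ with hA
  have heA : e ∈ A := IntermediateField.mem_adjoin_simple_self E e
  set X' : AlgebraicClosure E := algebraMap E (AlgebraicClosure E) x with hX'
  have hX'A : X' ∈ A := IntermediateField.algebraMap_mem A x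
  have hWk : ∀ c : k, algebraMap k (AlgebraicClosure E) c ∈ W := by
    intro c
    have h1 := hW.const_mem c
    rw [ValuationSubring.mem_comap, ← IsScalarTower.algebraMap_apply] at h1
    exact h1
  have hconst : ∀ c : AlgebraicClosure E, IsIntegral k c → c ∈ W := const_mem_place hWk
  obtain ⟨hxV, y, hy⟩ := hT _ hWT hW
  have hxW : X' ∈ W := hxV
  have hmu : ∀ W' : ValuationSubring A, (∀ c : k, algebraMap k A c ∈ W') →
      IsUnit ((m : ℕ) : W') := by
    intro W' hW'
    have hm0 : (m : A) ≠ 0 := by
      have : CharZero A := charZero_of_injective_algebraMap (algebraMap E A).injective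
      exact Nat.cast_ne_zero.2 hm.ne'
    have h1 : ((m : k)⁻¹ : k) = (m : k)⁻¹ := rfl
    refine isUnit_iff_exists_inv.2 ⟨⟨algebraMap k A (m : k)⁻¹, hW' _⟩, ?_⟩
    apply Subtype.ext
    show ((m : W') : A) * algebraMap k A (m : k)⁻¹ = 1
    rw [map_inv₀, map_natCast]
    have h2 : ((m : W') : A) = (m : A) := map_natCast W'.subtype m
    rw [h2, mul_inv_cancel₀ hm0]
  have hWAk : ∀ c : k, algebraMap k A c ∈ W.comap (algebraMap A (AlgebraicClosure E)) := by
    intro c
    rw [ValuationSubring.mem_comap]
    exact hWk c
  -- the general step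
  have key : ∀ (b : AlgebraicClosure E) (c : A), b ^ m = c → W.valuation (c : AlgebraicClosure E) = 1 →
      SameVal W (A ⊔ E⟮b⟯) A := by
    intro b c hb hc
    have hcW : c ∈ W.comap (algebraMap A (AlgebraicClosure E)) := by
      rw [ValuationSubring.mem_comap, ← W.valuation_le_one_iff]
      exact hc.le
    have hciW : c⁻¹ ∈ W.comap (algebraMap A (AlgebraicClosure E)) := by
      rw [ValuationSubring.mem_comap, ← W.valuation_le_one_iff, map_inv₀, map_inv₀]
      exact (inv_eq_one.2 hc).le
    have hc0 : c ≠ 0 := by
      rintro rfl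
      have h1 : W.valuation (((0 : A) : AlgebraicClosure E)) = 0 := map_zero W.valuation
      rw [h1] at hc
      exact zero_ne_one hc
    let U : (W.comap (algebraMap A (AlgebraicClosure E)))ˣ := ⟨⟨c, hcW⟩, ⟨c⁻¹, hciW⟩,
      Subtype.ext (mul_inv_cancel₀ hc0), Subtype.ext (inv_mul_cancel₀ hc0)⟩
    refine sameVal_etale hW A b (X ^ m - C (U : W.comap (algebraMap A (AlgebraicClosure E))))
      (monic_X_pow_sub_C _ hm.ne') ?_ (separable_X_pow_sub_C_unit U (hmu _ hWAk))
    rw [Polynomial.map_sub, Polynomial.map_pow, map_X, map_C, map_sub, map_pow, aeval_X, aeval_C, hb]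
    exact sub_self _
  by_cases h1 : W.valuation (X' - e) = 1
  · exact key a ⟨X' - e, sub_mem hX'A heA⟩ ha h1
  · have heW : e ∈ W := hconst e heint
    have hlt : W.valuation (X' - e) < 1 :=
      lt_of_le_of_ne ((W.valuation_le_one_iff _).2 (W.sub_mem hxW heW)) h1
    -- the factorization
    let C₀ := integralClosure k (AlgebraicClosure E)
    let e₀ : C₀ := ⟨e, heint⟩
    let ι : C₀ →+* W := (algebraMap C₀ (AlgebraicClosure E)).codRestrict W.toSubring
      (fun c => hconst c c.2)
    set F : C₀[X] := f.map (algebraMap k C₀) with hF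
    have hroot : F.IsRoot e₀ := by
      rw [hF, IsRoot, eval_map, ← aeval_def]
      apply Subtype.ext
      have h2 := aeval_algebraMap_apply (AlgebraicClosure E) e₀ f
      exact h2.symm.trans he
    have hfac : (X - C e₀) * (F /ₘ (X - C e₀)) = F := mul_divByMonic_eq_iff_isRoot.2 hroot
    set g := F /ₘ (X - C e₀) with hg
    -- `g (e)` is not zero
    have hge : g.eval e₀ ≠ 0 := by
      have h2 : (derivative F).eval e₀ = g.eval e₀ := by
        rw [← hfac, derivative_mul, eval_add, eval_mul, eval_mul, eval_sub, eval_X, eval_C, sub_self,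
          zero_mul, add_zero, derivative_sub, derivative_X, derivative_C, sub_zero, eval_one, one_mul]
      rw [← h2]
      intro h3
      have h4 := hf.map (f := algebraMap k C₀)
      obtain ⟨u, w, huw⟩ := h4
      have h5 := congrArg (eval e₀) huw
      rw [eval_add, eval_mul, eval_mul, eval_one] at h5
      have h6 : eval e₀ (Polynomial.map (algebraMap k C₀) f) = 0 := hroot
      have h7 : eval e₀ (derivative (Polynomial.map (algebraMap k C₀) f)) = 0 := h3
      rw [h6, h7, mul_zero, mul_zero, add_zero] at h5
      exact zero_ne_one h5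
    -- values
    let xW : W := ⟨X', hxW⟩
    have hFx : (((F.map ι).eval xW : W) : AlgebraicClosure E) = algebraMap E _ (aeval x f) := by
      have h2 : W.subtype.comp (ι.comp (algebraMap k C₀)) =
        (algebraMap E (AlgebraicClosure E)).comp (algebraMap k E) := by
        ext c
        exact IsScalarTower.algebraMap_apply k E (AlgebraicClosure E) c
      have h3 : (((F.map ι).eval xW : W) : AlgebraicClosure E) =
          eval₂ (W.subtype.comp (ι.comp (algebraMap k C₀))) X' f := by
        rw [hF, Polynomial.map_map, eval_map]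
        exact hom_eval₂ f (ι.comp (algebraMap k C₀)) W.subtype xW
      rw [h3, h2, ← hom_eval₂]
      rfl
    have hprod : (F.map ι).eval xW = (xW - ι e₀) * (g.map ι).eval xW := by
      rw [← hfac, Polynomial.map_mul, eval_mul, Polynomial.map_sub, map_X, map_C, eval_sub, eval_X,
        eval_C]
    have hgx : W.valuation (((g.map ι).eval xW : W) : AlgebraicClosure E) = 1 := by
      have h2 : W.valuation ((ι (g.eval e₀) : W) : AlgebraicClosure E) = 1 := by
        have hne : ((g.eval e₀ : C₀) : AlgebraicClosure E) ≠ 0 := fun h => hge (Subtype.ext h)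
        have hint := (g.eval e₀).2
        have h3 : W.valuation ((g.eval e₀ : C₀) : AlgebraicClosure E) ≤ 1 :=
          (W.valuation_le_one_iff _).2 (hconst _ hint)
        have h4 : W.valuation ((g.eval e₀ : C₀) : AlgebraicClosure E)⁻¹ ≤ 1 :=
          (W.valuation_le_one_iff _).2 (hconst _ (IsIntegral.isAlgebraic hint).inv.isIntegral)
        rw [map_inv₀] at h4
        have h5 := (inv_le_one₀ (zero_lt_iff.2 ((_root_.map_ne_zero W.valuation).2 hne))).1 h4
        exact le_antisymm h3 h5
      have h3 : W.valuation (((g.map ι).eval xW - ι (g.eval e₀) : W) : AlgebraicClosure E) < 1 := by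
        have h4 : ι (g.eval e₀) = (g.map ι).eval (ι e₀) := by
          rw [eval_map, eval₂_hom]
        rw [h4]
        obtain ⟨q, hq⟩ := sub_dvd_eval_sub xW (ι e₀) (g.map ι)
        rw [hq]
        have h5 : (((xW - ι e₀) * q : W) : AlgebraicClosure E) = (X' - e) * (q : AlgebraicClosure E) := rfl
        rw [h5, map_mul]
        exact mul_lt_one_of_lt_of_le hlt (W.valuation_le_one q)
      have h4 : (((g.map ι).eval xW : W) : AlgebraicClosure E) =
          ((ι (g.eval e₀) : W) : AlgebraicClosure E) +
            (((g.map ι).eval xW - ι (g.eval e₀) : W) : AlgebraicClosure E) := by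
        have h5 : (((g.map ι).eval xW - ι (g.eval e₀) : W) : AlgebraicClosure E) =
          (((g.map ι).eval xW : W) : AlgebraicClosure E) - ((ι (g.eval e₀) : W) : AlgebraicClosure E) := rfl
        rw [h5]; ring
      rw [h4, Valuation.map_add_eq_of_lt_left]
      · exact h2
      · rw [h2]; exact h3
    have hval : W.valuation (algebraMap E (AlgebraicClosure E) (aeval x f)) =
        W.valuation (X' - e) := by
      rw [← hFx, hprod]
      have h5 : (((xW - ι e₀) * (g.map ι).eval xW : W) : AlgebraicClosure E) =
        (X' - e) * (((g.map ι).eval xW : W) : AlgebraicClosure E) := rfl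
      rw [h5, map_mul, hgx, mul_one]
    -- the comparison with `y`
    have hyW : W.valuation (X' - e) = W.valuation (algebraMap E (AlgebraicClosure E) y) ^ m := by
      rw [← hval, ← map_pow, ← map_pow]
      rw [← map_pow] at hy
      exact (comap_val_eq_iff (F := E) W _ _).1 hy
    have hy0 : y ≠ 0 := by
      rintro rfl
      rw [map_zero, zero_pow hm.ne'] at hy
      exact hfx ((_root_.map_eq_zero _).1 hy)
    have hY0 : algebraMap E (AlgebraicClosure E) y ≠ 0 := (_root_.map_ne_zero _).2 hy0
    have hYA : algebraMap E (AlgebraicClosure E) y ∈ A := IntermediateField.algebraMap_mem A y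
    set b := a / algebraMap E (AlgebraicClosure E) y with hb
    have hbm : b ^ m = (X' - e) / algebraMap E (AlgebraicClosure E) y ^ m := by
      rw [hb, div_pow, ha]
    have h2 := key b ⟨(X' - e) / algebraMap E (AlgebraicClosure E) y ^ m,
      div_mem (sub_mem hX'A heA) (pow_mem hYA m)⟩ hbm (by
        show W.valuation ((X' - e) / algebraMap E (AlgebraicClosure E) y ^ m) = 1
        rw [map_div₀, map_pow, ← hyW]
        exact div_self ((_root_.map_ne_zero _).2 (by
          intro h5
          rw [h5, map_zero] at hyW
          exact pow_ne_zero m ((_root_.map_ne_zero W.valuation).2 hY0) hyW.symm)))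
    have h3 : A ⊔ E⟮a⟯ ≤ A ⊔ E⟮b⟯ := by
      refine sup_le le_sup_left ?_
      rw [IntermediateField.adjoin_simple_le_iff]
      have h4 : a = b * algebraMap E (AlgebraicClosure E) y := by
        rw [hb, div_mul_cancel₀ _ hY0]
      rw [h4]
      exact mul_mem ((le_sup_right : E⟮b⟯ ≤ A ⊔ E⟮b⟯) (IntermediateField.mem_adjoin_simple_self E b))
        ((le_sup_left : A ≤ A ⊔ E⟮b⟯) hYA)
    intro z hz
    exact h2 z (h3 hz)

end root

end Vale.Agent.P025.R2.H637
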