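import Vale.Agent.P025.R2.H637.Crit

/-! # Solutions of the unit equation on the universal covers of superelliptic curves, continued -/

open IntermediateField Polynomial P025H641

namespace Vale.Agent.P025.R2.H637

universe u v w

section units

variable {M : Type v} [Field M] {W : ValuationSubring M}

/-- units of a valuation ring -/
def UnitIn (W : ValuationSubring M) (x : M) : Prop := x ∈ W ∧ x⁻¹ ∈ W ∧ x ≠ 0

lemma UnitIn.mul {x y : M} (hx : UnitIn W x) (hy : UnitIn W y) : UnitIn W (x * y) :=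
  ⟨W.mul_mem _ _ hx.1 hy.1, by rw [mul_inv]; exact W.mul_mem _ _ hx.2.1 hy.2.1,
    mul_ne_zero hx.2.2 hy.2.2⟩

lemma UnitIn.inv {x : M} (hx : UnitIn W x) : UnitIn W x⁻¹ :=
  ⟨hx.2.1, by rw [inv_inv]; exact hx.1, inv_ne_zero hx.2.2⟩

lemma UnitIn.div {x y : M} (hx : UnitIn W x) (hy : UnitIn W y) : UnitIn W (x / y) := by
  rw [div_eq_mul_inv]
  exact hx.mul hy.inv

lemma UnitIn.neg {x : M} (hx : UnitIn W x) : UnitIn W (-x) :=
  ⟨W.neg_mem _ hx.1, by rw [inv_neg]; exact W.neg_mem _ hx.2.1, neg_ne_zero.2 hx.2.2⟩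

lemma UnitIn.of_dvd {x y : M} (hx : x ∈ W) (hy : y ∈ W) (h : UnitIn W (x * y)) : UnitIn W x := by
  refine ⟨hx, ?_, left_ne_zero_of_mul h.2.2⟩
  have h1 : x⁻¹ = y * (x * y)⁻¹ := by
    have hx0 := left_ne_zero_of_mul h.2.2
    have hy0 := right_ne_zero_of_mul h.2.2
    field_simp
  rw [h1]
  exact W.mul_mem _ _ hy h.2.1

/-- differences of roots are units -/
lemma unitIn_sub {a c : M} {m : ℕ} (ha : a ∈ W) (hc : c ∈ W) (h : UnitIn W (a ^ m - c ^ m)) :
    UnitIn W (a - c) := by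
  obtain ⟨q, hq⟩ := sub_dvd_pow_sub_pow (⟨a, ha⟩ : W) ⟨c, hc⟩ m
  have h1 : a ^ m - c ^ m = (a - c) * (q : M) := congrArg Subtype.val hq
  rw [h1] at h
  exact UnitIn.of_dvd (W.sub_mem ha hc) q.2 h

end units

section alg

variable {k : Type u} {M : Type v} [Field k] [Field M] [Algebra k M]

/-- first unit equation -/
lemma transcendental_of_three {a b c : M} {e₁ e₂ e₃ x : M} (hx : Transcendental k x)
    (h₁ : IsAlgebraic k e₁) (h₂ : IsAlgebraic k e₂) (h₃ : IsAlgebraic k e₃)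
    (ha : a ^ 2 = x - e₁) (hb : b ^ 2 = x - e₂) (hc : c ^ 2 = x - e₃)
    (h2 : (2 : M) ≠ 0) (hab : a + b ≠ 0) (hac : a + c ≠ 0) (hbc : b - c ≠ 0) :
    Transcendental k ((a + b) / (b - c)) := by
  intro ht
  apply hx
  let A : IntermediateField k M := algebraicClosure k M
  have hA : ∀ y : M, y ∈ A ↔ IsAlgebraic k y := fun y => mem_algebraicClosure_iff
  rw [← hA] at h₁ h₂ h₃ ht ⊢
  set t := (a + b) / (b - c) with htdef
  have ht0 : t ≠ 0 := div_ne_zero hab hbc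
  have hu : a + b = t * (b - c) := by rw [htdef, div_mul_cancel₀ _ hbc]
  have ht1 : t - 1 ≠ 0 := by
    have e1 : t - 1 = (a + c) / (b - c) := by rw [htdef]; field_simp; ring
    rw [e1]
    exact div_ne_zero hac hbc
  -- the square of `b - c`
  have hsq : (t - 1) * (t * (b - c) ^ 2) = (e₃ - e₂) * t + (e₂ - e₁) := by
    have e1 : (a - b) * (a + b) = e₂ - e₁ := by linear_combination ha - hb
    have e2 : (b + c) * (b - c) = e₃ - e₂ := by linear_combination hb - hc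
    have e3 : a - b = t * (b - c) - 2 * b := by linear_combination hu
    rw [e3, hu] at e1
    linear_combination e1 + t * e2
  have hw2 : (b - c) ^ 2 ∈ A := by
    have e1 : (b - c) ^ 2 = ((e₃ - e₂) * t + (e₂ - e₁)) / ((t - 1) * t) := by
      rw [← hsq]
      field_simp
    rw [e1]
    exact div_mem (add_mem (mul_mem (sub_mem h₃ h₂) ht) (sub_mem h₂ h₁))
      (mul_mem (sub_mem ht (one_mem _)) ht)
  have hw : b - c ∈ A := by
    rw [hA] at hw2 ⊢
    exact IsAlgebraic.of_pow two_pos hw2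
  have hu' : b + c ∈ A := by
    have e1 : b + c = (e₃ - e₂) / (b - c) := by
      rw [eq_div_iff hbc]
      linear_combination hb - hc
    rw [e1]
    exact div_mem (sub_mem h₃ h₂) hw
  have hbA : b ∈ A := by
    have e1 : b = ((b - c) + (b + c)) / 2 := by field_simp; ring
    rw [e1]
    exact div_mem (add_mem hw hu') (ofNat_mem A 2)
  have e1 : x = b ^ 2 + e₂ := by linear_combination -hb
  rw [e1]
  exact add_mem (pow_mem hbA 2) h₂

/-- second unit equation -/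
lemma transcendental_of_two {a b : M} {e₁ e₂ x ζ : M} {m : ℕ} (hx : Transcendental k x)
    (h₁ : IsAlgebraic k e₁) (h₂ : IsAlgebraic k e₂) (hζ : IsAlgebraic k ζ) (he : e₁ ≠ e₂)
    (ha : a ^ m = x - e₁) (hb : b ^ m = x - e₂) (hb0 : b ≠ 0)
    (hζ1 : ζ - 1 ≠ 0) (hζ2 : ζ ^ 2 - 1 ≠ 0) (hζ0 : ζ ≠ 0) (h0 : a - ζ ^ 2 * b ≠ 0) :
    Transcendental k (((ζ - ζ ^ 2) * (a - b)) / ((ζ - 1) * (a - ζ ^ 2 * b))) := by
  intro ht
  apply hx
  let A : IntermediateField k M := algebraicClosure k M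
  have hA : ∀ y : M, y ∈ A ↔ IsAlgebraic k y := fun y => mem_algebraicClosure_iff
  rw [← hA] at h₁ h₂ hζ ht ⊢
  set t := ((ζ - ζ ^ 2) * (a - b)) / ((ζ - 1) * (a - ζ ^ 2 * b)) with htdef
  have hu : (ζ - ζ ^ 2) * (a - b) = t * ((ζ - 1) * (a - ζ ^ 2 * b)) := by
    rw [htdef, div_mul_cancel₀ _ (mul_ne_zero hζ1 h0)]
  -- `a (t + ζ) = b (t ζ ^ 2 + ζ)`
  have hlin : a * (t + ζ) = b * (t * ζ ^ 2 + ζ) := by
    apply mul_left_cancel₀ hζ1
    linear_combination -hu
  have ht1 : t + ζ ≠ 0 := by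
    intro h
    rw [h, mul_zero] at hlin
    have h1 := (mul_eq_zero.1 hlin.symm).resolve_left hb0
    have h2 : t = -ζ := by linear_combination h
    rw [h2] at h1
    have h3 : ζ * (ζ ^ 2 - 1) = 0 := by linear_combination -h1
    exact mul_ne_zero hζ0 hζ2 h3
  set ρ := (t * ζ ^ 2 + ζ) / (t + ζ) with hρ
  have hρA : ρ ∈ A := div_mem (add_mem (mul_mem ht (pow_mem hζ 2)) hζ) (add_mem ht hζ)
  have haρ : a = b * ρ := by
    rw [hρ, mul_div_assoc', ← hlin, mul_div_cancel_right₀ _ ht1]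
  have h1 : x - e₁ = (x - e₂) * ρ ^ m := by rw [← ha, ← hb, haρ, mul_pow]
  have h2 : ρ ^ m - 1 ≠ 0 := by
    intro h
    have h3 : ρ ^ m = 1 := by linear_combination h
    rw [h3] at h1
    exact he (by linear_combination -h1)
  have h3 : x = (e₂ * ρ ^ m - e₁) / (ρ ^ m - 1) := by
    rw [eq_div_iff h2]
    linear_combination -h1
  rw [h3]
  exact div_mem (sub_mem (mul_mem h₂ (pow_mem hρA m)) h₁) (sub_mem (pow_mem hρA m) (one_mem _))

end alg

section sol

variable {k : Type u} {M : Type v} [Field k] [Field M] [Algebra k M] {P : ValuationSubring M → Prop}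
  {x : M} {m : ℕ}

lemma unitIn_alg (hP : ∀ W, P W → (∀ c : M, IsAlgebraic k c → c ∈ W) ∧ x ∈ W)
    {W : ValuationSubring M} (hW : P W) {c : M} (hc : IsAlgebraic k c) (hc0 : c ≠ 0) :
    UnitIn W c := ⟨(hP W hW).1 c hc, (hP W hW).1 _ hc.inv, hc0⟩

lemma root_mem_val (hP : ∀ W, P W → (∀ c : M, IsAlgebraic k c → c ∈ W) ∧ x ∈ W)
    (hm : 0 < m) {W : ValuationSubring M} (hW : P W) {e a : M} (he : IsAlgebraic k e)
    (ha : a ^ m = x - e) : a ∈ W := by
  have h1 : a ^ m ∈ W := by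
    rw [ha]
    exact W.sub_mem (hP W hW).2 ((hP W hW).1 e he)
  have hint : IsIntegral W a := by
    refine ⟨X ^ m - C ⟨a ^ m, h1⟩, monic_X_pow_sub_C _ hm.ne', ?_⟩
    rw [eval₂_sub, eval₂_pow, eval₂_X, eval₂_C]
    exact sub_self _
  obtain ⟨y, hy⟩ := IsIntegrallyClosed.isIntegral_iff.mp hint
  rw [← hy]
  exact y.2

lemma unitIn_sub_root (hP : ∀ W, P W → (∀ c : M, IsAlgebraic k c → c ∈ W) ∧ x ∈ W)
    (hm : 0 < m) {W : ValuationSubring M} (hW : P W) {e₁ e₂ a b ζ : M} (h₁ : IsAlgebraic k e₁)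
    (h₂ : IsAlgebraic k e₂) (h12 : e₁ ≠ e₂) (ha : a ^ m = x - e₁) (hb : b ^ m = x - e₂)
    (hζ : ζ ^ m = 1) : UnitIn W (a - ζ * b) := by
  have hζalg : IsAlgebraic k ζ := by
    apply IsIntegral.isAlgebraic
    exact IsIntegral.of_pow hm (by rw [hζ]; exact isIntegral_one)
  refine unitIn_sub (m := m) (root_mem_val hP hm hW h₁ ha)
    (W.mul_mem _ _ ((hP W hW).1 ζ hζalg) (root_mem_val hP hm hW h₂ hb)) ?_
  have h3 : a ^ m - (ζ * b) ^ m = e₂ - e₁ := by
    rw [mul_pow, hζ, one_mul, ha, hb]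
    ring
  rw [h3]
  exact unitIn_alg hP hW (h₂.sub h₁) (sub_ne_zero.2 (Ne.symm h12))

lemma sub_root_ne {e₁ e₂ a b ζ : M} (h12 : e₁ ≠ e₂) (ha : a ^ m = x - e₁) (hb : b ^ m = x - e₂)
    (hζ : ζ ^ m = 1) : a - ζ * b ≠ 0 := by
  intro h0
  have h1 : a ^ m = b ^ m := by
    rw [sub_eq_zero.1 h0, mul_pow, hζ, one_mul]
  rw [ha, hb] at h1
  exact h12 (by linear_combination -h1)

/-- the case of exponents at least three -/
lemma exists_sol_two (hP : ∀ W, P W → (∀ c : M, IsAlgebraic k c → c ∈ W) ∧ x ∈ W)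
    (hx : Transcendental k x) (hm3 : 3 ≤ m) {e₁ e₂ a b ζ : M} (h₁ : IsAlgebraic k e₁)
    (h₂ : IsAlgebraic k e₂) (h12 : e₁ ≠ e₂) (ha : a ^ m = x - e₁) (hb : b ^ m = x - e₂)
    (hζ : IsPrimitiveRoot ζ m) :
    ∃ t : M, Transcendental k t ∧ ∀ W, P W → t ∈ W ∧ t⁻¹ ∈ W ∧ (t - 1)⁻¹ ∈ W := by
  have hm : 0 < m := by omega
  have hζm := hζ.pow_eq_one
  have hζ2m : (ζ ^ 2) ^ m = 1 := by rw [← pow_mul, mul_comm, pow_mul, hζm, one_pow]
  have hζ0 : ζ ≠ 0 := hζ.ne_zero hm.ne'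
  have hζ1 : ζ - 1 ≠ 0 := sub_ne_zero.2 (hζ.ne_one (by omega))
  have hζ2 : ζ ^ 2 - 1 ≠ 0 := by
    intro h
    have h1 := hζ.dvd_of_pow_eq_one 2 (sub_eq_zero.1 h)
    exact absurd (Nat.le_of_dvd two_pos h1) (by omega)
  have hζalg : IsAlgebraic k ζ := by
    apply IsIntegral.isAlgebraic
    exact IsIntegral.of_pow hm (by rw [hζm]; exact isIntegral_one)
  have hb0 : b ≠ 0 := by
    rintro rfl
    rw [zero_pow hm.ne'] at hb
    apply hx
    rw [sub_eq_zero.1 hb.symm]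
    exact h₂
  have h1 := transcendental_of_two hx h₁ h₂ hζalg h12 ha hb hb0
    hζ1 hζ2 hζ0 (sub_root_ne h12 ha hb hζ2m)
  refine ⟨_, h1, ?_⟩
  intro W hW
  have hA := unitIn_sub_root hP hm hW h₁ h₂ h12 ha hb (one_pow m)
  rw [one_mul] at hA
  have hB := unitIn_sub_root hP hm hW h₁ h₂ h12 ha hb hζm
  have hC := unitIn_sub_root hP hm hW h₁ h₂ h12 ha hb hζ2m
  have hz1 := unitIn_alg hP hW (hζalg.sub isAlgebraic_one) hζ1
  have hz2 := unitIn_alg hP hW ((hζalg.pow 2).sub isAlgebraic_one) hζ2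
  have hz3 := unitIn_alg hP hW (hζalg.sub (hζalg.pow 2)) (by
    have h2 : ζ - ζ ^ 2 = -(ζ * (ζ - 1)) := by ring
    rw [h2]
    exact neg_ne_zero.2 (mul_ne_zero hζ0 hζ1))
  have ht := (hz3.mul hA).div (hz1.mul hC)
  have ht1 : (ζ - ζ ^ 2) * (a - b) / ((ζ - 1) * (a - ζ ^ 2 * b)) - 1 =
      -(((ζ ^ 2 - 1) * (a - ζ * b)) / ((ζ - 1) * (a - ζ ^ 2 * b))) := by
    have h3 := hC.2.2
    have h4 := hz1.2.2
    field_simp
    ring
  have ht2 : UnitIn W ((ζ - ζ ^ 2) * (a - b) / ((ζ - 1) * (a - ζ ^ 2 * b)) - 1) := by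
    rw [ht1]
    exact ((hz2.mul hB).div (hz1.mul hC)).neg
  exact ⟨ht.1, ht.2.1, ht2.2.1⟩

/-- the case of exponent two -/
lemma exists_sol_three (hP : ∀ W, P W → (∀ c : M, IsAlgebraic k c → c ∈ W) ∧ x ∈ W)
    (hx : Transcendental k x) {e₁ e₂ e₃ a b c : M} (h₁ : IsAlgebraic k e₁)
    (h₂ : IsAlgebraic k e₂) (h₃ : IsAlgebraic k e₃) (h12 : e₁ ≠ e₂) (h13 : e₁ ≠ e₃) (h23 : e₂ ≠ e₃)
    (ha : a ^ 2 = x - e₁) (hb : b ^ 2 = x - e₂) (hc : c ^ 2 = x - e₃) (h2 : (2 : M) ≠ 0) :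
    ∃ t : M, Transcendental k t ∧ ∀ W, P W → t ∈ W ∧ t⁻¹ ∈ W ∧ (t - 1)⁻¹ ∈ W := by
  have hneg : ((-1 : M)) ^ 2 = 1 := by norm_num
  have e1 : ∀ y z : M, y - -1 * z = y + z := fun y z => by ring
  have hab := sub_root_ne h12 ha hb hneg
  have hac := sub_root_ne h13 ha hc hneg
  have hbc := sub_root_ne h23 hb hc (one_pow 2)
  rw [e1] at hab hac
  rw [one_mul] at hbc
  refine ⟨_, transcendental_of_three hx h₁ h₂ h₃ ha hb hc h2 hab hac hbc, ?_⟩
  intro W hW
  have hA := unitIn_sub_root hP two_pos hW h₁ h₂ h12 ha hb hneg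
  have hB := unitIn_sub_root hP two_pos hW h₁ h₃ h13 ha hc hneg
  have hC := unitIn_sub_root hP two_pos hW h₂ h₃ h23 hb hc (one_pow 2)
  rw [e1] at hA hB
  rw [one_mul] at hC
  have ht := hA.div hC
  have ht1 : (a + b) / (b - c) - 1 = (a + c) / (b - c) := by
    field_simp
    ring
  have ht2 : UnitIn W ((a + b) / (b - c) - 1) := by
    rw [ht1]
    exact hB.div hC
  exact ⟨ht.1, ht.2.1, ht2.2.1⟩

end sol

section crit

variable {k : Type u} {E : Type v} [Field k] [CharZero k] [Field E] [Algebra k E]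
  {T : Set (ValuationSubring E)}

/-- primitive roots of unity in fields which contain the constants -/
lemma exists_prim {M : IntermediateField E (AlgebraicClosure E)} (hM : ConstIn k M) {m : ℕ}
    (hm : 0 < m) : ∃ ζ : M, IsPrimitiveRoot ζ m := by
  have hcharE : CharZero E := charZero_of_injective_algebraMap (algebraMap k E).injective
  have hneE : NeZero ((m : ℕ) : AlgebraicClosure E) := ⟨Nat.cast_ne_zero.2 hm.ne'⟩
  obtain ⟨z, hz⟩ := IsAlgClosed.exists_root (cyclotomic m (AlgebraicClosure E)) (by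
    rw [degree_cyclotomic]
    exact_mod_cast (Nat.totient_pos.2 hm).ne')
  have hz1 : IsPrimitiveRoot z m := isRoot_cyclotomic_iff.1 hz
  have hzint : IsIntegral k z := IsIntegral.of_pow hm (by
    rw [hz1.pow_eq_one]; exact isIntegral_one)
  refine ⟨⟨z, hM z hzint⟩, ?_⟩
  exact (IsPrimitiveRoot.coe_submonoidClass_iff (M := AlgebraicClosure E)).1 hz1

/-- **The unit equation is solvable on universal covers of superelliptic curves.** -/
theorem hasTripodMap_of_orbifold {x : E} {f : k[X]} {m : ℕ} (h : IsOrbifoldMap k T x f m) :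
    HasTripodMap k T := by
  classical
  obtain ⟨hx, hf, hm2, hd2, hmd, hT⟩ := h
  have hcharE : CharZero E := charZero_of_injective_algebraMap (algebraMap k E).injective
  have hm : 0 < m := by omega
  obtain ⟨M, hMT⟩ : ∃ M : IntermediateField E (AlgebraicClosure E), M = maxOut k T := ⟨_, rfl⟩
  unfold HasTripodMap
  rw [← hMT]
  have hM : ConstIn k M := by rw [hMT]; exact constIn_maxOut
  have hcharM : CharZero M := charZero_of_injective_algebraMap (algebraMap E M).injective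
  have hfx : aeval x f ≠ 0 := fun h => hx ⟨f, hf.ne_zero, h⟩
  set x' : M := algebraMap E M x with hx'
  have hx't : Transcendental k x' := by
    intro h
    exact hx ((isAlgebraic_algebraMap_iff (algebraMap E M).injective).1 h)
  have htow : IsScalarTower k M (AlgebraicClosure E) := IsScalarTower.of_algebraMap_eq (fun _ => rfl)
  -- roots
  have hroot : ∀ e : M, aeval e f = 0 → ∃ a : M, a ^ m = x' - e := by
    intro e he
    obtain ⟨a, ha⟩ := IsAlgClosed.exists_pow_nat_eq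
      (algebraMap E (AlgebraicClosure E) x - (e : AlgebraicClosure E)) hm
    have he' : aeval (e : AlgebraicClosure E) f = 0 := by
      have h1 := aeval_algebraMap_apply (AlgebraicClosure E) e f
      rw [he, map_zero] at h1
      exact h1
    have h1 : a ∈ M := by
      rw [hMT]
      exact root_mem_maxOut hf hm hfx (fun V hV hVp => (hT V hV hVp)) he' ha
    exact ⟨⟨a, h1⟩, Subtype.ext ha⟩
  have hsplit : (f.map (algebraMap k M)).Splits := by
    refine Splits.of_splits_map (algebraMap M (AlgebraicClosure E)) (IsAlgClosed.splits _) ?_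
    intro y hy
    have hy0 := isRoot_of_mem_roots hy
    rw [Polynomial.map_map, IsRoot, eval_map] at hy0
    have h : IsIntegral k y := by
      apply IsAlgebraic.isIntegral
      exact ⟨f, hf.ne_zero, hy0⟩
    exact ⟨⟨y, hM y h⟩, rfl⟩
  have hcard : Fintype.card (f.rootSet M) = f.natDegree := card_rootSet_eq_natDegree hf hsplit
  have hmem : ∀ e : f.rootSet M, aeval (e : M) f = 0 := fun e => (mem_rootSet.1 e.2).2
  have halg : ∀ e : M, aeval e f = 0 → IsAlgebraic k e := fun e he => ⟨f, hf.ne_zero, he⟩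
  -- valuations
  let P : ValuationSubring M → Prop := fun W => IsPlace k E (W.comap (algebraMap E M)) ∧
    W.comap (algebraMap E M) ∈ T
  have hP : ∀ W, P W → (∀ c : M, IsAlgebraic k c → c ∈ W) ∧ x' ∈ W := by
    rintro W ⟨hW, hWT⟩
    refine ⟨fun c hc => ?_, (hT _ hWT hW).1⟩
    obtain ⟨Q, hQ, hQx⟩ := hc.isIntegral
    let ι : k →+* W := (algebraMap k M).codRestrict W.toSubring (fun d => by
      have h1 := hW.const_mem d
      rw [ValuationSubring.mem_comap, ← IsScalarTower.algebraMap_apply] at h1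
      exact h1)
    have hint : IsIntegral W c := by
      refine ⟨Q.map ι, hQ.map _, ?_⟩
      rw [eval₂_map]
      exact hQx
    obtain ⟨y, hy⟩ := IsIntegrallyClosed.isIntegral_iff.mp hint
    rw [← hy]
    exact y.2
  have hfinal : ∃ t : M, Transcendental k t ∧ ∀ W, P W → t ∈ W ∧ t⁻¹ ∈ W ∧ (t - 1)⁻¹ ∈ W := by
    by_cases hm3 : 3 ≤ m
    · obtain ⟨e₁, e₂, h12⟩ := Fintype.one_lt_card_iff.1 (by rw [hcard]; omega :
        1 < Fintype.card (f.rootSet M))
      obtain ⟨a, ha⟩ := hroot e₁ (hmem e₁)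
      obtain ⟨b, hb⟩ := hroot e₂ (hmem e₂)
      obtain ⟨ζ, hζ⟩ := exists_prim hM hm
      exact exists_sol_two hP hx't hm3 (halg _ (hmem e₁)) (halg _ (hmem e₂))
        (fun h => h12 (Subtype.ext h)) ha hb hζ
    · have hm' : m = 2 := by omega
      subst hm'
      obtain ⟨e₁, e₂, e₃, h12, h13, h23⟩ := Fintype.two_lt_card_iff.1 (by rw [hcard]; omega :
        2 < Fintype.card (f.rootSet M))
      obtain ⟨a, ha⟩ := hroot e₁ (hmem e₁)
      obtain ⟨b, hb⟩ := hroot e₂ (hmem e₂)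
      obtain ⟨c, hc⟩ := hroot e₃ (hmem e₃)
      exact exists_sol_three hP hx't (halg _ (hmem e₁)) (halg _ (hmem e₂)) (halg _ (hmem e₃))
        (fun h => h12 (Subtype.ext h)) (fun h => h13 (Subtype.ext h))
        (fun h => h23 (Subtype.ext h)) ha hb hc two_ne_zero
  obtain ⟨t, ht, hW⟩ := hfinal
  exact ⟨t, ht, fun W h1 h2 => hW W ⟨h1, h2⟩⟩

end crit

end Vale.Agent.P025.R2.H637
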