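import Vale.Agent.P025.R2.H637.Psi

/-! # Estimates for the coefficients and location of the root -/

open Polynomial

namespace Vale.Agent.P025.R2.H637

universe u v

section nonarch

variable {M : Type u} [Field M] {v : AbsoluteValue M ℝ}

/-- the strong triangle inequality -/
def NA (v : AbsoluteValue M ℝ) : Prop := ∀ x y, v (x + y) ≤ max (v x) (v y)

lemma NA.add_le (hv : NA v) {x y : M} {B : ℝ} (hx : v x ≤ B) (hy : v y ≤ B) : v (x + y) ≤ B :=
  (hv x y).trans (max_le hx hy)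

lemma NA.add_lt (hv : NA v) {x y : M} {B : ℝ} (hx : v x < B) (hy : v y < B) : v (x + y) < B :=
  (hv x y).trans_lt (max_lt hx hy)

lemma NA.sub_le (hv : NA v) {x y : M} {B : ℝ} (hx : v x ≤ B) (hy : v y ≤ B) : v (x - y) ≤ B := by
  rw [sub_eq_add_neg]
  exact hv.add_le hx (by rwa [v.map_neg])

lemma NA.sub_lt (hv : NA v) {x y : M} {B : ℝ} (hx : v x < B) (hy : v y < B) : v (x - y) < B := by
  rw [sub_eq_add_neg]
  exact hv.add_lt hx (by rwa [v.map_neg])

lemma NA.sum_le (hv : NA v) {ι : Type*} (s : Finset ι) (f : ι → M) {B : ℝ} (hB : 0 ≤ B)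
    (h : ∀ i ∈ s, v (f i) ≤ B) : v (∑ i ∈ s, f i) ≤ B := by
  classical
  induction s using Finset.induction_on with
  | empty => simpa using hB
  | insert a s ha ih =>
    rw [Finset.sum_insert ha]
    exact hv.add_le (h a (Finset.mem_insert_self _ _))
      (ih (fun i hi => h i (Finset.mem_insert_of_mem hi)))

lemma NA.sum_lt (hv : NA v) {ι : Type*} (s : Finset ι) (f : ι → M) {B : ℝ} (hB : 0 < B)
    (h : ∀ i ∈ s, v (f i) < B) : v (∑ i ∈ s, f i) < B := by
  classical
  induction s using Finset.induction_on with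
  | empty => simpa using hB
  | insert a s ha ih =>
    rw [Finset.sum_insert ha]
    exact hv.add_lt (h a (Finset.mem_insert_self _ _))
      (ih (fun i hi => h i (Finset.mem_insert_of_mem hi)))

lemma NA.multiset_sum_lt (hv : NA v) (s : Multiset M) {B : ℝ} (hB : 0 < B)
    (h : ∀ x ∈ s, v x < B) : v s.sum < B := by
  induction s using Multiset.induction_on with
  | empty => simpa using hB
  | cons a s ih =>
    rw [Multiset.sum_cons]
    exact hv.add_lt (h a (Multiset.mem_cons_self _ _))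
      (ih (fun i hi => h i (Multiset.mem_cons_of_mem hi)))

/-- the value of a sum is the value of the dominant term -/
lemma NA.add_eq (hv : NA v) {x y : M} (h : v y < v x) : v (x + y) = v x := by
  apply le_antisymm (hv.add_le le_rfl h.le)
  by_contra hcon
  rw [not_le] at hcon
  have h1 : v (x + y - y) < v x := hv.sub_lt hcon h
  rw [add_sub_cancel_right] at h1
  exact lt_irrefl _ h1

lemma NA.sub_eq (hv : NA v) {x y : M} (h : v y < v x) : v (x - y) = v x := by
  rw [sub_eq_add_neg]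
  exact hv.add_eq (by rwa [v.map_neg])

lemma NA.eq_of_sub_lt (hv : NA v) {x y : M} (h : v (x - y) < v x) : v y = v x := by
  have h1 : y = x - (x - y) := by ring
  rw [h1]
  exact hv.sub_eq h

/-- the value of a difference of powers -/
lemma NA.pow_sub_pow (hv : NA v) {x y : M} {B : ℝ} (hB : 0 ≤ B) (hx : v x ≤ B) (hy : v y ≤ B)
    (l : ℕ) : v (x ^ (l + 1) - y ^ (l + 1)) ≤ v (x - y) * B ^ l := by
  have h1 := (Commute.all x y).mul_geom_sum₂ (l + 1)
  rw [← h1, v.map_mul]
  refine mul_le_mul_of_nonneg_left ?_ (v.nonneg _)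
  refine hv.sum_le _ _ (pow_nonneg hB l) (fun i hi => ?_)
  have hi' := Finset.mem_range.1 hi
  rw [v.map_mul, v.map_pow, v.map_pow]
  have h2 : B ^ l = B ^ i * B ^ (l + 1 - 1 - i) := by
    rw [← pow_add]
    congr 1
    omega
  rw [h2]
  gcongr

end nonarch

section padic

variable {p : ℕ} [Fact p.Prime]

/-- the value of an integer is not too small -/
lemma inv_natCast_le (N : ℕ) (hN : N ≠ 0) : ‖((N : ℚ_[p]))‖⁻¹ ≤ N := by
  have hp : p.Prime := Fact.out
  have h0 : (N : ℚ_[p]) ≠ 0 := Nat.cast_ne_zero.2 hN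
  rw [Padic.norm_eq_zpow_neg_valuation h0, Padic.valuation_natCast, zpow_neg, inv_inv,
    zpow_natCast]
  have h1 : p ^ padicValNat p N ∣ N := pow_padicValNat_dvd
  exact_mod_cast Nat.le_of_dvd (Nat.pos_of_ne_zero hN) h1

/-- values of integers which are smaller than `p ^ m` -/
lemma inv_natCast_lt (N m : ℕ) (hN : N ≠ 0) (hNm : N < p ^ m) :
    ‖((N : ℚ_[p]))‖⁻¹ < (p : ℝ) ^ m := by
  refine (inv_natCast_le N hN).trans_lt ?_
  exact_mod_cast hNm

lemma norm_one_sub (j : ℕ) (hj : 0 < j) :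
    ‖(1 - 2 * (j : ℚ_[p]))‖ = ‖(((2 * j - 1 : ℕ)) : ℚ_[p])‖ := by
  have h1 : (1 - 2 * (j : ℚ_[p])) = -(((2 * j - 1 : ℕ)) : ℚ_[p]) := by
    rw [Nat.cast_sub (by omega)]
    push_cast
    ring
  rw [h1, norm_neg]

lemma norm_al_le (n j : ℕ) : ‖al ℚ_[p] n (j + 1)‖ ≤ 2 * j + 1 := by
  rw [al, norm_div, norm_mul, norm_pow, norm_neg, norm_one, one_pow, one_mul, div_eq_mul_inv,
    norm_one_sub (j + 1) (by omega)]
  have h1 : ‖((n.choose (j + 1) : ℕ) : ℚ_[p])‖ ≤ 1 := by
    have := Padic.norm_int_le_one (p := p) (n.choose (j + 1) : ℤ)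
    simpa using this
  have h2 := inv_natCast_le (p := p) (2 * (j + 1) - 1) (by omega)
  have h3 : (((2 * (j + 1) - 1 : ℕ)) : ℝ) = 2 * j + 1 := by
    have : 2 * (j + 1) - 1 = 2 * j + 1 := by omega
    rw [this]
    push_cast
    ring
  rw [h3] at h2
  calc _ ≤ 1 * (2 * (j : ℝ) + 1) := by
        refine mul_le_mul h1 h2 (inv_nonneg.2 (norm_nonneg _)) zero_le_one
    _ = _ := one_mul _

/-- the value of the sum of the coefficients -/
lemma norm_be {n m : ℕ} (hm : 0 < m) (hn : 2 * n - 1 = p ^ m) : ‖be ℚ_[p] n‖ = (p : ℝ) ^ m := by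
  have hp : p.Prime := Fact.out
  have hpm : 1 < p ^ m := Nat.one_lt_pow hm.ne' hp.one_lt
  have hn0 : 0 < n := by omega
  rw [be, Finset.sum_range_succ, add_comm]
  have hlast : ‖al ℚ_[p] n n‖ = (p : ℝ) ^ m := by
    rw [al, norm_div, norm_mul, norm_pow, norm_neg, norm_one, one_pow, one_mul, Nat.choose_self,
      Nat.cast_one, norm_one, norm_one_sub n hn0, hn, Nat.cast_pow, norm_pow, Padic.norm_p,
      one_div, inv_pow, inv_inv]
  have hsmall : ‖∑ j ∈ Finset.range n, al ℚ_[p] n j‖ < (p : ℝ) ^ m := by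
    have hna : NA (NormedField.toAbsoluteValue ℚ_[p]) := fun x y => Padic.nonarchimedean x y
    refine hna.sum_lt (Finset.range n) (fun j => al ℚ_[p] n j)
      (pow_pos (by exact_mod_cast hp.pos) m) ?_
    intro j hj
    have hj' := Finset.mem_range.1 hj
    show ‖al ℚ_[p] n j‖ < _
    rcases Nat.eq_zero_or_pos j with rfl | hj0
    · rw [al_zero, norm_one]
      exact_mod_cast hpm
    · rw [al, norm_div, norm_mul, norm_pow, norm_neg, norm_one, one_pow, one_mul, div_eq_mul_inv,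
        norm_one_sub j hj0]
      have h1 : ‖((n.choose j : ℕ) : ℚ_[p])‖ ≤ 1 := by
        have := Padic.norm_int_le_one (p := p) (n.choose j : ℤ)
        simpa using this
      have h2 := inv_natCast_lt (p := p) (2 * j - 1) m (by omega) (by omega)
      calc _ ≤ 1 * ‖(((2 * j - 1 : ℕ)) : ℚ_[p])‖⁻¹ := by
            exact mul_le_mul_of_nonneg_right h1 (inv_nonneg.2 (norm_nonneg _))
        _ < _ := by rw [one_mul]; exact h2
  have hna : NA (NormedField.toAbsoluteValue ℚ_[p]) := fun x y => Padic.nonarchimedean x y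
  have h4 := hna.add_eq (x := al ℚ_[p] n n) (y := ∑ j ∈ Finset.range n, al ℚ_[p] n j) (by
    show ‖∑ j ∈ Finset.range n, al ℚ_[p] n j‖ < ‖al ℚ_[p] n n‖
    rw [hlast]; exact hsmall)
  have h5 : ‖al ℚ_[p] n n + ∑ j ∈ Finset.range n, al ℚ_[p] n j‖ = ‖al ℚ_[p] n n‖ := h4
  rw [h5, hlast]

end padic

end Vale.Agent.P025.R2.H637
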