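import Vale.Agent.P025.R2.H637.Restrict
import Vale.Agent.P025.H641.OLift

/-! # Passage to the limit over the finite levels -/

open IntermediateField Polynomial P025H641

namespace Vale.Agent.P025.R2.H637

universe u v w

section unr

variable {k : Type u} {E : Type v} [Field k] [CharZero k] [Field E] [Algebra k E]
  {T : Set (ValuationSubring E)}

/-- unramified extensions of `K` lie in `maxOut` -/
lemma unr_mem_maxOut {K : IntermediateField E (AlgebraicClosure E)}
    [FiniteDimensional E K] (hK : K ≤ maxOut k T)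
    (ψ : AlgebraicClosure K ≃ₐ[K] AlgebraicClosure E) (x : maxUnr k K) :
    ψ (x : AlgebraicClosure K) ∈ maxOut k T := by
  obtain ⟨F, hF, hxF⟩ := exists_finUnr_mem x.2
  have hKO := isFinOut_of_le_maxOut hK
  set B : IntermediateField K (AlgebraicClosure E) :=
    F.map (ψ : AlgebraicClosure K →ₐ[K] AlgebraicClosure E) with hB
  have hfin := hF.1
  have hfinB : FiniteDimensional K B :=
    LinearEquiv.finiteDimensional (IntermediateField.equivMap F _).toLinearEquiv
  set A : IntermediateField E (AlgebraicClosure E) := B.restrictScalars E with hA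
  have hfinA : FiniteDimensional E A := FiniteDimensional.trans E K B
  have hmemA : ψ (x : AlgebraicClosure K) ∈ A := ⟨x, hxF, rfl⟩
  have hAO : IsFinOut k T A := by
    refine ⟨hfinA, ?_⟩
    rw [isUnrOver_iff]
    intro W hW hWT
    have hKW := (isUnrOver_iff K).1 hKO.2 W hW hWT
    have hAK : SameVal W A K := by
      rintro _ ⟨y, hy, rfl⟩
      exact unr_val ψ hF W hW y hy
    exact hAK.trans hKW
  exact hAO.le_maxOut hmemA

end unr

section ultra

variable {k : Type u} {E : Type v} [Field k] [CharZero k] [Field E] [Algebra k E]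
  {M : IntermediateField E (AlgebraicClosure E)} [Normal E M]
  {s : Gal(constClosure k E/k) →* Gal(M/E)}

/-- each element of `M` is generated by elements fixed by the section and constants -/
lemma exists_fin_const (hM : ConstIn k M) (hs : IsSecOf k M s) (x : M) :
    ∃ K : IntermediateField E (AlgebraicClosure E), FiniteDimensional E K ∧ K ≤ M ∧
      (∀ y : M, (y : AlgebraicClosure E) ∈ K → ∀ σ, s σ y = y) ∧
      (x : AlgebraicClosure E) ∈ IntermediateField.adjoin K
        {c : AlgebraicClosure E | IsIntegral k c} := by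
  classical
  obtain ⟨I, c, hcint, -, hrep⟩ := exists_const_basisM hM hs
  obtain ⟨l, hl⟩ := hrep x
  let S : Finset (AlgebraicClosure E) := l.support.image (fun i => ((l i : M) : AlgebraicClosure E))
  set K : IntermediateField E (AlgebraicClosure E) := IntermediateField.adjoin E
    (S : Set (AlgebraicClosure E)) with hK
  -- the fixed field as a field between `E` and its closure
  let F : IntermediateField E (AlgebraicClosure E) := IntermediateField.lift (FixM s)
  have hF : ∀ y : M, (y : AlgebraicClosure E) ∈ F ↔ y ∈ FixM s := by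
    intro y
    exact IntermediateField.mem_lift y
  have hKF : K ≤ F := by
    rw [hK, IntermediateField.adjoin_le_iff]
    intro y hy
    obtain ⟨i, -, rfl⟩ := Finset.mem_image.1 (Finset.mem_coe.1 hy)
    exact (hF _).2 (l i).2
  have hKM : K ≤ M := hKF.trans (IntermediateField.lift_le (FixM s))
  refine ⟨K, ?_, hKM, ?_, ?_⟩
  · apply IntermediateField.finiteDimensional_adjoin
    intro y _
    exact Algebra.IsIntegral.isIntegral y
  · intro y hy σ
    exact (mem_fixM y).1 ((hF y).1 (hKF hy)) σ
  · have h1 : (x : AlgebraicClosure E) = ∑ i ∈ l.support,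
        ((l i : M) : AlgebraicClosure E) * (c i : AlgebraicClosure E) := by
      have h2 := congrArg (algebraMap M (AlgebraicClosure E)) hl
      rw [map_sum] at h2
      refine Eq.trans h2 (Finset.sum_congr rfl fun i _ => ?_)
      rw [map_mul]
      rfl
    rw [h1]
    refine sum_mem (fun i hi => mul_mem ?_ ?_)
    · have h3 : ((l i : M) : AlgebraicClosure E) ∈ K :=
        IntermediateField.subset_adjoin E _ (Finset.mem_coe.2 (Finset.mem_image_of_mem _ hi))
      exact IntermediateField.algebraMap_mem _ (⟨_, h3⟩ : K)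
    · exact IntermediateField.subset_adjoin K _ (isIntegral_coeM.2 (hcint i))

end ultra

section limit

/-- limits of valuation rings on an increasing family of sets -/
lemma exists_limit_val {M : Type v} [Field M] {ι : Type w} [Preorder ι] [IsDirected ι (· ≤ ·)]
    [Nonempty ι] (W : ι → Subring M) (D : ι → Set M) (hD : Monotone D)
    (hDM : ∀ x, ∃ i, x ∈ D i) (hW : ∀ i, ∀ x ∈ D i, x ∈ W i ∨ x⁻¹ ∈ W i) :
    ∃ O : ValuationSubring M, (∀ x, (∀ i, x ∈ W i) → x ∈ O) ∧ (∀ x, (∀ i, x ∉ W i) → x ∉ O) ∧
      ∀ g : M → M, (∀ i, ∀ x ∈ W i, g x ∈ W i) → ∀ x ∈ O, g x ∈ O := by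
  classical
  let U : Ultrafilter ι := Ultrafilter.of Filter.atTop
  have hU : (U : Filter ι) ≤ Filter.atTop := Ultrafilter.of_le _
  let O : ValuationSubring M :=
    { carrier := {x | ∀ᶠ i in (U : Filter ι), x ∈ W i}
      mul_mem' := fun ha hb => (ha.and hb).mono (fun i h => (W i).mul_mem h.1 h.2)
      one_mem' := Filter.Eventually.of_forall (fun i => (W i).one_mem)
      add_mem' := fun ha hb => (ha.and hb).mono (fun i h => (W i).add_mem h.1 h.2)
      zero_mem' := Filter.Eventually.of_forall (fun i => (W i).zero_mem)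
      neg_mem' := fun ha => ha.mono (fun i h => (W i).neg_mem h)
      mem_or_inv_mem' := by
        intro x
        obtain ⟨i₀, hi₀⟩ := hDM x
        have h1 : ∀ᶠ i in (U : Filter ι), x ∈ W i ∨ x⁻¹ ∈ W i := by
          apply hU
          filter_upwards [Filter.eventually_ge_atTop i₀] with i hi
          exact hW i x (hD hi hi₀)
        exact Ultrafilter.eventually_or.1 h1 }
  refine ⟨O, fun x hx => Filter.Eventually.of_forall hx, fun x hx h => ?_, fun g hg x hx => ?_⟩
  · obtain ⟨i, hi⟩ := Filter.Eventually.exists h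
    exact hx i hi
  · exact Filter.Eventually.mono hx (fun i h => hg i x h)

end limit

section main

variable {p : ℕ} [Fact p.Prime] {k : Type u} {E : Type v} [Field k] [CharZero k]
  [Algebra ℚ_[p] k] [Field E] [Algebra k E] {T : Set (ValuationSubring E)}

/-- a valuation ring of `M` restricted to `K` and the constants, from one on the maximal
unramified extension of `K` -/
lemma exists_ring_level {M : IntermediateField E (AlgebraicClosure E)}
    (hMT : M = maxOut k T) (s₁ : SecOf k M) (K : IntermediateField E (AlgebraicClosure E))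
    (hfin : FiniteDimensional E K) (hKM : K ≤ M)
    (hfix : ∀ y : M, (y : AlgebraicClosure E) ∈ K → ∀ σ, s₁.toHom σ y = y)
    (h : ∀ s' : Section k K, InducesOn s₁ K s' → ValuativeHom p s'.hom) :
    ∃ W : Subring M, (∀ x : M, (x : AlgebraicClosure E) ∈ IntermediateField.adjoin K
        {c : AlgebraicClosure E | IsIntegral k c} → x ∈ W ∨ x⁻¹ ∈ W) ∧
      (∀ c : k, algebraMap k M c ∈ W ↔ spectralNorm ℚ_[p] k c ≤ 1) ∧
      ∀ σ, ∀ x ∈ W, s₁.toHom σ x ∈ W := by
  classical
  have halg : Algebra.IsAlgebraic K (AlgebraicClosure E) := Algebra.IsAlgebraic.tower_top (K := E) K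
  have hac : IsAlgClosure K (AlgebraicClosure E) := ⟨inferInstance, halg⟩
  let ψ : AlgebraicClosure K ≃ₐ[K] AlgebraicClosure E :=
    IsAlgClosure.equiv K (AlgebraicClosure K) (AlgebraicClosure E)
  have D : TransData k M s₁.toHom K ψ := ⟨hKM, hfix, by
    rw [hMT] at hKM ⊢
    exact unr_mem_maxOut hKM ψ⟩
  have hind : InducesOn s₁ K (sectionOf D.trans (D.isSection s₁.isSecOf)) := by
    refine ⟨?_, (ψ : AlgebraicClosure K →ₐ[K] AlgebraicClosure E), ?_⟩
    · intro x hx σ
      refine ⟨⟨x, hKM hx⟩, rfl, ?_⟩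
      exact congrArg (fun z : M => (z : AlgebraicClosure E)) (hfix ⟨x, hKM hx⟩ hx σ)
    · intro σ σ' hσ x y hxy
      obtain ⟨x', rfl, rfl⟩ := hxy
      have hconj : conjC K ψ (σ' : Gal(constClosure k K/k)) = (σ : Gal(constClosure k E/k)) := by
        refine AlgEquiv.ext (fun c => Subtype.ext ?_)
        refine (congrArg (fun z : constClosure k E => (z : AlgebraicClosure E))
          (conjC_apply K ψ (σ' : Gal(constClosure k K/k)) c)).trans ?_
        refine (constEquiv_coe K ψ _).trans ?_
        obtain ⟨c', hc', h2⟩ := hσ ((constEquiv k K ψ).symm c : constClosure k K) _ ⟨_, rfl, rfl⟩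
        have h3 : c' = c := by
          apply Subtype.ext
          rw [hc']
          have h4 : ψ (((constEquiv k K ψ).symm c : constClosure k K) : AlgebraicClosure K) = c := by
            rw [← constEquiv_coe, AlgEquiv.apply_symm_apply]
          exact h4
        rw [h3] at h2
        exact h2.symm
      refine ⟨D.toM x', rfl, ?_⟩
      have h1 := D.trans_coe σ' x'
      rw [hconj] at h1
      exact h1.symm
  obtain ⟨W', hW'k, hW'st⟩ := h _ hind
  refine ⟨W'.toSubring.map D.toM, ?_, ?_, ?_⟩
  · intro x hx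
    -- `x` comes from the maximal unramified extension
    have h1 : ψ.symm (x : AlgebraicClosure E) ∈ maxUnr k K := by
      have h2 : IntermediateField.adjoin K {c : AlgebraicClosure E | IsIntegral k c} ≤
          (maxUnr k K).map (ψ : AlgebraicClosure K →ₐ[K] AlgebraicClosure E) := by
        rw [IntermediateField.adjoin_le_iff]
        intro c hc
        refine ⟨ψ.symm c, ?_, ψ.apply_symm_apply c⟩
        apply mem_maxUnr_of_const
        have ht : IsScalarTower k K (AlgebraicClosure E) :=
          IsScalarTower.of_algebraMap_eq (fun _ => rfl)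
        exact IsIntegral.map ((ψ.symm : AlgebraicClosure E →ₐ[K] AlgebraicClosure K).restrictScalars k) hc
      obtain ⟨y, hy, hyx⟩ := h2 hx
      have h3 : ψ.symm (x : AlgebraicClosure E) = y := by
        rw [← hyx]
        exact ψ.symm_apply_apply y
      rw [h3]
      exact hy
    have h4 : D.toM ⟨_, h1⟩ = x := Subtype.ext (by
      rw [D.toM_coe]
      exact ψ.apply_symm_apply _)
    rcases W'.mem_or_inv_mem ⟨_, h1⟩ with h5 | h5
    · exact Or.inl ⟨_, h5, h4⟩
    · refine Or.inr ⟨_, h5, ?_⟩
      rw [map_inv₀, h4]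
  · intro c
    have hc : D.toM (algebraMap k (maxUnr k K) c) = algebraMap k M c := by
      apply Subtype.ext
      rw [D.toM_coe]
      exact ψ.commutes (algebraMap k K c)
    rw [← hW'k c, ← hc]
    constructor
    · rintro ⟨y, hy, hyc⟩
      rw [← D.toM_injective hyc]
      exact hy
    · intro h
      exact ⟨_, h, rfl⟩
  · rintro σ _ ⟨y, hy, rfl⟩
    obtain ⟨σ', hσ'⟩ : ∃ σ' : Gal(constClosure k K/k), conjC K ψ σ' = σ :=
      (AlgEquiv.autCongr (constEquiv k K ψ)).surjective σ
    rw [← hσ']
    refine ⟨D.trans σ' y, ?_, D.toM_trans σ' y⟩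
    exact hW'st σ' y (D.trans σ' y) ⟨y, rfl, rfl⟩ hy

/-- **Sections which are valuative on all finite levels are valuative.** -/
theorem valuative_of_levels (s₁ : SecOf k (maxOut k T : IntermediateField E (AlgebraicClosure E)))
    (K₀ : IntermediateField E (AlgebraicClosure E)) (hK₀ : FiniteDimensional E K₀)
    (hfix₀ : ∀ x ∈ K₀, ∀ σ, (s₁.hom σ).Maps x x)
    (h : ∀ K : IntermediateField E (AlgebraicClosure E), FiniteDimensional E K → K₀ ≤ K →
      ∀ s' : Section k K, InducesOn s₁ K s' → ValuativeHom p s'.hom) :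
    ValuativeHom p s₁.hom := by
  classical
  obtain ⟨M, hMT⟩ : ∃ M : IntermediateField E (AlgebraicClosure E), M = maxOut k T := ⟨_, rfl⟩
  revert s₁
  rw [← hMT]
  intro s₁ hfix₀ h
  have hs := s₁.isSecOf
  have hnorm : Normal E M := by rw [hMT]; exact normal_maxOut
  have hM : ConstIn k M := by rw [hMT]; exact constIn_maxOut
  -- the fixed field
  let F : IntermediateField E (AlgebraicClosure E) := IntermediateField.lift (FixM s₁.toHom)
  have hF : ∀ y : M, (y : AlgebraicClosure E) ∈ F ↔ ∀ σ, s₁.toHom σ y = y := by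
    intro y
    rw [← mem_fixM]
    exact IntermediateField.mem_lift y
  have hFM : F ≤ M := IntermediateField.lift_le _
  have hK₀F : K₀ ≤ F := by
    intro x hx
    obtain ⟨x', hx', -⟩ := hfix₀ x hx 1
    rw [← hx', hF]
    intro σ
    obtain ⟨x'', hx'', h2⟩ := hfix₀ x hx σ
    have h3 : x'' = x' := Subtype.ext (hx''.trans hx'.symm)
    rw [h3] at h2
    exact Subtype.ext (h2.trans hx'.symm)
  let ι := {K : IntermediateField E (AlgebraicClosure E) // FiniteDimensional E K ∧ K₀ ≤ K ∧ K ≤ F}
  have hne : Nonempty ι := ⟨⟨K₀, hK₀, le_rfl, hK₀F⟩⟩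
  have hdir : IsDirected ι (· ≤ ·) := by
    refine ⟨fun A B => ?_⟩
    have hA := A.2.1
    have hB := B.2.1
    exact ⟨⟨A.1 ⊔ B.1, IntermediateField.finiteDimensional_sup _ _,
      A.2.2.1.trans le_sup_left, sup_le A.2.2.2 B.2.2.2⟩,
      (le_sup_left : A.1 ≤ A.1 ⊔ B.1), (le_sup_right : B.1 ≤ A.1 ⊔ B.1)⟩
  have hlev : ∀ i : ι, _ := fun i => exists_ring_level (p := p) hMT s₁ i.1 i.2.1
    (i.2.2.2.trans hFM) (fun y hy => (hF y).1 (i.2.2.2 hy)) (h i.1 i.2.1 i.2.2.1)
  choose W hW1 hW2 hW3 using hlev
  let D : ι → Set M := fun i => {x | (x : AlgebraicClosure E) ∈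
    IntermediateField.adjoin i.1 {c : AlgebraicClosure E | IsIntegral k c}}
  have hDmono : ∀ (A B : IntermediateField E (AlgebraicClosure E)), A ≤ B →
      ∀ x : AlgebraicClosure E, x ∈ IntermediateField.adjoin A
        {c : AlgebraicClosure E | IsIntegral k c} →
      x ∈ IntermediateField.adjoin B {c : AlgebraicClosure E | IsIntegral k c} := by
    intro A B hAB x hx
    have h1 : IntermediateField.adjoin A {c : AlgebraicClosure E | IsIntegral k c} ≤
        Subfield.toIntermediateField (K := A)
          (IntermediateField.adjoin B {c : AlgebraicClosure E | IsIntegral k c}).toSubfield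
          (fun a : A => IntermediateField.algebraMap_mem _
            (⟨(a : AlgebraicClosure E), hAB a.2⟩ : B)) := by
      rw [IntermediateField.adjoin_le_iff]
      intro c hc
      exact IntermediateField.subset_adjoin B _ hc
    exact h1 hx
  obtain ⟨O, hO1, hO2, hO3⟩ := exists_limit_val W D (fun i j hij x hx => hDmono i.1 j.1 hij x hx)
    (by
      intro x
      obtain ⟨K, hK, hKM, hKfix, hx⟩ := exists_fin_const hM hs x
      have hKF : K ≤ F := by
        intro y hy
        exact (hF ⟨y, hKM hy⟩).2 (hKfix ⟨y, hKM hy⟩ hy)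
      exact ⟨⟨K₀ ⊔ K, IntermediateField.finiteDimensional_sup _ _, le_sup_left,
        sup_le hK₀F hKF⟩, hDmono K (K₀ ⊔ K) le_sup_right x hx⟩)
    (fun i x hx => hW1 i x hx)
  refine ⟨O, ?_, ?_⟩
  · intro c
    constructor
    · intro hc
      by_contra hcon
      exact hO2 _ (fun i hi => hcon ((hW2 i c).1 hi)) hc
    · intro hc
      exact hO1 _ (fun i => (hW2 i c).2 hc)
  · rintro σ x y ⟨x', hx', hy⟩ hx
    have h1 : x' = x := Subtype.ext hx'
    rw [h1] at hy
    have h2 : s₁.toHom σ x = y := Subtype.ext hy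
    rw [← h2]
    exact hO3 (fun z => s₁.toHom σ z) (fun i z hz => hW3 i σ z hz) x hx

end main

end Vale.Agent.P025.R2.H637
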