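import Vale.Agent.P025.R2.H637.Fin
import Vale.Agent.P025.R2.H637.Crit2

/-! # The local section conjecture for curves over the projective line minus three points -/

open IntermediateField Polynomial P025H641

namespace Vale.Agent.P025.R2.H637

universe u v w

variable {p : ℕ} [Fact p.Prime] {k : Type u} {E : Type v} [Field k] [Algebra ℚ_[p] k]
  [FiniteDimensional ℚ_[p] k] [Field E] [Algebra k E]

/-- sections which are valuative on the finite levels are geometric -/
theorem isGeometric_of_levels (hp2 : p ≠ 2) (hE : IsFunctionField k E)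
    {T : Set (ValuationSubring E)} (ht : HasTripodMap k T)
    (s₁ : SecOf k (maxOut k T : IntermediateField E (AlgebraicClosure E)))
    (K₀ : IntermediateField E (AlgebraicClosure E)) (hK₀ : FiniteDimensional E K₀)
    (hfix₀ : ∀ x ∈ K₀, ∀ σ, (s₁.hom σ).Maps x x)
    (h : ∀ K : IntermediateField E (AlgebraicClosure E), FiniteDimensional E K → K₀ ≤ K →
      ∀ s' : Section k K, InducesOn s₁ K s' → ValuativeHom p s'.hom) : s₁.IsGeometric := by
  have hchar : CharZero k := charZero_of_injective_algebraMap (algebraMap ℚ_[p] k).injective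
  exact isGeometric_of_isValuative hp2 hE ht s₁ (valuative_of_levels s₁ K₀ hK₀ hfix₀ h)

/-- the tripod itself -/
lemma isOrbifoldMap_of_tripod [CharZero k] {T : Set (ValuationSubring E)} {t : E}
    (ht : Transcendental k t)
    (hT : ∀ V ∈ T, IsPlace k E V → V.valuation t = 1 ∧ V.valuation (t - 1) = 1) :
    IsOrbifoldMap k T t (X * (X - 1)) 3 := by
  have hmon : (X * (X - 1) : k[X]) = X * (X - C 1) := by rw [C_1]
  have hdeg : (X * (X - 1) : k[X]).natDegree = 2 := by
    rw [hmon, natDegree_mul X_ne_zero (X_sub_C_ne_zero 1), natDegree_X, natDegree_X_sub_C]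
  refine ⟨ht, ?_, by norm_num, by rw [hdeg], by rw [hdeg], ?_⟩
  · refine ⟨-4, 2 * X - 1, ?_⟩
    simp only [derivative_mul, derivative_X, derivative_sub, derivative_one]
    ring
  · intro V hV hVp
    obtain ⟨h1, h2⟩ := hT V hV hVp
    refine ⟨(V.valuation_le_one_iff t).1 h1.le, 1, ?_⟩
    rw [map_mul, map_sub, aeval_X, map_one, map_mul, h1, h2, map_one, one_mul, one_pow]

end Vale.Agent.P025.R2.H637
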