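import Vale.Agent.P025.R2.H637.Root

/-! # Creating new cusps -/

open Polynomial

namespace Vale.Agent.P025.R2.H637

universe u v

/-- The situation: `R` is a subring of `M` which is integrally closed and closed under etale
extensions, `G` a set of automorphisms of `M`, `v` an absolute value invariant under `G`,
`κ` the field of constants fixed by `G`. -/
structure Frame (p : ℕ) [Fact p.Prime] (κ : Type u) {M : Type v} [Field κ] [Field M]
    [Algebra ℚ_[p] M] [Algebra κ M] (G : Set (M ≃+* M)) (R : Subring M)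
    (v : AbsoluteValue M ℝ) : Prop where
  na : NA v
  ext : Ext p v
  const_mem : ∀ c : κ, algebraMap κ M c ∈ R
  splits : ∀ Q : R[X], Q.Monic → Q.Separable → (Q.map R.subtype).Splits
  int_closed : ∀ (Q : R[X]) (x : M), Q.Monic → (Q.map R.subtype).eval x = 0 → x ∈ R
  fix_const : ∀ g ∈ G, ∀ c : κ, g (algebraMap κ M c) = algebraMap κ M c
  const_of_fix : ∀ x : M, IsIntegral κ x → (∀ g ∈ G, g x = x) → ∃ c : κ, algebraMap κ M c = x
  inv : ∀ g ∈ G, ∀ x, v (g x) = v x

section general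

variable {A : Type u} [CommRing A]

lemma isCoprime_of_eval (Q : A[X]) (a : A) (h : IsUnit (Q.eval a)) :
    IsCoprime (X - C a) Q := by
  obtain ⟨u, hu⟩ := h
  have h1 := modByMonic_add_div Q (X - C a)
  rw [modByMonic_X_sub_C_eq_C_eval] at h1
  refine ⟨-(C (↑u⁻¹ : A)) * (Q /ₘ (X - C a)), C (↑u⁻¹ : A), ?_⟩
  have h2 : (C (↑u⁻¹ : A)) * C (Q.eval a) = 1 := by
    rw [← C_mul, ← hu, Units.inv_mul, C_1]
  linear_combination (-C (↑u⁻¹ : A)) * h1 + h2

lemma isUnit_sub_of_root (Q : A[X]) (a y : A) (h : IsUnit (Q.eval a)) (hy : Q.eval y = 0) :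
    IsUnit (y - a) := by
  have h1 := sub_dvd_eval_sub a y Q
  rw [hy, sub_zero] at h1
  have h2 := isUnit_of_dvd_unit h1 h
  have h3 : y - a = -(a - y) := by ring
  rw [h3]
  exact h2.neg

end general

section

variable {p : ℕ} [Fact p.Prime] {κ : Type u} {M : Type v} [Field κ] [Field M]
    [Algebra ℚ_[p] M] [Algebra κ M] {G : Set (M ≃+* M)} {R : Subring M}
    {v : AbsoluteValue M ℝ}

/-- `x` avoids the value `c`: the difference is a unit of `R` -/
def Cusp (R : Subring M) (x c : M) : Prop := x - c ∈ R ∧ (x - c)⁻¹ ∈ R ∧ x - c ≠ 0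

lemma Cusp.isUnit {x c : M} (h : Cusp R x c) : IsUnit (⟨x - c, h.1⟩ : R) := by
  refine isUnit_iff_exists_inv.2 ⟨⟨(x - c)⁻¹, h.2.1⟩, ?_⟩
  exact Subtype.ext (mul_inv_cancel₀ h.2.2)

lemma cusp_of_isUnit {x c : M} (y : R) (hy : IsUnit y) (h : (y : M) = x - c) : Cusp R x c := by
  obtain ⟨z, hz⟩ := isUnit_iff_exists_inv.1 hy
  have h1 : (y : M) * z = 1 := congrArg Subtype.val hz
  have h2 : (y : M) ≠ 0 := left_ne_zero_of_mul_eq_one h1
  refine ⟨h ▸ y.2, ?_, h ▸ h2⟩
  rw [← h, inv_eq_of_mul_eq_one_right h1]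
  exact z.2

namespace Frame

variable (F : Frame p κ G R v)

/-- the constants in `R` -/
noncomputable def ι (F : Frame p κ G R v) : κ →+* R :=
  (algebraMap κ M).codRestrict R (fun c => F.const_mem c)

lemma ι_coe (c : κ) : ((F.ι c : R) : M) = algebraMap κ M c := rfl

lemma isUnit_ι {c : κ} (hc : c ≠ 0) : IsUnit (F.ι c) := (isUnit_iff_ne_zero.2 hc).map F.ι

/-- the polynomial whose roots are the solutions of `Φ (y) = t` -/
noncomputable def Q (F : Frame p κ G R v) (n : ℕ) (h : κ) (t : R) : R[X] :=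
  (num κ n h).map F.ι - C t * X ^ (2 * n - 1)

lemma num_natDegree (n : ℕ) (h : κ) (hn : 0 < n) : (∑ j ∈ Finset.range n,
    C (al κ n (j + 1) * h ^ (2 * (j + 1))) * X ^ (2 * (n - (j + 1))) : κ[X]).degree <
      ((2 * n - 1 : ℕ) : WithBot ℕ) := by
  refine (degree_sum_le _ _).trans_lt ?_
  rw [Finset.sup_lt_iff (WithBot.bot_lt_coe _)]
  intro j hj
  refine (degree_C_mul_X_pow_le _ _).trans_lt ?_
  rw [Nat.cast_lt]
  have := Finset.mem_range.1 hj
  omega

lemma Q_eq (n : ℕ) (h : κ) (t : R) : F.Q n h t = X ^ (2 * n) + ((∑ j ∈ Finset.range n,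
    C (al κ n (j + 1) * h ^ (2 * (j + 1))) * X ^ (2 * (n - (j + 1))) : κ[X]).map F.ι -
      C t * X ^ (2 * n - 1)) := by
  rw [Q, num_eq, Polynomial.map_add, Polynomial.map_pow, map_X, add_sub_assoc]

lemma rest_degree (n : ℕ) (h : κ) (hn : 0 < n) (t : R) : ((∑ j ∈ Finset.range n,
    C (al κ n (j + 1) * h ^ (2 * (j + 1))) * X ^ (2 * (n - (j + 1))) : κ[X]).map F.ι -
      C t * X ^ (2 * n - 1)).degree < ((2 * n : ℕ) : WithBot ℕ) := by
  refine (degree_sub_le _ _).trans_lt (max_lt ?_ ?_)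
  · refine (degree_map_le).trans_lt ((num_natDegree n h hn).trans ?_)
    rw [Nat.cast_lt]; omega
  · refine (degree_C_mul_X_pow_le _ _).trans_lt ?_
    rw [Nat.cast_lt]; omega

lemma Q_monic (n : ℕ) (h : κ) (hn : 0 < n) (t : R) : (F.Q n h t).Monic := by
  rw [Q_eq]
  exact monic_X_pow_add (F.rest_degree n h hn t)

lemma Q_natDegree [Nontrivial R] (n : ℕ) (h : κ) (hn : 0 < n) (t : R) :
    (F.Q n h t).natDegree = 2 * n := by
  rw [Q_eq]
  apply natDegree_eq_of_degree_eq_some
  rw [degree_add_eq_left_of_degree_lt, degree_X_pow]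
  rw [degree_X_pow]
  exact F.rest_degree n h hn t

lemma Q_coeff (n : ℕ) (h : κ) (hn : 0 < n) (t : R) : (F.Q n h t).coeff (2 * n - 1) = -t := by
  rw [Q_eq, coeff_add, coeff_X_pow, if_neg (by omega), zero_add, coeff_sub, coeff_C_mul,
    coeff_X_pow, if_pos rfl, mul_one, coeff_eq_zero_of_degree_lt, zero_sub]
  exact (degree_map_le).trans_lt (num_natDegree n h hn)

lemma Q_eval (n : ℕ) (h : κ) (t y : R) : (((F.Q n h t).eval y : R) : M) =
    (num M n (algebraMap κ M h)).eval (y : M) - t * (y : M) ^ (2 * n - 1) := by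
  have h1 : (((F.Q n h t).eval y : R) : M) = ((F.Q n h t).map R.subtype).eval (y : M) := by
    rw [eval_map]
    exact (hom_eval₂ (F.Q n h t) (RingHom.id R) R.subtype y)
  rw [h1, Q, Polynomial.map_sub, Polynomial.map_map, eval_sub, Polynomial.map_mul, map_C,
    Polynomial.map_pow, map_X, eval_mul, eval_C, eval_pow, eval_X]
  congr 1
  have h2 : R.subtype.comp F.ι = algebraMap κ M := rfl
  rw [h2, map_num]

/-- the values of `Q` at constants -/
lemma Q_eval_const (n : ℕ) (h : κ) (t : R) (x c : κ)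
    (hx : (num κ n h).eval x = c * x ^ (2 * n - 1)) :
    (F.Q n h t).eval (F.ι x) = F.ι (x ^ (2 * n - 1)) * (F.ι c - t) := by
  rw [Q, eval_sub, eval_mul, eval_C, eval_pow, eval_X, eval_map]
  have h1 : (num κ n h).eval₂ F.ι (F.ι x) = F.ι ((num κ n h).eval x) := by
    rw [eval₂_hom]
  rw [h1, hx, map_mul, map_pow]
  ring

/-- separability -/
lemma Q_separable [CharZero κ] (n : ℕ) (h : κ) (hn : 0 < n) (t : R)
    (h1 : IsUnit ((F.Q n h t).eval (F.ι h))) (h2 : IsUnit ((F.Q n h t).eval (F.ι (-h)))) :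
    (F.Q n h t).Separable := by
  have key : X * derivative (F.Q n h t) = F.Q n h t * C (F.ι (2 * (n : κ) - 1)) +
      ((X - C (F.ι h)) * (X - C (F.ι (-h)))) ^ n := by
    have h3 := congrArg (Polynomial.map F.ι) (num_deriv (F := κ) n h)
    rw [Polynomial.map_sub, Polynomial.map_mul, map_X, ← derivative_map, Polynomial.map_mul, map_C,
      Polynomial.map_pow, Polynomial.map_sub, Polynomial.map_pow, map_X, map_C] at h3
    have h4 : (X - C (F.ι h)) * (X - C (F.ι (-h))) = X ^ 2 - C (F.ι (h ^ 2)) := by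
      rw [map_neg, C_neg, map_pow, C_pow]
      ring
    have h5 : X * derivative (C t * X ^ (2 * n - 1) : R[X]) =
        C t * X ^ (2 * n - 1) * C (F.ι (2 * (n : κ) - 1)) := by
      rw [derivative_C_mul, derivative_X_pow]
      have h6 : (((2 * n - 1 : ℕ)) : R) = F.ι (2 * (n : κ) - 1) := by
        rw [Nat.cast_sub (by omega), map_sub, map_mul, map_natCast, map_one, map_ofNat]
        push_cast
        ring
      rw [h6]
      have h7 : (X : R[X]) ^ (2 * n - 1) = X * X ^ (2 * n - 1 - 1) := by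
        rw [← pow_succ']
        congr 1
        omega
      rw [h7]
      ring
    rw [h4, Q, derivative_sub, mul_sub, h5]
    linear_combination h3
  have hc : IsCoprime (F.Q n h t) (((X - C (F.ι h)) * (X - C (F.ι (-h)))) ^ n) := by
    apply IsCoprime.pow_right
    exact (isCoprime_of_eval _ _ h1).symm.mul_right (isCoprime_of_eval _ _ h2).symm
  have h6 : IsCoprime (F.Q n h t) (X * derivative (F.Q n h t)) := by
    rw [key]
    exact (IsCoprime.mul_add_left_right_iff).2 hc
  exact h6.of_mul_right_right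

end Frame

end

end Vale.Agent.P025.R2.H637
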