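import Vale.Agent.P025.R2.H637.OutRing
import Vale.Agent.P025.R2.H637.Contra
import Vale.Agent.P025.H641.OKum2

/-! # The frame attached to an invariant absolute value -/

open IntermediateField Polynomial P025H641

namespace Vale.Agent.P025.R2.H637

universe u v w

section rad

variable {p : ℕ} [Fact p.Prime] {κ : Type u} {M : Type v} [Field κ] [Field M]
    [Algebra ℚ_[p] M] [Algebra κ M] {G : Set (M ≃+* M)} {R : Subring M}
    {v : AbsoluteValue M ℝ} [Algebra ℚ_[p] κ] [IsScalarTower ℚ_[p] κ M]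
    [FiniteDimensional ℚ_[p] κ] [IsGalois ℚ_[p] κ]

/-- Galois extensions of `ℚ_p` which contain the `p`-th roots of unity are generated by radicals
over each subfield. -/
theorem Frame.rad (F : Frame p κ G R v) (hsplit : ∀ P : κ[X], (P.map (algebraMap κ M)).Splits)
    {ζ : κ} (hζ : IsPrimitiveRoot ζ p) : Rad p κ := by
  classical
  have hpp : p.Prime := Fact.out
  have hchark : CharZero κ := charZero_of_injective_algebraMap (algebraMap ℚ_[p] κ).injective
  have hv := F.na
  let inst1 : NontriviallyNormedField κ := spectralNorm.nontriviallyNormedField ℚ_[p] κ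
  have hu : IsUltrametricDist κ :=
    IsUltrametricDist.isUltrametricDist_of_isNonarchimedean_norm isNonarchimedean_spectralNorm
  have hproper : ProperSpace κ := by
    let _ : NormedAlgebra ℚ_[p] κ := spectralNorm.normedAlgebra ℚ_[p] κ
    exact FiniteDimensional.proper ℚ_[p] κ
  have hw : ∀ c : κ, v (algebraMap κ M c) = ‖c‖ := fun c => v_const F.ext c
  intro A hA
  refine rad_normed (F₀ := ℚ_[p]) (p := p) ?_ ?_ ?_ hζ A hA
  · intro l hl hlp
    rw [← hw, map_natCast]
    have h2 := F.ext (l : ℚ_[p])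
    rw [map_natCast] at h2
    rw [h2, Padic.norm_natCast_eq_one_iff]
    exact (Nat.coprime_primes hpp hl).2 (Ne.symm hlp)
  · intro σ x
    exact (spectralNorm_eq_of_equiv σ x).symm
  · intro n hn hn1 u hu1
    have h1 := hsplit (X ^ n - C u)
    rw [Polynomial.map_sub, Polynomial.map_pow, map_X, map_C] at h1
    have h2 : v (algebraMap κ M u - 1) < 1 ^ n := by
      rw [one_pow, ← map_one (algebraMap κ M), ← map_sub, hw]
      exact hu1
    obtain ⟨z, hz, hz1⟩ := exists_root_near_one hn h1 one_pos h2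
    have hvn : v (n : M) = 1 := by
      rw [← map_natCast (algebraMap κ M), hw]
      exact hn1
    have hfix : ∀ g ∈ G, g z = z := by
      intro g hg
      refine hv.root_unique (n := n) (q := v (z - 1)) (by rw [hvn]; exact hz1) ?_ le_rfl ?_
      · have h5 : g z - 1 = g (z - 1) := by rw [map_sub, map_one]
        rw [h5, F.inv g hg]
      · rw [← map_pow, hz, F.fix_const g hg]
    have hint : IsIntegral κ z :=
      IsIntegral.of_pow hn (by rw [hz]; exact isIntegral_algebraMap)
    obtain ⟨ρ, rfl⟩ := F.const_of_fix z hint hfix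
    refine ⟨ρ, (algebraMap κ M).injective (by rw [map_pow, hz]), ?_⟩
    rw [← hw, map_sub, map_one]
    exact hz1

end rad

section field

variable {p : ℕ} [Fact p.Prime] {k : Type u} [Field k] [Algebra ℚ_[p] k]
  [FiniteDimensional ℚ_[p] k] {M : Type v} [Field M] [Algebra k M] [Algebra ℚ_[p] M]
  [IsScalarTower ℚ_[p] k M]

/-- a finite Galois extension of `ℚ_p` in `M`, containing `k` and the `p`-th roots of unity -/
theorem exists_gal_field (hsplit : ∀ P : ℚ_[p][X], (P.map (algebraMap ℚ_[p] M)).Splits)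
    (β : M) (hβ : IsIntegral k β) :
    ∃ κ : IntermediateField ℚ_[p] M, FiniteDimensional ℚ_[p] κ ∧ IsGalois ℚ_[p] κ ∧
      (∃ ζ : κ, IsPrimitiveRoot ζ p) ∧ (∀ c : k, algebraMap k M c ∈ κ) ∧ β ∈ κ ∧
      ∃ α : M, IsIntegral k α ∧ ∀ x : M, x ∈ κ ↔ x ∈ k⟮α⟯ := by
  classical
  have hpp : p.Prime := Fact.out
  have hcharM : CharZero M := charZero_of_injective_algebraMap (algebraMap ℚ_[p] M).injective
  obtain ⟨θ, hθ⟩ := Field.exists_primitive_element ℚ_[p] k
  have hθint : IsIntegral ℚ_[p] θ := Algebra.IsIntegral.isIntegral θ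
  have hβint : IsIntegral ℚ_[p] β := by
    have : Algebra.IsIntegral ℚ_[p] k := inferInstance
    exact isIntegral_trans (R := ℚ_[p]) (A := k) β hβ
  set g : ℚ_[p][X] := minpoly ℚ_[p] θ * cyclotomic p ℚ_[p] * minpoly ℚ_[p] β with hg
  have hg0 : g ≠ 0 := mul_ne_zero (mul_ne_zero (minpoly.ne_zero hθint) (cyclotomic_ne_zero p _))
    (minpoly.ne_zero hβint)
  have hgs := hsplit g
  have hsf := IntermediateField.adjoin_rootSet_isSplittingField hgs
  set κ : IntermediateField ℚ_[p] M := adjoin ℚ_[p] (g.rootSet M) with hκ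
  have hfin : FiniteDimensional ℚ_[p] κ := IsSplittingField.finiteDimensional κ g
  have hnorm : Normal ℚ_[p] κ := Normal.of_isSplittingField g
  have hgal : IsGalois ℚ_[p] κ := ⟨⟩
  have hroot : ∀ x : M, aeval x g = 0 → x ∈ κ := fun x hx =>
    IntermediateField.subset_adjoin _ _ (mem_rootSet.2 ⟨hg0, hx⟩)
  -- `k ⊆ κ`
  have hk : ∀ c : k, algebraMap k M c ∈ κ := by
    intro c
    have h1 : (⊤ : IntermediateField ℚ_[p] k) ≤ κ.comap (IsScalarTower.toAlgHom ℚ_[p] k M) := by
      rw [← hθ, adjoin_simple_le_iff]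
      show algebraMap k M θ ∈ κ
      apply hroot
      rw [hg, map_mul, map_mul]
      have h2 : aeval (algebraMap k M θ) (minpoly ℚ_[p] θ) = 0 := by
        rw [aeval_algebraMap_apply, minpoly.aeval, map_zero]
      rw [h2, zero_mul, zero_mul]
    exact h1 (IntermediateField.mem_top (x := c))
  -- roots of unity
  obtain ⟨ζ, hζ⟩ : ∃ ζ : M, IsPrimitiveRoot ζ p := by
    have h1 := hsplit (cyclotomic p ℚ_[p])
    rw [map_cyclotomic] at h1
    obtain ⟨ζ, hζ⟩ := h1.exists_eval_eq_zero (by
      rw [degree_cyclotomic, Nat.totient_prime hpp]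
      have := hpp.two_le
      intro h
      have h3 : p - 1 = 0 := by exact_mod_cast h
      omega)
    have : NeZero ((p : ℕ) : M) := ⟨Nat.cast_ne_zero.2 hpp.ne_zero⟩
    exact ⟨ζ, isRoot_cyclotomic_iff.1 hζ⟩
  have hβκ : β ∈ κ := by
    apply hroot
    rw [hg, map_mul, minpoly.aeval, mul_zero]
  have hζκ : ζ ∈ κ := by
    apply hroot
    rw [hg, map_mul, map_mul]
    have h2 : aeval ζ (cyclotomic p ℚ_[p]) = 0 := by
      rw [aeval_def, eval₂_eq_eval_map, map_cyclotomic]
      have : NeZero ((p : ℕ) : M) := ⟨Nat.cast_ne_zero.2 hpp.ne_zero⟩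
      exact isRoot_cyclotomic_iff.2 hζ
    rw [h2, mul_zero, zero_mul]
  obtain ⟨α, hα⟩ := Field.exists_primitive_element ℚ_[p] κ
  have hαint : IsIntegral k (α : M) := by
    have h1 : IsIntegral ℚ_[p] α := Algebra.IsIntegral.isIntegral α
    have h2 : IsIntegral ℚ_[p] (α : M) := h1.map κ.val
    exact h2.tower_top
  refine ⟨κ, hfin, hgal, ⟨⟨ζ, hζκ⟩, ?_⟩, hk, hβκ, α, hαint, ?_⟩
  · rw [← IsPrimitiveRoot.coe_submonoidClass_iff]
    exact hζ
  · intro x
    constructor
    · intro hx
      have h1 : (⊤ : IntermediateField ℚ_[p] κ) ≤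
          ((k⟮(α : M)⟯).restrictScalars ℚ_[p]).comap κ.val := by
        rw [← hα, adjoin_simple_le_iff]
        exact IntermediateField.mem_adjoin_simple_self k (α : M)
      exact h1 (IntermediateField.mem_top (x := (⟨x, hx⟩ : κ)))
    · intro hx
      have h1 : k⟮(α : M)⟯ ≤ κ.toSubfield.toIntermediateField (fun c => hk c) := by
        rw [adjoin_simple_le_iff]
        exact α.2
      exact h1 hx

end field

end Vale.Agent.P025.R2.H637
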