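import Vale.Agent.P025.R2.H637.Create
import Vale.Agent.P025.R2.H637.NearOne

/-! # Creating new cusps: Kummer maps -/

open Polynomial

namespace Vale.Agent.P025.R2.H637

universe u v

section poly

variable {A : Type u} [CommRing A]

/-- the polynomial `u₁ (X + e) ^ n + u₂ (X - e) ^ n` -/
noncomputable def KP (n : ℕ) (e u₁ u₂ : A) : A[X] :=
  C u₁ * (X + C e) ^ n + C u₂ * (X - C e) ^ n

lemma KP_eval (n : ℕ) (e u₁ u₂ y : A) :
    (KP n e u₁ u₂).eval y = u₁ * (y + e) ^ n + u₂ * (y - e) ^ n := by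
  rw [KP]
  simp

lemma KP_map {B : Type v} [CommRing B] (f : A →+* B) (n : ℕ) (e u₁ u₂ : A) :
    (KP n e u₁ u₂).map f = KP n (f e) (f u₁) (f u₂) := by
  simp [KP]

lemma KP_coeff (n : ℕ) (e u₁ u₂ : A) (k : ℕ) : (KP n e u₁ u₂).coeff k =
    u₁ * (e ^ (n - k) * n.choose k) + u₂ * ((-e) ^ (n - k) * n.choose k) := by
  have h1 : (X - C e : A[X]) = X + C (-e) := by rw [C_neg, sub_eq_add_neg]
  rw [KP, h1, coeff_add, coeff_C_mul, coeff_C_mul, coeff_X_add_C_pow, coeff_X_add_C_pow]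

lemma KP_natDegree_le (n : ℕ) (e u₁ u₂ : A) : (KP n e u₁ u₂).natDegree ≤ n := by
  rw [natDegree_le_iff_coeff_eq_zero]
  intro k hk
  rw [KP_coeff, Nat.choose_eq_zero_of_lt hk]
  simp

lemma KP_monic (n : ℕ) (e u₁ u₂ : A) (hu : u₁ + u₂ = 1) : (KP n e u₁ u₂).Monic := by
  apply monic_of_natDegree_le_of_coeff_eq_one n (KP_natDegree_le n e u₁ u₂)
  rw [KP_coeff, Nat.choose_self, Nat.sub_self]
  simp [hu]

lemma KP_natDegree [Nontrivial A] (n : ℕ) (e u₁ u₂ : A) (hu : u₁ + u₂ = 1) :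
    (KP n e u₁ u₂).natDegree = n := by
  apply natDegree_eq_of_le_of_coeff_ne_zero (KP_natDegree_le n e u₁ u₂)
  rw [KP_coeff, Nat.choose_self, Nat.sub_self]
  simp [hu]

lemma KP_nextCoeff [Nontrivial A] (n : ℕ) (hn : 0 < n) (e u₁ u₂ : A) (hu : u₁ + u₂ = 1) :
    (KP n e u₁ u₂).nextCoeff = n * e * (u₁ - u₂) := by
  rw [nextCoeff_of_natDegree_pos (by rw [KP_natDegree n e u₁ u₂ hu]; exact hn),
    KP_natDegree n e u₁ u₂ hu, KP_coeff]
  obtain ⟨m, rfl⟩ : ∃ m, n = m + 1 := ⟨n - 1, by omega⟩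
  have h1 : (m + 1) - (m + 1 - 1) = 1 := by omega
  rw [h1, Nat.add_sub_cancel, Nat.choose_succ_self_right]
  push_cast
  ring

/-- separability -/
lemma KP_separable (n : ℕ) (e u₁ u₂ : A) (h1 : IsUnit u₁) (h2 : IsUnit u₂)
    (he : IsUnit (2 * e)) (hnu : IsUnit (n : A)) : (KP n e u₁ u₂).Separable := by
  have hder : derivative (KP n e u₁ u₂) =
      C u₁ * (C (n : A) * (X + C e) ^ (n - 1)) + C u₂ * (C (n : A) * (X - C e) ^ (n - 1)) := by
    rw [KP, derivative_add, derivative_C_mul, derivative_C_mul, derivative_X_add_C_pow,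
      derivative_X_sub_C_pow]
  rcases Nat.eq_zero_or_pos n with rfl | hn
  · have h3 : Subsingleton A := by
      rw [Nat.cast_zero, isUnit_zero_iff] at hnu
      exact subsingleton_of_zero_eq_one hnu
    exact ⟨0, 0, Subsingleton.elim _ _⟩
  obtain ⟨m, rfl⟩ : ∃ m, n = m + 1 := ⟨n - 1, by omega⟩
  obtain ⟨v₁, hv₁⟩ := isUnit_iff_exists_inv.1 h1
  obtain ⟨v₂, hv₂⟩ := isUnit_iff_exists_inv.1 h2
  obtain ⟨d, hd⟩ := isUnit_iff_exists_inv.1 he
  obtain ⟨l, hl⟩ := isUnit_iff_exists_inv.1 hnu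
  have hv₁' : (C u₁ : A[X]) * C v₁ = 1 := by rw [← C_mul, hv₁, C_1]
  have hv₂' : (C u₂ : A[X]) * C v₂ = 1 := by rw [← C_mul, hv₂, C_1]
  have hd' : (2 : A[X]) * C e * C d = 1 := by
    have : (2 : A[X]) = C 2 := (map_ofNat C 2).symm
    rw [this, ← C_mul, ← C_mul, hd, C_1]
  have hl' : (C ((m + 1 : ℕ) : A) : A[X]) * C l = 1 := by rw [← C_mul, hl, C_1]
  have hcop : IsCoprime ((X + C e : A[X]) ^ m) ((X - C e) ^ m) := by
    apply IsCoprime.pow
    refine ⟨C d, -C d, ?_⟩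
    linear_combination hd'
  obtain ⟨r, s, hrs⟩ := hcop
  rw [Nat.add_sub_cancel] at hder
  have e1 : (X + C e : A[X]) ^ m = C v₁ * C d * (KP (m + 1) e u₁ u₂ -
      (X - C e) * C l * derivative (KP (m + 1) e u₁ u₂)) := by
    rw [hder, KP, pow_succ, pow_succ]
    linear_combination (-(X + C e) ^ m * C u₁ * C v₁ * C d * (X + C e) +
      (X - C e) * (C u₁ * (X + C e) ^ m + C u₂ * (X - C e) ^ m) * C v₁ * C d +
      (X + C e) ^ m * C u₁ * C v₁ * C d * (X + C e) -
      (X - C e) * (C u₁ * (X + C e) ^ m + C u₂ * (X - C e) ^ m) * C v₁ * C d) * hl' +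
      (C u₁ * (X + C e) ^ m + C u₂ * (X - C e) ^ m) * (X - C e) * C v₁ * C d * hl' -
      (X + C e) ^ m * hd' - 2 * C e * C d * (X + C e) ^ m * hv₁'
  have e2 : (X - C e : A[X]) ^ m = -(C v₂ * C d * (KP (m + 1) e u₁ u₂ -
      (X + C e) * C l * derivative (KP (m + 1) e u₁ u₂))) := by
    rw [hder, KP, pow_succ, pow_succ]
    linear_combination -(C u₁ * (X + C e) ^ m + C u₂ * (X - C e) ^ m) * (X + C e) * C v₂ * C d * hl' -
      (X - C e) ^ m * hd' - 2 * C e * C d * (X - C e) ^ m * hv₂'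
  refine ⟨r * C v₁ * C d - s * C v₂ * C d,
    - r * C v₁ * C d * (X - C e) * C l + s * C v₂ * C d * (X + C e) * C l, ?_⟩
  rw [← hrs]
  linear_combination (-r) * e1 - s * e2

end poly

section root

variable {M : Type u} [Field M] {v : AbsoluteValue M ℝ}

/-- the auxiliary element `z = (y + e) / (y - e)` -/
lemma z_near (hv : NA v) {e y : M} {τ : ℝ} (hτ : 0 < τ) (he : v e < τ) (hy : τ ≤ v y) :
    y - e ≠ 0 ∧ v ((y + e) / (y - e) - 1) ≤ v e / τ ∧ v (y - e) = v y := by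
  have h1 : v (y - e) = v y := hv.sub_eq (he.trans_le hy)
  have h2 : y - e ≠ 0 := by
    intro h0
    rw [h0, v.map_zero] at h1
    linarith
  refine ⟨h2, ?_, h1⟩
  have h3 : (y + e) / (y - e) - 1 = 2 * e / (y - e) := by
    field_simp
    ring
  rw [h3, map_div₀, h1, v.map_mul]
  have h4 : v (2 : M) ≤ 1 := by exact_mod_cast hv.natCast_le 2
  calc v 2 * v e / v y ≤ 1 * v e / v y := by
        gcongr
    _ ≤ 1 * v e / τ := div_le_div_of_nonneg_left (by rw [one_mul]; exact v.nonneg _) hτ hy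
    _ = v e / τ := by rw [one_mul]

/-- the equation in terms of `z` -/
lemma z_pow {n : ℕ} {e u₁ u₂ y : M} (hu₁ : u₁ ≠ 0) (hy : y - e ≠ 0)
    (h : (KP n e u₁ u₂).eval y = 0) : ((y + e) / (y - e)) ^ n = -u₂ / u₁ := by
  rw [KP_eval] at h
  rw [div_pow, div_eq_div_iff (pow_ne_zero _ hy) hu₁]
  linear_combination h

/-- uniqueness of the root -/
lemma kum_unique (hv : NA v) {n : ℕ} {e u₁ u₂ y y' : M} {τ : ℝ} (hτ : 0 < τ)
    (he0 : 2 * e ≠ 0) (he : v e < v (n : M) * τ) (hu₁ : u₁ ≠ 0) (hy : τ ≤ v y) (hy' : τ ≤ v y')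
    (h : (KP n e u₁ u₂).eval y = 0) (h' : (KP n e u₁ u₂).eval y' = 0) : y = y' := by
  have hn1 := hv.natCast_le (M := M) n
  have heτ : v e < τ := by
    calc v e < v (n : M) * τ := he
      _ ≤ 1 * τ := mul_le_mul_of_nonneg_right hn1 hτ.le
      _ = τ := one_mul τ
  obtain ⟨h1, h2, -⟩ := z_near hv hτ heτ hy
  obtain ⟨h1', h2', -⟩ := z_near hv hτ heτ hy'
  have h3 : (y + e) / (y - e) = (y' + e) / (y' - e) := by
    refine hv.root_unique (n := n) ?_ h2 h2' ?_
    · rw [div_lt_iff₀ hτ]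
      exact he
    · rw [z_pow hu₁ h1 h, z_pow hu₁ h1' h']
  rw [div_eq_div_iff h1 h1'] at h3
  have h4 : (2 * e) * (y - y') = 0 := by linear_combination -h3
  exact sub_eq_zero.1 ((mul_eq_zero.1 h4).resolve_left he0)

/-- location of the root -/
lemma kum_near (hv : NA v) {n : ℕ} {e y t : M} (hn0 : (n : M) ≠ 0) (ht : t ≠ 0)
    (h2e : 2 * e ≠ 0) (he : v e < v (n : M) * v t) (hy : v t ≤ v y)
    (h : (KP n e ((n * e - t) / (2 * n * e)) ((n * e + t) / (2 * n * e))).eval y = 0) :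
    v (y - t) ≤ v e / v (n : M) := by
  have hτ : 0 < v t := v.pos ht
  have hnv : 0 < v (n : M) := v.pos hn0
  have hn1 := hv.natCast_le (M := M) n
  have h21 : v (2 : M) ≤ 1 := by exact_mod_cast hv.natCast_le 2
  have heτ : v e < v t := by
    calc v e < v (n : M) * v t := he
      _ ≤ 1 * v t := mul_le_mul_of_nonneg_right hn1 hτ.le
      _ = v t := one_mul _
  have hne : v (n * e) < v t := by
    rw [v.map_mul]
    calc v (n : M) * v e ≤ 1 * v e := mul_le_mul_of_nonneg_right hn1 (v.nonneg _)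
      _ = v e := one_mul _
      _ < v t := heτ
  have ht1 : v (t - n * e) = v t := hv.sub_eq hne
  have ht2 : t - n * e ≠ 0 := by
    intro h0
    rw [h0, v.map_zero] at ht1
    linarith
  have hu₁ : (n * e - t) / (2 * n * e) ≠ 0 := by
    apply div_ne_zero
    · rw [← neg_sub]
      exact neg_ne_zero.2 ht2
    · intro h0
      have h3 : (n : M) * (2 * e) = 0 := by linear_combination h0
      exact (mul_ne_zero hn0 h2e) h3
  obtain ⟨h1, h2, h3⟩ := z_near hv hτ heτ hy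
  have hy0 : 0 < v y := hτ.trans_le hy
  set z := (y + e) / (y - e) with hz
  have hz1 : z - 1 = 2 * e / (y - e) := by
    rw [hz]
    field_simp
    ring
  have hvz : v (z - 1) = v (2 * e) / v y := by rw [hz1, map_div₀, h3]
  have hvz1 : v (z - 1) ≤ 1 := h2.trans (by
    rw [div_le_one hτ]
    exact heτ.le)
  have h4 := z_pow hu₁ h1 h
  have hden : 2 * (n : M) * e ≠ 0 := by
    intro h0
    have h3 : (n : M) * (2 * e) = 0 := by linear_combination h0
    exact (mul_ne_zero hn0 h2e) h3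
  have h5 : z ^ n - 1 - n * (z - 1) =
      (2 * e) * n * ((y - t) + (n - 1) * e) / ((t - n * e) * (y - e)) := by
    have h6 : -((n * e + t) / (2 * n * e)) / ((n * e - t) / (2 * n * e)) =
        (t + n * e) / (t - n * e) := by
      rw [neg_div, div_div_div_cancel_right₀ hden, ← neg_sub t (n * e), div_neg, neg_neg,
        add_comm]
    rw [h4, h6, hz1]
    field_simp
    ring
  have h6 := hv.expand hvz1 n
  rw [h5, map_div₀, v.map_mul (t - n * e), v.map_mul (2 * e * n), v.map_mul (2 * e), ht1, h3,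
    hvz] at h6
  have h2e0 : 0 < v (2 * e) := v.pos h2e
  have h7 : v (n : M) * v ((y - t) + (n - 1) * e) ≤ v (2 * e) := by
    rw [div_pow, div_le_div_iff₀ (by positivity) (by positivity)] at h6
    have h8 : v (2 * e) * (v y * (v (n : M) * v ((y - t) + (n - 1) * e) * v y)) ≤
        v (2 * e) * (v y * (v (2 * e) * v t)) := by
      linarith
    have h9 := le_of_mul_le_mul_left (le_of_mul_le_mul_left h8 h2e0) hy0
    have h10 : v (n : M) * v ((y - t) + (n - 1) * e) * v y ≤ v (2 * e) * v y :=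
      h9.trans (mul_le_mul_of_nonneg_left hy h2e0.le)
    exact le_of_mul_le_mul_right h10 hy0
  have h8 : v (2 * e) ≤ v e := by
    rw [v.map_mul]
    calc v 2 * v e ≤ 1 * v e := mul_le_mul_of_nonneg_right h21 (v.nonneg _)
      _ = v e := one_mul _
  have h9 : v ((y - t) + (n - 1) * e) ≤ v e / v (n : M) := by
    rw [le_div_iff₀ hnv]
    linarith
  have h10 : v ((n - 1) * e) ≤ v e / v (n : M) := by
    rw [v.map_mul, le_div_iff₀ hnv]
    have h11 : v ((n : M) - 1) ≤ 1 := hv.sub_le hn1 (by rw [v.map_one])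
    calc v ((n : M) - 1) * v e * v (n : M) ≤ 1 * v e * 1 := by
          gcongr
      _ = v e := by ring
  have h11 : y - t = ((y - t) + (n - 1) * e) - (n - 1) * e := by ring
  rw [h11]
  exact hv.sub_le h9 h10

/-- existence of a large root -/
lemma kum_exists (hv : NA v) {n : ℕ} (hn : 0 < n) {e t : M} (hn0 : (n : M) ≠ 0) (ht : t ≠ 0)
    (h2 : (2 : M) ≠ 0) (he : e ≠ 0)
    (hs : (KP n e ((n * e - t) / (2 * n * e)) ((n * e + t) / (2 * n * e))).Splits) :
    ∃ y : M, (KP n e ((n * e - t) / (2 * n * e)) ((n * e + t) / (2 * n * e))).eval y = 0 ∧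
      v t ≤ v y := by
  have ht0 : 0 < v t := v.pos ht
  have hu : (n * e - t) / (2 * n * e) + (n * e + t) / (2 * n * e) = 1 := by
    rw [← add_div]
    field_simp
    ring
  have hmon := KP_monic n e _ _ hu
  have h1 := hs.nextCoeff_eq_neg_sum_roots_of_monic hmon
  rw [KP_nextCoeff n hn e _ _ hu] at h1
  have h3 : (KP n e ((n * e - t) / (2 * n * e)) ((n * e + t) / (2 * n * e))).roots.sum = t := by
    have h4 : (n : M) * e * ((n * e - t) / (2 * n * e) - (n * e + t) / (2 * n * e)) = -t := by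
      rw [← sub_div]
      field_simp
      ring
    rw [h4] at h1
    linear_combination h1
  by_contra hcon
  push Not at hcon
  have h4 := hv.multiset_sum_lt _ ht0 (fun x hx => hcon x (isRoot_of_mem_roots hx))
  rw [h3] at h4
  exact lt_irrefl _ h4

end root

end Vale.Agent.P025.R2.H637
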