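import Vale.Agent.P025.R2.H637.MaxOut
import Vale.Agent.P025.H641.OKum2
import Vale.Agent.P025.H641.Every

/-! # Stable valuation rings containing the constants -/

open IntermediateField Polynomial P025H641
open scoped algebraAdjoinAdjoin

namespace Vale.Agent.P025.R2.H637

universe u v w

section alg

variable {k : Type u} [Field k] {E : Type v} [Field E] [Algebra k E]

/-- a field of transcendence degree one is algebraic over each transcendental element -/
lemma isAlgebraic_simple {M : Type v} [Field M] [Algebra E M] [Algebra k M] [IsScalarTower k E M]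
    [Algebra.IsAlgebraic E M] (hE : IsFunctionField k E) (x : M) (hx : Transcendental k x) :
    Algebra.IsAlgebraic k⟮x⟯ M := by
  classical
  obtain ⟨t, ht, hfin⟩ := hE
  set t' : M := algebraMap E M t with ht'
  -- `M` is algebraic over `k[t']`
  have h1 : Algebra.IsAlgebraic (Algebra.adjoin k {t'}) M := by
    refine ⟨fun y => ?_⟩
    have halg1 : Algebra.IsAlgebraic k⟮t⟯ E := inferInstance
    have halg2 : Algebra.IsAlgebraic k⟮t⟯ M := Algebra.IsAlgebraic.trans k⟮t⟯ E M
    have h2 : IsAlgebraic k⟮t⟯ y := Algebra.IsAlgebraic.isAlgebraic y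
    have h3 : IsAlgebraic (Algebra.adjoin k {t}) y := by
      have hfr : IsFractionRing (Algebra.adjoin k {t}) k⟮t⟯ := inferInstance
      have htow : IsScalarTower (Algebra.adjoin k {t}) k⟮t⟯ M := inferInstance
      exact (IsFractionRing.isAlgebraic_iff (Algebra.adjoin k {t}) k⟮t⟯ M).2 h2
    obtain ⟨P, hP0, hP⟩ := h3
    let φ : Algebra.adjoin k {t} →+* Algebra.adjoin k {t'} :=
      ((algebraMap E M).comp (Algebra.adjoin k {t}).subtype).codRestrict
        (Algebra.adjoin k {t'}).toSubring (by
          rintro ⟨a, ha⟩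
          have h4 : (IsScalarTower.toAlgHom k E M) a ∈ (Algebra.adjoin k {t}).map
            (IsScalarTower.toAlgHom k E M) := ⟨a, ha, rfl⟩
          rw [AlgHom.map_adjoin, Set.image_singleton] at h4
          exact h4)
    have hφ : Function.Injective φ := by
      intro a b hab
      apply Subtype.ext
      apply (algebraMap E M).injective
      exact congrArg Subtype.val hab
    refine ⟨P.map φ, (Polynomial.map_ne_zero_iff hφ).2 hP0, ?_⟩
    rw [aeval_def, eval₂_map]
    rw [aeval_def] at hP
    exact hP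
  have h2 : Algebra.trdeg k M ≤ Cardinal.mk ({t'} : Set M) :=
    Algebra.IsAlgebraic.trdeg_le_cardinalMk k {t'}
  rw [Cardinal.mk_singleton] at h2
  have h3 : AlgebraicIndependent k (fun _ : PUnit.{v+1} => x) :=
    (algebraicIndependent_unique_type_iff).2 hx
  have h4 := h3.isTranscendenceBasis_of_trdeg_le_of_finite (by
    rw [Cardinal.mk_punit]; exact h2)
  have h5 := h4.isAlgebraic_field
  rwa [Set.range_const] at h5

end alg

section mem

/-- valuation rings are integrally closed -/
lemma mem_of_integral {F : Type w} [Field F] (W : ValuationSubring F) {L : Type*} [Field L]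
    [Algebra L F] (hL : ∀ c : L, algebraMap L F c ∈ W) (x : F) (hx : IsIntegral L x) : x ∈ W := by
  obtain ⟨P, hP, hPx⟩ := hx
  let ι : L →+* W := (algebraMap L F).codRestrict W.toSubring hL
  have hint : IsIntegral W x := by
    refine ⟨P.map ι, hP.map _, ?_⟩
    rw [eval₂_map]
    exact hPx
  obtain ⟨y, hy⟩ := IsIntegrallyClosed.isIntegral_iff.mp hint
  rw [← hy]
  exact y.2

end mem

section stable

variable {k : Type u} {E : Type v} [Field k] [CharZero k] [Field E] [Algebra k E]
  {M : IntermediateField E (AlgebraicClosure E)} [Normal E M]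
  {s : Gal(constClosure k E/k) →* Gal(M/E)}

/-- constants fixed by the section lie in `k` -/
lemma const_of_fixed (hM : ConstIn k M) (hs : IsSecOf k M s) {x : M} (hx : IsIntegral k x)
    (hfix : ∀ σ, s σ x = x) : ∃ c : k, algebraMap k M c = x := by
  have B0 := baseM_cyc hM hs (ζ := 1) isIntegral_one
  obtain ⟨c, hc1⟩ := B0.ex x hx (fun σ _ => hfix σ)
  have h1 : (k⟮(1 : M)⟯ : IntermediateField k M) = ⊥ := by
    rw [IntermediateField.adjoin_simple_eq_bot_iff]
    exact one_mem _
  have h2 : (c : M) ∈ (⊥ : IntermediateField k M) := by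
    rw [← h1]
    exact c.2
  obtain ⟨d, hd⟩ := IntermediateField.mem_bot.1 h2
  exact ⟨d, hd.trans hc1⟩

omit [CharZero k] [Normal E M] in
/-- polynomials over `k` split in `M` -/
lemma splits_of_constIn (hM : ConstIn k M) (P : k[X]) : (P.map (algebraMap k M)).Splits := by
  by_cases hP0 : P = 0
  · rw [hP0, Polynomial.map_zero]
    exact Splits.zero
  refine Splits.of_splits_map (algebraMap M (AlgebraicClosure E)) (IsAlgClosed.splits _) ?_
  intro y hy
  have hy0 := isRoot_of_mem_roots hy
  rw [Polynomial.map_map, IsRoot, eval_map] at hy0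
  have h : IsIntegral k y := by
    apply IsAlgebraic.isIntegral
    exact ⟨P, hP0, hy0⟩
  exact ⟨⟨y, hM y h⟩, rfl⟩

omit [CharZero k] [Normal E M] in
/-- elements of a valuation ring are congruent to constants -/
lemma exists_const_close (hM : ConstIn k M) (hE : IsFunctionField k E) (W : ValuationSubring M)
    (hW : ∀ c : k, algebraMap k M c ∈ W) (hWtop : W ≠ ⊤) (x : M) (hx : x ∈ W) :
    ∃ a : M, IsIntegral k a ∧ W.valuation (x - a) < 1 := by
  classical
  have hunit : ∀ a : M, IsIntegral k a → a ≠ 0 → W.valuation a = 1 := by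
    intro a ha ha0
    have h1 : a ∈ W := mem_of_integral W hW a ha
    have h2 : a⁻¹ ∈ W := mem_of_integral W hW _ ha.isAlgebraic.inv.isIntegral
    apply le_antisymm ((W.valuation_le_one_iff a).2 h1)
    have h3 := (W.valuation_le_one_iff _).2 h2
    rw [map_inv₀] at h3
    exact (inv_le_one₀ (zero_lt_iff.2 ((_root_.map_ne_zero _).2 ha0))).1 h3
  -- a polynomial
  obtain ⟨P, hP0, hP⟩ : ∃ P : k[X], P ≠ 0 ∧ W.valuation (aeval x P) < 1 := by
    by_contra hcon
    push Not at hcon
    apply hWtop
    have htr : Transcendental k x := by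
      intro ⟨P, hP0, hP⟩
      have h1 := hcon P hP0
      rw [hP, map_zero] at h1
      exact absurd h1 (not_le.2 zero_lt_one)
    have halg := isAlgebraic_simple (M := M) hE x htr
    have hmem : ∀ P : k[X], aeval x P ∈ W := by
      intro P
      rw [aeval_eq_sum_range]
      refine W.toSubring.sum_mem (fun i _ => ?_)
      rw [Algebra.smul_def]
      exact W.mul_mem _ _ (hW _) (pow_mem hx i)
    rw [eq_top_iff]
    intro y _
    refine mem_of_integral W (L := k⟮x⟯) ?_ y (Algebra.IsAlgebraic.isAlgebraic (R := k⟮x⟯) y).isIntegral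
    rintro ⟨c, hc⟩
    show c ∈ W
    rw [IntermediateField.mem_adjoin_simple_iff] at hc
    obtain ⟨r, q, rfl⟩ := hc
    by_cases hq : q = 0
    · rw [hq, map_zero, div_zero]
      exact W.zero_mem
    rw [← W.valuation_le_one_iff, map_div₀]
    have h1 : W.valuation (aeval x q) = 1 :=
      le_antisymm ((W.valuation_le_one_iff _).2 (hmem q)) (hcon q hq)
    rw [h1, div_one]
    exact (W.valuation_le_one_iff _).2 (hmem r)
  have h5 : aeval x P = (P.map (algebraMap k M)).eval x := by
    rw [eval_map, aeval_def]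
  have hsp := splits_of_constIn hM P
  rw [h5, hsp.eval_eq_prod_roots, map_mul, leadingCoeff_map, hunit _ isIntegral_algebraMap
    ((_root_.map_ne_zero _).2 (leadingCoeff_ne_zero.2 hP0)), one_mul, map_multiset_prod,
    Multiset.map_map] at hP
  by_contra hcon
  push Not at hcon
  have h8 : 1 ≤ (Multiset.map (⇑W.valuation ∘ fun y => x - y)
      (P.map (algebraMap k M)).roots).prod := by
    apply Multiset.one_le_prod_of_one_le
    intro z hz
    obtain ⟨a, ha, rfl⟩ := Multiset.mem_map.1 hz
    apply hcon
    have h7 := (mem_roots'.1 ha).2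
    rw [IsRoot, eval_map, ← aeval_def] at h7
    exact IsAlgebraic.isIntegral ⟨P, hP0, h7⟩
  exact absurd hP (not_lt.2 h8)

/-- **Stable valuation rings containing the constants lie over rational places.** -/
theorem ratPlace_of_stable (hM : ConstIn k M) (hs : IsSecOf k M s) (hE : IsFunctionField k E)
    (W : ValuationSubring M) (hW : ∀ c : k, algebraMap k M c ∈ W) (hWtop : W ≠ ⊤)
    (hst : ∀ σ, ∀ x ∈ W, s σ x ∈ W) : IsRatPlace k E (W.comap (algebraMap E M)) := by
  classical
  set V₀ := W.comap (algebraMap E M) with hV₀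
  have hVk : ∀ c : k, algebraMap k E c ∈ V₀ := by
    intro c
    rw [hV₀, ValuationSubring.mem_comap, ← IsScalarTower.algebraMap_apply]
    exact hW c
  have hVtop : V₀ ≠ ⊤ := by
    intro htop
    apply hWtop
    rw [eq_top_iff]
    intro y _
    refine mem_of_integral W (L := E) ?_ y (Algebra.IsAlgebraic.isAlgebraic (R := E) y).isIntegral
    intro c
    have h1 : c ∈ V₀ := by rw [htop]; exact ValuationSubring.mem_top _
    exact h1
  -- the maximal ideal is stable
  have hmax : ∀ σ, ∀ x : M, W.valuation x < 1 → W.valuation (s σ x) < 1 := by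
    intro σ x hx
    by_contra hcon
    push Not at hcon
    have h0 : s σ x ≠ 0 := by
      intro h
      rw [h, map_zero] at hcon
      exact absurd hcon (not_le.2 zero_lt_one)
    have hx0 : x ≠ 0 := by
      rintro rfl
      exact h0 (map_zero _)
    have h1 : W.valuation (s σ x)⁻¹ ≤ 1 := by
      rw [map_inv₀]
      exact inv_le_one_of_one_le₀ hcon
    have h2 := hst σ⁻¹ _ ((W.valuation_le_one_iff _).1 h1)
    rw [← map_inv₀, map_inv] at h2
    have h3 : (s σ)⁻¹ (s σ x⁻¹) = x⁻¹ := AlgEquiv.symm_apply_apply (s σ) x⁻¹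
    rw [h3, ← W.valuation_le_one_iff, map_inv₀] at h2
    exact absurd hx (not_lt.2 ((inv_le_one₀ (zero_lt_iff.2 ((_root_.map_ne_zero _).2 hx0))).1 h2))
  refine ⟨⟨hVk, hE.dvr V₀ hVk hVtop⟩, ?_⟩
  intro f hf
  obtain ⟨a, ha, hfa⟩ := exists_const_close hM hE W hW hWtop (algebraMap E M f) hf
  have hfix : ∀ σ, s σ a = a := by
    intro σ
    have h1 := hmax σ _ hfa
    rw [map_sub, AlgEquiv.commutes] at h1
    have h2 : W.valuation (s σ a - a) < 1 := by
      have h3 : s σ a - a = (algebraMap E M f - a) - (algebraMap E M f - s σ a) := by ring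
      rw [h3]
      exact (W.valuation.map_sub _ _).trans_lt (max_lt hfa h1)
    by_contra hne
    have h0 : s σ a - a ≠ 0 := sub_ne_zero.2 hne
    have hint : IsIntegral k (s σ a - a) := by
      have h4 : IsIntegral k (s σ a) :=
        ha.map (((s σ : M ≃ₐ[E] M) : M →ₐ[E] M).restrictScalars k)
      exact h4.sub ha
    have h5 : (s σ a - a)⁻¹ ∈ W := mem_of_integral W hW _ hint.isAlgebraic.inv.isIntegral
    rw [← W.valuation_le_one_iff, map_inv₀] at h5
    exact absurd h2 (not_lt.2 ((inv_le_one₀ (zero_lt_iff.2 ((_root_.map_ne_zero _).2 h0))).1 h5))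
  obtain ⟨c, hc⟩ := const_of_fixed hM hs ha hfix
  refine ⟨c, ?_⟩
  rw [hV₀, (comap_isEquiv (F := E) W).lt_one_iff_lt_one, Valuation.comap_apply, map_sub,
    ← IsScalarTower.algebraMap_apply, hc]
  exact hfa

end stable

end Vale.Agent.P025.R2.H637
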