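import Vale.Agent.P025.R2.H637.Val
import Vale.Agent.P025.R2.H637.Place
import Vale.Agent.P025.R2.H637.Stmt

/-! # Valuative sections are geometric -/

open IntermediateField Polynomial P025H641

namespace Vale.Agent.P025.R2.H637

universe u v w

section localize

variable {M : Type v} [Field M]

/-- the localization of a valuation ring at the powers of an element -/
def localize (q : M) (O : ValuationSubring M) (hq : q ∈ O) : ValuationSubring M where
  carrier := {x | ∃ m : ℕ, q ^ m * x ∈ O}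
  mul_mem' := by
    rintro a b ⟨m, hm⟩ ⟨n, hn⟩
    refine ⟨m + n, ?_⟩
    have h1 : q ^ (m + n) * (a * b) = (q ^ m * a) * (q ^ n * b) := by rw [pow_add]; ring
    rw [h1]
    exact O.mul_mem _ _ hm hn
  one_mem' := ⟨0, by rw [pow_zero, one_mul]; exact O.one_mem⟩
  add_mem' := by
    rintro a b ⟨m, hm⟩ ⟨n, hn⟩
    refine ⟨m + n, ?_⟩
    have h1 : q ^ (m + n) * (a + b) = q ^ n * (q ^ m * a) + q ^ m * (q ^ n * b) := by
      rw [pow_add]; ring
    rw [h1]
    exact O.add_mem _ _ (O.mul_mem _ _ (pow_mem hq n) hm) (O.mul_mem _ _ (pow_mem hq m) hn)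
  zero_mem' := ⟨0, by rw [mul_zero]; exact O.zero_mem⟩
  neg_mem' := by
    rintro a ⟨m, hm⟩
    exact ⟨m, by rw [mul_neg]; exact O.neg_mem _ hm⟩
  mem_or_inv_mem' := by
    intro x
    rcases O.mem_or_inv_mem x with h | h
    · exact Or.inl ⟨0, by rw [pow_zero, one_mul]; exact h⟩
    · exact Or.inr ⟨0, by rw [pow_zero, one_mul]; exact h⟩

lemma mem_localize {q : M} {O : ValuationSubring M} {hq : q ∈ O} {x : M} :
    x ∈ localize q O hq ↔ ∃ m : ℕ, q ^ m * x ∈ O := Iff.rfl

end localize

section main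

variable {p : ℕ} [Fact p.Prime] {k : Type u} [Field k] [Algebra ℚ_[p] k]
  [FiniteDimensional ℚ_[p] k] {E : Type v} [Field E] [Algebra k E]
  {T : Set (ValuationSubring E)}

/-- **Valuative sections are geometric.** -/
theorem isGeometric_of_isValuative (hp2 : p ≠ 2) (hE : IsFunctionField k E)
    (ht : HasTripodMap k T) (s : SecOf k (maxOut k T : IntermediateField E (AlgebraicClosure E)))
    (h : ValuativeHom p s.hom) : s.IsGeometric := by
  classical
  have hpp : p.Prime := Fact.out
  have hpR : (1 : ℝ) < p := by exact_mod_cast hpp.one_lt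
  have hchar : CharZero k := charZero_of_injective_algebraMap (algebraMap ℚ_[p] k).injective
  obtain ⟨W, hW, hst⟩ := h
  obtain ⟨M, hMT⟩ : ∃ M : IntermediateField E (AlgebraicClosure E), M = maxOut k T := ⟨_, rfl⟩
  unfold HasTripodMap at ht
  revert s W ht
  rw [← hMT]
  rintro ⟨t, ht, htT⟩ s W hW hst
  have hs := s.isSecOf
  have hnorm : Normal E M := by rw [hMT]; exact normal_maxOut
  have hM : ConstIn k M := by rw [hMT]; exact constIn_maxOut
  have hst' : ∀ σ, ∀ x ∈ W, s.toHom σ x ∈ W := by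
    intro σ x hx
    exact hst σ x (s.toHom σ x) ⟨x, rfl, rfl⟩ hx
  have hpk : spectralNorm ℚ_[p] k (p : k) = (p : ℝ)⁻¹ := by
    rw [← map_natCast (algebraMap ℚ_[p] k), spectralNorm_extends, Padic.norm_p]
  have hpW : (p : M) ∈ W := by
    have h1 := (hW (p : k)).2 (by rw [hpk]; exact inv_le_one_of_one_le₀ hpR.le)
    rwa [map_natCast] at h1
  by_cases harch : ∀ x : M, ∃ m : ℕ, (p : M) ^ m * x ∈ W
  · exfalso
    let _ : Algebra ℚ_[p] M := ((algebraMap k M).comp (algebraMap ℚ_[p] k)).toAlgebra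
    have htow : IsScalarTower ℚ_[p] k M := IsScalarTower.of_algebraMap_eq (fun _ => rfl)
    obtain ⟨v, hv, hext, hinv⟩ := exists_abs_of_val (p := p) W (by
      intro c
      rw [IsScalarTower.algebraMap_apply ℚ_[p] k M, hW, spectralNorm_extends]) harch
    exact no_abs_out (k := k) hp2 hMT ht htT hs hv hext
      (fun σ x => hinv ((s.toHom σ : M ≃ₐ[E] M).toRingEquiv) (fun y hy => hst' σ y hy) x)
  · push Not at harch
    obtain ⟨x₀, hx₀⟩ := harch
    set W' := localize (p : M) W hpW with hW'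
    refine ⟨W', ratPlace_of_stable hM hs hE W' ?_ ?_ ?_, ?_⟩
    · intro c
      rw [hW', mem_localize]
      obtain ⟨m, hm⟩ := pow_unbounded_of_one_lt (spectralNorm ℚ_[p] k c) hpR
      refine ⟨m, ?_⟩
      have h1 : (p : M) ^ m * algebraMap k M c = algebraMap k M ((p : k) ^ m * c) := by
        rw [map_mul, map_pow, map_natCast]
      rw [h1, hW]
      have h2 : spectralNorm ℚ_[p] k ((p : k) ^ m * c) =
          ((p : ℝ)⁻¹) ^ m * spectralNorm ℚ_[p] k c := by
        rw [← hpk]
        let inst1 : NontriviallyNormedField k := spectralNorm.nontriviallyNormedField ℚ_[p] k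
        have h3 : ‖(p : k) ^ m * c‖ = ‖(p : k)‖ ^ m * ‖c‖ := by rw [norm_mul, norm_pow]
        exact h3
      rw [h2, inv_pow, ← div_eq_inv_mul, div_le_one₀ (by positivity)]
      exact hm.le
    · intro htop
      have h1 : x₀ ∈ W' := by rw [htop]; exact ValuationSubring.mem_top _
      obtain ⟨m, hm⟩ := h1
      exact hx₀ m hm
    · rintro σ x ⟨m, hm⟩
      refine ⟨m, ?_⟩
      have h1 := hst' σ _ hm
      rwa [map_mul, map_pow, map_natCast] at h1
    · rintro σ x y ⟨x', hx', hy⟩ ⟨m, hm⟩
      have h1 : x' = x := Subtype.ext hx'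
      rw [h1] at hy
      have h2 : s.toHom σ x = y := Subtype.ext hy
      refine ⟨m, ?_⟩
      have h3 := hst' σ _ hm
      rwa [map_mul, map_pow, map_natCast, h2] at h3

end main

end Vale.Agent.P025.R2.H637
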