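import Vale.Agent.P025.R2.H637.OutDef
import Vale.Agent.P025.H641.OTrans2
import Vale.Agent.P025.H641.Etale

/-! # The maximal extension unramified over a set of places: properties -/

open IntermediateField Polynomial P025H641

namespace Vale.Agent.P025.R2.H637

universe u v w

section same

variable {k : Type u} {E : Type v} {Ω : Type w} [Field k] [CharZero k] [Field E] [Field Ω]
  [Algebra k E] [Algebra E Ω] [Algebra k Ω] [IsScalarTower k E Ω]
  {W : ValuationSubring Ω}

/-- etale extensions have the same values -/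
lemma sameVal_etale (hV : IsPlace k E (W.comap (algebraMap E Ω))) (A : IntermediateField E Ω)
    [FiniteDimensional E A] (y : Ω) (Q : (W.comap (algebraMap A Ω))[X]) (hQ : Q.Monic)
    (hy : aeval y (Q.map (W.comap (algebraMap A Ω)).subtype) = 0) (hsep : Q.Separable) :
    SameVal W (A ⊔ E⟮y⟯) A := by
  have hintA : IsIntegral A y := by
    refine ⟨Q.map (W.comap (algebraMap A Ω)).subtype, hQ.map _, ?_⟩
    rwa [aeval_def] at hy
  have hintE : IsIntegral E y := by
    have : Algebra.IsIntegral E A := inferInstance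
    exact isIntegral_trans (R := E) (A := A) y hintA
  have hfin : FiniteDimensional E E⟮y⟯ := IntermediateField.adjoin.finiteDimensional hintE
  have hfin2 : FiniteDimensional E (A ⊔ E⟮y⟯ : IntermediateField E Ω) := finiteDimensional_sup A _
  set B := A ⊔ E⟮y⟯ with hB
  have hwB : y ∈ B := (le_sup_right : E⟮y⟯ ≤ B) (IntermediateField.mem_adjoin_simple_self E y)
  have hAB : A ≤ B := le_sup_left
  let _ : Algebra A B := (IntermediateField.inclusion hAB).toRingHom.toAlgebra
  have t1 : IsScalarTower k A B := IsScalarTower.of_algebraMap_eq (fun x => rfl)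
  have t2 : IsScalarTower E A B := IsScalarTower.of_algebraMap_eq (fun x => rfl)
  have t3 : IsScalarTower A B Ω := IsScalarTower.of_algebraMap_eq (fun x => rfl)
  have halg : Algebra.IsAlgebraic A B := Algebra.IsAlgebraic.tower_top (K := E) A
  intro x hx
  have hgen : ∀ x : B, ∃ P : A[X], x = aeval (⟨y, hwB⟩ : B) P := by
    rintro ⟨x, hx⟩
    obtain ⟨P, hP⟩ := gen_sup_simple hintA hx
    refine ⟨P, Subtype.ext ?_⟩
    have h3 := aeval_algebraMap_apply Ω (⟨y, hwB⟩ : B) P
    refine Eq.trans ?_ h3
    exact hP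
  have hcomap : W.comap (algebraMap A Ω) = (W.comap (algebraMap B Ω)).comap (algebraMap A B) := by
    ext z
    rw [ValuationSubring.mem_comap, ValuationSubring.mem_comap, ValuationSubring.mem_comap,
      ← IsScalarTower.algebraMap_apply]
  obtain ⟨z, hz⟩ := etale_value (F := A) (E := B) (place_of_fin hV B) (⟨y, hwB⟩ : B) hgen
    (W.comap (algebraMap A Ω)) hcomap Q hQ (by
      apply (algebraMap B Ω).injective
      rw [map_zero, ← hy]
      exact (aeval_algebraMap_apply Ω (⟨y, hwB⟩ : B) _).symm) (hsep.map) ⟨x, hx⟩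
  rw [comap_sub_val_iff] at hz
  exact ⟨z, z.2, hz⟩

end same

section iff

variable {k : Type u} {E : Type v} {Ω : Type w} [Field k] [CharZero k] [Field E] [Field Ω]
  [Algebra k E] [Algebra E Ω] [Algebra k Ω] [IsScalarTower k E Ω]

/-- characterization in terms of valuation rings of the big field -/
lemma isUnrOver_iff [Algebra.IsAlgebraic E Ω] {T : Set (ValuationSubring E)}
    (A : IntermediateField E Ω) [FiniteDimensional E A] :
    IsUnrOver k T A ↔ ∀ W : ValuationSubring Ω, IsPlace k E (W.comap (algebraMap E Ω)) →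
      W.comap (algebraMap E Ω) ∈ T → SameVal W A ⊥ := by
  have hcomap : ∀ W : ValuationSubring Ω, (W.comap (algebraMap A Ω)).comap (algebraMap E A) =
      W.comap (algebraMap E Ω) := by
    intro W
    ext x
    rw [ValuationSubring.mem_comap, ValuationSubring.mem_comap, ValuationSubring.mem_comap,
      ← IsScalarTower.algebraMap_apply]
  constructor
  · intro h W hV hT
    have hVA := place_of_fin hV A
    rw [SameVal.bot_iff]
    intro x hx
    obtain ⟨y, hy⟩ := h _ hVA (by rw [hcomap]; exact hT) ⟨x, hx⟩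
    rw [comap_sub_val_iff] at hy
    exact ⟨y, hy⟩
  · intro h V hV hT x
    obtain ⟨W, hW⟩ := exists_val_extension (L := Ω) V
    have hWp : IsPlace k E (W.comap (algebraMap E Ω)) := by
      rw [← hcomap, hW]
      exact hV.comap
    subst hW
    rw [hcomap] at hT
    obtain ⟨y, hy⟩ := SameVal.bot_iff.1 (h W hWp hT) x x.2
    refine ⟨y, ?_⟩
    rw [comap_sub_val_iff]
    exact hy

end iff

section maxout

variable {k : Type u} {E : Type v} [Field k] [Field E] [Algebra k E]
  {T : Set (ValuationSubring E)}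

/-- finite subextensions unramified over `T` -/
def IsFinOut (k : Type u) {E : Type v} [Field k] [Field E] [Algebra k E]
    (T : Set (ValuationSubring E)) (F : IntermediateField E (AlgebraicClosure E)) : Prop :=
  FiniteDimensional E F ∧ IsUnrOver k T F

lemma IsFinOut.le_maxOut {F : IntermediateField E (AlgebraicClosure E)}
    (hF : IsFinOut k T F) : F ≤ maxOut k T := le_sSup hF

lemma IsFinUnr.isFinOut {F : IntermediateField E (AlgebraicClosure E)} (hF : IsFinUnr k F) :
    IsFinOut k T F := ⟨hF.1, fun V hV _ x => hF.2 V hV x⟩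

lemma maxUnr_le_maxOut : maxUnr k E ≤ maxOut k T :=
  sSup_le (fun _ hF => (IsFinUnr.isFinOut hF).le_maxOut)

variable [CharZero k]

lemma IsFinOut.sup {A B : IntermediateField E (AlgebraicClosure E)}
    (hA : IsFinOut k T A) (hB : IsFinOut k T B) : IsFinOut k T (A ⊔ B) := by
  obtain ⟨hA1, hA2⟩ := hA
  obtain ⟨hB1, hB2⟩ := hB
  have hfin : FiniteDimensional E (A ⊔ B : IntermediateField E (AlgebraicClosure E)) :=
    finiteDimensional_sup _ _
  refine ⟨hfin, ?_⟩
  rw [isUnrOver_iff] at hA2 hB2 ⊢
  intro W hW hT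
  exact SameVal.sup hW A B (hA2 W hW hT) (hB2 W hW hT)

lemma IsFinOut.of_le {A B : IntermediateField E (AlgebraicClosure E)} (h : A ≤ B)
    (hB : IsFinOut k T B) : IsFinOut k T A := by
  obtain ⟨hB1, hB2⟩ := hB
  have hA1 : FiniteDimensional E A := by
    have h1 : Function.Injective (IntermediateField.inclusion h).toLinearMap :=
      IntermediateField.inclusion_injective h
    exact FiniteDimensional.of_injective _ h1
  refine ⟨hA1, ?_⟩
  rw [isUnrOver_iff] at hB2 ⊢
  intro W hW hT
  exact (hB2 W hW hT).mono h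

omit [CharZero k] in
lemma isFinOut_bot : IsFinOut k T (⊥ : IntermediateField E (AlgebraicClosure E)) :=
  IsFinUnr.isFinOut isFinUnr_bot

/-- every element of `maxOut` lies in a finite extension -/
lemma exists_finOut_mem {x : AlgebraicClosure E} (hx : x ∈ maxOut k T) :
    ∃ F : IntermediateField E (AlgebraicClosure E), IsFinOut k T F ∧ x ∈ F := by
  rw [maxOut, sSup_eq_iSup', ← SetLike.mem_coe] at hx
  have hne : Nonempty {F : IntermediateField E (AlgebraicClosure E) |
    FiniteDimensional E F ∧ IsUnrOver k T F} := ⟨⟨⊥, isFinOut_bot⟩⟩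
  rw [coe_iSup_of_directed, Set.mem_iUnion] at hx
  · obtain ⟨⟨F, hF⟩, hxF⟩ := hx
    exact ⟨F, hF, hxF⟩
  · rintro ⟨F₁, h₁⟩ ⟨F₂, h₂⟩
    exact ⟨⟨F₁ ⊔ F₂, IsFinOut.sup h₁ h₂⟩, le_sup_left, le_sup_right⟩

/-- finitely many elements of `maxOut` -/
lemma exists_finOut_subset (S : Finset (AlgebraicClosure E))
    (hS : ∀ x ∈ S, x ∈ maxOut k T) :
    ∃ F : IntermediateField E (AlgebraicClosure E), IsFinOut k T F ∧ ∀ x ∈ S, x ∈ F := by
  classical
  induction S using Finset.induction_on with
  | empty => exact ⟨⊥, isFinOut_bot, by simp⟩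
  | insert a S _ ih =>
    obtain ⟨F₁, h₁, hm₁⟩ := ih (fun x hx => hS x (Finset.mem_insert_of_mem hx))
    obtain ⟨F₂, h₂, hm₂⟩ := exists_finOut_mem (hS a (Finset.mem_insert_self _ _))
    refine ⟨F₁ ⊔ F₂, h₁.sup h₂, fun x hx => ?_⟩
    rcases Finset.mem_insert.1 hx with rfl | hx
    · exact (le_sup_right : F₂ ≤ F₁ ⊔ F₂) hm₂
    · exact (le_sup_left : F₁ ≤ F₁ ⊔ F₂) (hm₁ x hx)

/-- finite subextensions of `maxOut` -/
lemma isFinOut_of_le_maxOut {A : IntermediateField E (AlgebraicClosure E)}
    [hfin : FiniteDimensional E A] (h : A ≤ maxOut k T) : IsFinOut k T A := by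
  classical
  obtain ⟨S, hS⟩ := IntermediateField.fg_of_fg_toSubalgebra A
    (Subalgebra.fg_of_fg_toSubmodule (Module.Finite.iff_fg.1 (inferInstance : Module.Finite E A)))
  obtain ⟨F, hF, hm⟩ := exists_finOut_subset (k := k) (T := T) S (by
    intro x hx
    apply h
    rw [← hS]
    exact IntermediateField.subset_adjoin E _ hx)
  refine hF.of_le ?_
  rw [← hS, IntermediateField.adjoin_le_iff]
  exact hm

/-- conjugates -/
lemma IsFinOut.map {A : IntermediateField E (AlgebraicClosure E)} (hA : IsFinOut k T A)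
    (σ : AlgebraicClosure E →ₐ[E] AlgebraicClosure E) : IsFinOut k T (A.map σ) := by
  obtain ⟨hA1, hA2⟩ := hA
  have hfin : FiniteDimensional E (A.map σ) :=
    LinearEquiv.finiteDimensional (IntermediateField.equivMap A σ).toLinearEquiv
  refine ⟨hfin, ?_⟩
  rw [isUnrOver_iff] at hA2 ⊢
  intro W hW hT
  set W' := W.comap (σ : AlgebraicClosure E →+* AlgebraicClosure E) with hW'
  have hval : ∀ x y, W.valuation (σ x) = W.valuation (σ y) ↔ W'.valuation x = W'.valuation y := by
    intro x y
    let _ : Algebra (AlgebraicClosure E) (AlgebraicClosure E) :=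
      (σ : AlgebraicClosure E →+* AlgebraicClosure E).toAlgebra
    exact (comap_val_eq_iff (F := AlgebraicClosure E) W x y).symm
  have hc : W'.comap (algebraMap E (AlgebraicClosure E)) =
      W.comap (algebraMap E (AlgebraicClosure E)) := by
    ext x
    rw [hW', ValuationSubring.mem_comap, ValuationSubring.mem_comap, ValuationSubring.mem_comap]
    show σ (algebraMap E (AlgebraicClosure E) x) ∈ W ↔ _
    rw [AlgHom.commutes]
  have h3 := SameVal.bot_iff.1 (hA2 W' (by rw [hc]; exact hW) (by rw [hc]; exact hT))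
  rw [SameVal.bot_iff]
  rintro _ ⟨x, hx, rfl⟩
  obtain ⟨y, hy⟩ := h3 x hx
  refine ⟨y, ?_⟩
  rw [← hval, AlgHom.commutes] at hy
  exact hy

instance normal_maxOut : Normal E (maxOut k T : IntermediateField E (AlgebraicClosure E)) := by
  rw [IntermediateField.normal_iff_forall_map_le]
  intro σ
  rw [IntermediateField.map_le_iff_le_comap, maxOut, sSup_le_iff]
  intro F hF
  rw [← IntermediateField.map_le_iff_le_comap]
  exact (IsFinOut.map hF σ).le_maxOut

lemma constIn_maxOut : ConstIn k (maxOut k T : IntermediateField E (AlgebraicClosure E)) :=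
  fun _ hx => maxUnr_le_maxOut (mem_maxUnr_of_const _ hx)

/-- elements which are unramified over finitely many elements of `maxOut` -/
lemma mem_maxOut_of_sameVal {A : IntermediateField E (AlgebraicClosure E)}
    [FiniteDimensional E A] (hA : A ≤ maxOut k T) (y : AlgebraicClosure E)
    (h : ∀ W : ValuationSubring (AlgebraicClosure E),
      IsPlace k E (W.comap (algebraMap E (AlgebraicClosure E))) →
      W.comap (algebraMap E (AlgebraicClosure E)) ∈ T → SameVal W (A ⊔ E⟮y⟯) A) :
    y ∈ maxOut k T := by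
  have hAO := isFinOut_of_le_maxOut hA
  have hint : IsIntegral E y := (Algebra.IsAlgebraic.isAlgebraic y).isIntegral
  have hfin : FiniteDimensional E E⟮y⟯ := IntermediateField.adjoin.finiteDimensional hint
  have hfin2 : FiniteDimensional E (A ⊔ E⟮y⟯ : IntermediateField E (AlgebraicClosure E)) :=
    finiteDimensional_sup A _
  have h1 : IsFinOut k T (A ⊔ E⟮y⟯) := by
    refine ⟨hfin2, ?_⟩
    rw [isUnrOver_iff]
    intro W hW hT
    exact (h W hW hT).trans ((isUnrOver_iff A).1 hAO.2 W hW hT)
  exact h1.le_maxOut ((le_sup_right : E⟮y⟯ ≤ A ⊔ E⟮y⟯) (IntermediateField.mem_adjoin_simple_self E y))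

end maxout

end Vale.Agent.P025.R2.H637
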