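import Vale.Agent.P025.R2.H637.FrameOut

/-! # There are no invariant absolute values over the `p`-adic one -/

open IntermediateField Polynomial P025H641

namespace Vale.Agent.P025.R2.H637

universe u v w

variable {p : ℕ} [Fact p.Prime] {k : Type u} [Field k] [CharZero k] [Algebra ℚ_[p] k]
  [FiniteDimensional ℚ_[p] k] {E : Type v} [Field E] [Algebra k E]
  {T : Set (ValuationSubring E)}

omit [Algebra ℚ_[p] k] [FiniteDimensional ℚ_[p] k] [Fact p.Prime] in
/-- a constant which controls the stabilizer of an element -/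
lemma exists_const_stab {M : IntermediateField E (AlgebraicClosure E)} (hM : ConstIn k M)
    {s : Gal(constClosure k E/k) →* Gal(M/E)} (hs : IsSecOf k M s) (t : M) :
    ∃ β : M, IsIntegral k β ∧ ∀ σ, s σ β = β → s σ t = t := by
  have h1 := stab_preimage s hs.continuous t (Algebra.IsIntegral.isIntegral (R := E) t)
  rw [krullTopology_mem_nhds_one_iff] at h1
  obtain ⟨L, hL, hLs⟩ := h1
  obtain ⟨b, hb⟩ := Field.exists_primitive_element k L
  have hbint : IsIntegral k ((b : constClosure k E) : AlgebraicClosure E) :=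
    (mem_algebraicClosure_iff.1 (b : constClosure k E).2).isIntegral
  set β : M := ⟨(b : constClosure k E), hM _ hbint⟩ with hβ
  refine ⟨β, isIntegral_coeM.1 hbint, fun σ hσ => ?_⟩
  apply hLs
  rw [SetLike.mem_coe, IntermediateField.mem_fixingSubgroup_iff]
  have h2 : σ (b : constClosure k E) = b := by
    apply Subtype.ext
    rw [hs.lifts σ b β rfl, hσ]
  have h3 : ∀ x : L, σ (x : constClosure k E) = x := by
    have h4 : (⊤ : IntermediateField k L) ≤
        (IntermediateField.fixedField (Subgroup.zpowers σ)).comap L.val := by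
      rw [← hb, adjoin_simple_le_iff]
      show (b : constClosure k E) ∈ IntermediateField.fixedField (Subgroup.zpowers σ)
      rw [IntermediateField.mem_fixedField_iff]
      intro g hg
      obtain ⟨n, rfl⟩ := Subgroup.mem_zpowers_iff.1 hg
      have h5 : σ ∈ MulAction.stabilizer (Gal(constClosure k E/k)) (b : constClosure k E) := h2
      exact (Subgroup.zpow_mem _ h5 n : _)
    intro x
    have h5 := h4 (IntermediateField.mem_top (x := x))
    have h6 : (x : constClosure k E) ∈ IntermediateField.fixedField (Subgroup.zpowers σ) := h5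
    rw [IntermediateField.mem_fixedField_iff] at h6
    exact h6 σ (Subgroup.mem_zpowers σ)
  exact fun x hx => h3 ⟨x, hx⟩

/-- **No real valuations.** -/
theorem no_abs_out (hp2 : p ≠ 2) {M : IntermediateField E (AlgebraicClosure E)}
    (hMT : M = maxOut k T) [Normal E M] [Algebra ℚ_[p] M] [IsScalarTower ℚ_[p] k M] {t : M}
    (ht : Transcendental k t)
    (hT : ∀ W : ValuationSubring M, IsPlace k E (W.comap (algebraMap E M)) →
      W.comap (algebraMap E M) ∈ T → t ∈ W ∧ t⁻¹ ∈ W ∧ (t - 1)⁻¹ ∈ W)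
    {s : Gal(constClosure k E/k) →* Gal(M/E)} (hs : IsSecOf k M s)
    {v : AbsoluteValue M ℝ} (hv : NA v) (hext : Ext p v) (hinv : ∀ σ x, v (s σ x) = v x) :
    False := by
  classical
  have hpp : p.Prime := Fact.out
  have hM : ConstIn k M := by rw [hMT]; exact constIn_maxOut
  have hcharM : CharZero M := charZero_of_injective_algebraMap (algebraMap k M).injective
  have hcharp : CharZero ℚ_[p] := inferInstance
  have hsplitp : ∀ P : ℚ_[p][X], (P.map (algebraMap ℚ_[p] M)).Splits := by
    refine const_splits (k := k) hMT (fun c => ?_)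
    rw [IsScalarTower.algebraMap_apply ℚ_[p] k M]
    exact isIntegral_algebraMap
  obtain ⟨β, hβ, hβt⟩ := exists_const_stab hM hs t
  obtain ⟨κ, hfin, hgal, ⟨ζ, hζ⟩, hk, hβκ, α, hα, hακ⟩ := exists_gal_field (k := k) hsplitp β hβ
  have B := baseM_cyc hM hs hα
  have halgp : ∀ c : κ, IsIntegral ℚ_[p] (algebraMap κ M c) := by
    intro c
    have h1 : IsIntegral ℚ_[p] c := Algebra.IsIntegral.isIntegral c
    exact h1.map κ.val
  have halg : ∀ c : κ, IsIntegral k (algebraMap κ M c) := fun c => (halgp c).tower_top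
  have B' : BaseM s (stabM s α) κ := by
    refine ⟨B.closed, halg, ?_, ?_⟩
    · intro c σ hσ
      exact B.fix ⟨c, (hακ _).1 c.2⟩ σ hσ
    · intro x hx hfix
      obtain ⟨c, hc⟩ := B.ex x hx hfix
      refine ⟨⟨x, (hακ x).2 ?_⟩, rfl⟩
      rw [← hc]
      exact c.2
  have hsplit : ∀ P : κ[X], (P.map (algebraMap κ M)).Splits := const_splits (k := k) hMT halg
  have hint_trans : ∀ x : M, IsIntegral κ x → IsIntegral k x := by
    intro x hx
    have h1 : IsIntegral ℚ_[p] x := isIntegral_trans (R := ℚ_[p]) (A := κ) x hx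
    exact h1.tower_top
  have F : Frame p κ (autSet s (stabM s α)) (outRing k t) v := by
    refine ⟨hv, hext, ?_, ?_, ?_, ?_, ?_, ?_⟩
    · exact fun c => outRing_const t _ (halg c)
    · exact outRing_splits_aux hMT hT rfl
    · exact outRing_int t
    · rintro _ ⟨σ, hσ, rfl⟩ c
      exact B'.fix c σ hσ
    · intro x hx hfix
      exact B'.ex x (hint_trans x hx) (fun σ hσ => hfix _ ⟨σ, hσ, rfl⟩)
    · rintro _ ⟨σ, hσ, rfl⟩ x
      exact hinv σ x
  have hrad : Rad p κ := F.rad hsplit hζ
  have htc : ∀ c : M, IsIntegral k c → t ≠ c := by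
    rintro c hc rfl
    exact ht hc.isAlgebraic
  have htG : ∀ σ ∈ stabM s α, s σ t = t := by
    intro σ hσ
    exact hβt σ (B'.fix ⟨β, hβκ⟩ σ hσ)
  have ht0 : t ≠ 0 := htc 0 isIntegral_zero
  have ht1 : t ≠ 1 := htc 1 isIntegral_one
  have htR : t ∈ outRing k t := fun W _ h2 _ _ => h2
  refine no_abs hM hs B' hζ F hp2 hsplit hrad ?_ ?_ htR htG
    (fun c => htc _ (halg c)) (outRing_cusp0 ht0) (outRing_cusp1 ht1)
  · intro x hx hxi hx0
    let U : (outRing k t)ˣ := ⟨⟨x, hx⟩, ⟨x⁻¹, hxi⟩, Subtype.ext (mul_inv_cancel₀ hx0),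
      Subtype.ext (inv_mul_cancel₀ hx0)⟩
    have hchark : CharZero κ := charZero_of_injective_algebraMap (algebraMap ℚ_[p] κ).injective
    have hpR : IsUnit (p : outRing k t) := by
      have h1 := F.isUnit_ι (c := (p : κ)) (Nat.cast_ne_zero.2 hpp.ne_zero)
      rwa [map_natCast] at h1
    have h1 := F.splits (X ^ p - C (U : outRing k t)) (monic_X_pow_sub_C _ hpp.ne_zero)
      (separable_X_pow_sub_C_unit U hpR)
    rw [Polynomial.map_sub, Polynomial.map_pow, map_X, map_C] at h1
    obtain ⟨γ, hγ⟩ := h1.exists_eval_eq_zero (by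
      rw [degree_X_pow_sub_C hpp.pos]
      exact_mod_cast hpp.ne_zero)
    refine ⟨γ, ?_⟩
    rw [eval_sub, eval_pow, eval_X, eval_C, sub_eq_zero] at hγ
    exact hγ
  · exact fun x hx => outRing_root hpp.pos hx

end Vale.Agent.P025.R2.H637
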