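import Vale.Agent.P025.H641.OOrb

/-! # The maximal extension unramified over a set of places -/

open IntermediateField Polynomial P025H641

namespace Vale.Agent.P025.R2.H637

universe u v w

/-- `F / E` is unramified over the places in `T`: every value of a place of `F` over a place in
`T` is already the value of an element of `E`. -/
def IsUnrOver (k : Type u) {E : Type v} [Field E] (T : Set (ValuationSubring E))
    (F : Type w) [Field k] [Field F] [Algebra k F] [Algebra E F] : Prop :=
  ∀ V : ValuationSubring F, IsPlace k F V → V.comap (algebraMap E F) ∈ T →
    ∀ x : F, ∃ y : E, V.valuation (algebraMap E F y) = V.valuation x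

/-- The compositum of all finite extensions of `E` which are unramified over the places in `T`. -/
noncomputable def maxOut (k : Type u) {E : Type v} [Field k] [Field E] [Algebra k E]
    (T : Set (ValuationSubring E)) : IntermediateField E (AlgebraicClosure E) :=
  sSup {F : IntermediateField E (AlgebraicClosure E) | FiniteDimensional E F ∧ IsUnrOver k T F}

end Vale.Agent.P025.R2.H637
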