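import Vale.Agent.P025.R2.H637.MaxOut
import Vale.Agent.P025.R2.H637.Frame

/-! # The ring of functions regular outside the ramified places -/

open IntermediateField Polynomial P025H641

namespace Vale.Agent.P025.R2.H637

universe u v w

section ring

variable {k : Type u} {M : Type v} [Field k] [Field M] [Algebra k M]

/-- valuation rings are integrally closed -/
lemma mem_of_root {F : Type w} [Field F] (W : ValuationSubring F) (P : W[X]) (hP : P.Monic) (x : F)
    (hx : (P.map W.subtype).eval x = 0) : x ∈ W := by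
  have hint : IsIntegral W x := by
    refine ⟨P, hP, ?_⟩
    rw [eval_map] at hx
    exact hx
  obtain ⟨y, hy⟩ := IsIntegrallyClosed.isIntegral_iff.mp hint
  rw [← hy]
  exact y.2

/-- the ring of all elements which are integral over `k[t, 1/t, 1/(t-1)]` -/
def outRing (k : Type u) {M : Type v} [Field k] [Field M] [Algebra k M] (t : M) : Subring M where
  carrier := {x | ∀ W : ValuationSubring M, (∀ c : k, algebraMap k M c ∈ W) → t ∈ W → t⁻¹ ∈ W →
    (t - 1)⁻¹ ∈ W → x ∈ W}
  mul_mem' := fun ha hb W h1 h2 h3 h4 => W.mul_mem _ _ (ha W h1 h2 h3 h4) (hb W h1 h2 h3 h4)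
  one_mem' := fun W _ _ _ _ => W.one_mem
  add_mem' := fun ha hb W h1 h2 h3 h4 => W.add_mem _ _ (ha W h1 h2 h3 h4) (hb W h1 h2 h3 h4)
  zero_mem' := fun W _ _ _ _ => W.zero_mem
  neg_mem' := fun ha W h1 h2 h3 h4 => W.neg_mem _ (ha W h1 h2 h3 h4)

lemma mem_outRing {t x : M} : x ∈ outRing k t ↔ ∀ W : ValuationSubring M,
    (∀ c : k, algebraMap k M c ∈ W) → t ∈ W → t⁻¹ ∈ W → (t - 1)⁻¹ ∈ W → x ∈ W := Iff.rfl

lemma outRing_int (t : M) (Q : (outRing k t)[X]) (x : M) (hQ : Q.Monic)
    (hx : (Q.map (outRing k t).subtype).eval x = 0) : x ∈ outRing k t := by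
  intro W h1 h2 h3 h4
  let ι : outRing k t →+* W := (outRing k t).subtype.codRestrict W.toSubring
    (fun y => y.2 W h1 h2 h3 h4)
  refine mem_of_root W (Q.map ι) (hQ.map _) x ?_
  rw [Polynomial.map_map]
  exact hx

lemma outRing_const (t : M) (x : M) (hx : IsIntegral k x) : x ∈ outRing k t := by
  intro W h1 h2 h3 h4
  obtain ⟨P, hP, hPx⟩ := hx
  let ι : k →+* W := (algebraMap k M).codRestrict W.toSubring h1
  refine mem_of_root W (P.map ι) (hP.map _) x ?_
  rw [Polynomial.map_map, eval_map]
  exact hPx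

lemma outRing_root {t x : M} {n : ℕ} (hn : 0 < n) (hx : x ^ n ∈ outRing k t) :
    x ∈ outRing k t := by
  refine outRing_int t (X ^ n - C ⟨x ^ n, hx⟩) x (monic_X_pow_sub_C _ hn.ne') ?_
  rw [Polynomial.map_sub, Polynomial.map_pow, map_X, map_C, eval_sub, eval_pow, eval_X, eval_C]
  exact sub_self _

lemma outRing_cusp0 {t : M} (ht : t ≠ 0) : Cusp (outRing k t) t 0 := by
  refine ⟨?_, ?_, ?_⟩
  · rw [sub_zero]
    exact fun W h1 h2 h3 h4 => h2
  · rw [sub_zero]
    exact fun W h1 h2 h3 h4 => h3
  · rwa [sub_zero]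

lemma outRing_cusp1 {t : M} (ht : t ≠ 1) : Cusp (outRing k t) t 1 := by
  refine ⟨?_, ?_, sub_ne_zero.2 ht⟩
  · exact fun W h1 h2 h3 h4 => W.toSubring.sub_mem h2 W.one_mem
  · exact fun W h1 h2 h3 h4 => h4

end ring

section splits

variable {k : Type u} {E : Type v} [Field k] [CharZero k] [Field E] [Algebra k E]
  {T : Set (ValuationSubring E)}

/-- separable polynomials over the ring split -/
theorem outRing_splits_aux {M : IntermediateField E (AlgebraicClosure E)} (hM : M = maxOut k T)
    {t : M} (hT : ∀ W : ValuationSubring M, IsPlace k E (W.comap (algebraMap E M)) →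
      W.comap (algebraMap E M) ∈ T → t ∈ W ∧ t⁻¹ ∈ W ∧ (t - 1)⁻¹ ∈ W)
    {R : Subring M} (hR : R = outRing k t)
    (Q : R[X]) (hQ : Q.Monic) (hsep : Q.Separable) : (Q.map R.subtype).Splits := by
  classical
  refine Splits.of_splits_map (algebraMap M (AlgebraicClosure E)) (IsAlgClosed.splits _) ?_
  intro y hy
  have hy0 := isRoot_of_mem_roots hy
  rw [Polynomial.map_map, IsRoot, eval_map] at hy0
  suffices h : y ∈ M from ⟨⟨y, h⟩, rfl⟩
  obtain ⟨a, b, hab⟩ := hsep
  -- the field of coefficients
  let φ : R →+* AlgebraicClosure E := (algebraMap M (AlgebraicClosure E)).comp R.subtype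
  have hφinj : Function.Injective φ := (algebraMap M (AlgebraicClosure E)).injective.comp
    Subtype.val_injective
  let S : Finset (AlgebraicClosure E) := Q.coeffs.image φ ∪ (a.coeffs.image φ ∪ b.coeffs.image φ)
  obtain ⟨A, hA, hSA⟩ := exists_finOut_subset (k := k) (T := T) S (by
    intro x hx
    rw [← hM]
    have : ∃ c : R, φ c = x := by
      rcases Finset.mem_union.1 hx with hx | hx
      · obtain ⟨c, -, hc⟩ := Finset.mem_image.1 hx
        exact ⟨c, hc⟩
      rcases Finset.mem_union.1 hx with hx | hx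
      · obtain ⟨c, -, hc⟩ := Finset.mem_image.1 hx
        exact ⟨c, hc⟩
      · obtain ⟨c, -, hc⟩ := Finset.mem_image.1 hx
        exact ⟨c, hc⟩
    obtain ⟨c, rfl⟩ := this
    exact (c : M).2)
  have hfinA := hA.1
  rw [hM]
  refine mem_maxOut_of_sameVal (A := A) hA.le_maxOut y ?_
  intro W hW hWT
  -- `R` is contained in `W`
  have hRW : ∀ c : R, φ c ∈ W := by
    intro c
    have hc2 : (c : M) ∈ outRing k t := by rw [← hR]; exact c.2
    have hWM : (W.comap (algebraMap M (AlgebraicClosure E))).comap (algebraMap E M) =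
        W.comap (algebraMap E (AlgebraicClosure E)) := by
      ext x
      rw [ValuationSubring.mem_comap, ValuationSubring.mem_comap, ValuationSubring.mem_comap,
        ← IsScalarTower.algebraMap_apply]
    obtain ⟨h2, h3, h4⟩ := hT (W.comap (algebraMap M (AlgebraicClosure E)))
      (by rw [hWM]; exact hW) (by rw [hWM]; exact hWT)
    have h1 := hc2 (W.comap (algebraMap M (AlgebraicClosure E))) (by
      intro d
      have h2 := hW.const_mem d
      rw [ValuationSubring.mem_comap] at h2 ⊢
      exact h2) h2 h3 h4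
    rw [ValuationSubring.mem_comap] at h1
    exact h1
  set WA := W.comap (algebraMap A (AlgebraicClosure E)) with hWA
  let ψ : WA →+* AlgebraicClosure E := (algebraMap A (AlgebraicClosure E)).comp WA.subtype
  have hψinj : Function.Injective ψ := (algebraMap A (AlgebraicClosure E)).injective.comp
    Subtype.val_injective
  -- lifting
  have hlift : ∀ P : R[X], (∀ c ∈ P.coeffs, φ c ∈ A) → ∃ P' : WA[X], P'.map ψ = P.map φ := by
    intro P hP
    have h1 : P.map φ ∈ lifts ψ := by
      rw [lifts_iff_coeff_lifts]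
      intro n
      rw [coeff_map]
      by_cases h0 : P.coeff n = 0
      · exact ⟨0, by rw [h0, map_zero, map_zero]⟩
      have h2 := hP _ (coeff_mem_coeffs h0)
      refine ⟨⟨⟨φ (P.coeff n), h2⟩, ?_⟩, rfl⟩
      rw [hWA, ValuationSubring.mem_comap]
      exact hRW _
    obtain ⟨P', hP'⟩ := h1
    exact ⟨P', hP'⟩
  obtain ⟨Q', hQ'⟩ := hlift Q (fun c hc => hSA _ (Finset.mem_union_left _
    (Finset.mem_image_of_mem _ hc)))
  obtain ⟨a', ha'⟩ := hlift a (fun c hc => hSA _ (Finset.mem_union_right _
    (Finset.mem_union_left _ (Finset.mem_image_of_mem _ hc))))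
  obtain ⟨b', hb'⟩ := hlift b (fun c hc => hSA _ (Finset.mem_union_right _
    (Finset.mem_union_right _ (Finset.mem_image_of_mem _ hc))))
  have hQ'mon : Q'.Monic := by
    apply Polynomial.monic_of_injective hψinj
    rw [hQ']
    exact hQ.map _
  have hQ'sep : Q'.Separable := by
    refine ⟨a', b', ?_⟩
    apply Polynomial.map_injective ψ hψinj
    have h1 := congrArg (Polynomial.map φ) hab
    rw [Polynomial.map_add, Polynomial.map_mul, Polynomial.map_mul, ← derivative_map,
      Polynomial.map_one] at h1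
    rw [Polynomial.map_add, Polynomial.map_mul, Polynomial.map_mul, ← derivative_map,
      Polynomial.map_one, hQ', ha', hb']
    exact h1
  refine sameVal_etale hW A y Q' hQ'mon ?_ hQ'sep
  rw [aeval_def, eval₂_map]
  have h1 : eval₂ ψ y Q' = (Q'.map ψ).eval y := (eval_map ψ y).symm
  refine Eq.trans (b := eval₂ ψ y Q') rfl ?_
  rw [h1, hQ', eval_map]
  exact hy0

/-- polynomials over constants split -/
lemma const_splits {M : IntermediateField E (AlgebraicClosure E)} (hM : M = maxOut k T)
    {κ : Type w} [Field κ] [Algebra κ M]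
    (halg : ∀ c : κ, IsIntegral k (algebraMap κ M c)) (P : κ[X]) :
    (P.map (algebraMap κ M)).Splits := by
  classical
  by_cases hP0 : P = 0
  · rw [hP0, Polynomial.map_zero]
    exact Splits.zero
  refine Splits.of_splits_map (algebraMap M (AlgebraicClosure E)) (IsAlgClosed.splits _) ?_
  intro y hy
  have hy0 := isRoot_of_mem_roots hy
  rw [Polynomial.map_map, IsRoot, eval_map] at hy0
  suffices h : IsIntegral k y from ⟨⟨y, by rw [hM]; exact constIn_maxOut y h⟩, rfl⟩
  -- integrality
  let C := integralClosure k (AlgebraicClosure E)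
  let φ : κ →+* C := ((algebraMap M (AlgebraicClosure E)).comp (algebraMap κ M)).codRestrict
    C.toSubring (fun c => (halg c).map (M.val.restrictScalars k))
  have h1 : IsIntegral C y := by
    have hlc : IsUnit P.leadingCoeff := isUnit_iff_ne_zero.2 (leadingCoeff_ne_zero.2 hP0)
    refine ⟨(P * Polynomial.C P.leadingCoeff⁻¹).map φ, ?_, ?_⟩
    · exact (monic_mul_leadingCoeff_inv hP0).map φ
    · rw [eval₂_map, eval₂_mul]
      have h2 : (algebraMap C (AlgebraicClosure E)).comp φ =
        (algebraMap M (AlgebraicClosure E)).comp (algebraMap κ M) := by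
        ext c
        rfl
      rw [h2, hy0, zero_mul]
  exact isIntegral_trans (R := k) (A := C) y h1

end splits

end Vale.Agent.P025.R2.H637
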