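import Vale.Agent.P025.R2.H637.NormRelM
import Vale.Agent.P025.R2.H637.Frame
import Vale.Agent.P025.H641.ChiPad

/-! # The pattern of a fixed element with many cusps -/

open IntermediateField P025H641 Polynomial

namespace Vale.Agent.P025.R2.H637

universe u v w

variable {p : ℕ} [Fact p.Prime] {k : Type u} {K : Type v} [Field k] [Field K] [Algebra k K]
  [CharZero k] {M : IntermediateField K (AlgebraicClosure K)} [Normal K M]
  {s : Gal(constClosure k K/k) →* Gal(M/K)}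
  {G : Subgroup Gal(constClosure k K/k)} {k' : Type w} [Field k'] [Algebra k' M]
  [Algebra ℚ_[p] k'] [FiniteDimensional ℚ_[p] k']

omit [Fact p.Prime] in
/-- factors of units -/
lemma unit_factor {R : Subring M} {y θ u : M} (hp : 0 < p) (hy : y ∈ R) (hθ : θ ∈ R)
    (h : y ^ p - θ ^ p = u) (hu : u⁻¹ ∈ R) (hu0 : u ≠ 0) :
    y - θ ∈ R ∧ (y - θ)⁻¹ ∈ R ∧ y - θ ≠ 0 := by
  have h1 := (Commute.all y θ).mul_geom_sum₂ p
  rw [h] at h1
  have h2 : y - θ ≠ 0 := left_ne_zero_of_mul (h1 ▸ hu0)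
  refine ⟨R.sub_mem hy hθ, ?_, h2⟩
  have h3 : (y - θ)⁻¹ = (∑ i ∈ Finset.range p, y ^ i * θ ^ (p - 1 - i)) * u⁻¹ := by
    rw [← h1]
    field_simp
    rw [div_self]
    intro h0
    rw [h0, mul_zero] at h1
    exact hu0 h1.symm
  rw [h3]
  exact R.mul_mem (R.sum_mem (fun i _ => R.mul_mem (R.pow_mem hy _) (R.pow_mem hθ _))) hu

/-- **The pattern is the pattern of a point.** -/
theorem pattern_frame (hM : ConstIn k M) (hs : IsSecOf k M s) (B : BaseM s G k') {ζ : k'}
    (hζ : IsPrimitiveRoot ζ p) {R : Subring M} (hconst : ∀ c : k', algebraMap k' M c ∈ R)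
    (hroot : ∀ x ∈ R, x⁻¹ ∈ R → x ≠ 0 → ∃ γ : M, γ ^ p = x)
    (hint : ∀ x : M, x ^ p ∈ R → x ∈ R) (t : M) (htG : ∀ σ ∈ G, s σ t = t)
    {r : ℕ} {A₀ A : Finset k'} (hA : IsFine p r A₀ A)
    (hcusp : ∀ a ∈ A, Cusp R t (algebraMap k' M a)) :
    ∃ z : k', ∀ a ∈ A₀, z ≠ a ∧ ∃ (x : k') (y : M), x ≠ 0 ∧ y ≠ 0 ∧ (∀ σ ∈ G, s σ y = y) ∧
      t - algebraMap k' M a = algebraMap k' M x * y ^ p ∧ clsm p x = clsm p (z - a) := by
  classical
  have hpp : p.Prime := Fact.out
  have hcl : ∀ a : k', ∃ (x : k') (y : M), a ∈ A → x ≠ 0 ∧ y ≠ 0 ∧ (∀ σ ∈ G, s σ y = y) ∧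
      t - algebraMap k' M a = algebraMap k' M x * y ^ p := by
    intro a
    by_cases ha : a ∈ A
    · obtain ⟨h1, h2, h3⟩ := hcusp a ha
      obtain ⟨γ, hγ⟩ := hroot _ h1 h2 h3
      obtain ⟨x, y, hx, hy, hxy⟩ := exists_classM hM hs B hζ (t - algebraMap k' M a) γ h3 hγ (by
        intro σ hσ
        rw [map_sub, htG σ hσ, B.fix a σ hσ])
      refine ⟨x, y, fun _ => ⟨hx, ?_, hy, hxy⟩⟩
      rintro rfl
      rw [zero_pow hpp.ne_zero, mul_zero] at hxy
      exact h3 hxy
    · exact ⟨0, 0, fun h => absurd h ha⟩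
  choose x y hxy using hcl
  obtain ⟨H, hH, hrig⟩ := rigid_padic hζ
  obtain ⟨z, hz⟩ := hrig r A₀ (A : Set k') (fun a ha => hA.subset ha) hA.bound hA.sep hA.dense
    (fun a => clsm p (x a)) (by
      intro a ha b hb c hc hba hca hcls
      obtain ⟨hxa, hya, hyaG, hta⟩ := hxy a ha
      obtain ⟨hxc, hyc, hycG, htc⟩ := hxy c hc
      have hba' : b - a ≠ 0 := sub_ne_zero.2 hba
      have hca' : c - a ≠ 0 := sub_ne_zero.2 hca
      have h1 : ∃ e, x a / (b - a) = e ^ p := by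
        have h2 : clsm p (x a / (b - a)) = 0 := by
          rw [clsm_div _ _ hxa hba', ← hcls, sub_self]
        exact (clsm_eq_zero hpp.ne_zero _ (div_ne_zero hxa hba')).1 h2
      obtain ⟨e, he⟩ := h1
      have h4 : clsm p (x a) - clsm p (c - a) = - clsm p ((c - a) / (b - a)) := by
        rw [clsm_div _ _ hca' hba', hcls]
        abel
      have h5 : clsm p (x c) - clsm p (x a) = clsm p (x c / (b - a)) := by
        rw [clsm_div _ _ hxc hba', hcls]
      rw [h4, h5, map_neg, LinearMap.neg_apply, neg_eq_zero]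
      -- the elements
      have hbaM : algebraMap k' M (b - a) ≠ 0 := (_root_.map_ne_zero _).2 hba'
      set Y : M := algebraMap k' M e * y a with hY
      have hYG : ∀ σ ∈ G, s σ Y = Y := by
        intro σ hσ
        rw [hY, map_mul, B.fix e σ hσ, hyaG σ hσ]
      have hYt : t - algebraMap k' M a = algebraMap k' M (b - a) * Y ^ p := by
        rw [hY, mul_pow, ← map_pow, ← he, hta, ← mul_assoc, ← map_mul, mul_div_cancel₀ _ hba']
      obtain ⟨θ₀, hθ₀⟩ := IsAlgClosed.exists_pow_nat_eq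
        ((algebraMap k' M ((c - a) / (b - a)) : M) : AlgebraicClosure K) hpp.pos
      have hθint : IsIntegral k θ₀ := by
        apply isIntegral_of_pow' hpp.pos
        rw [hθ₀]
        exact isIntegral_coeM.2 (B.alg _)
      set θ : M := ⟨θ₀, hM _ hθint⟩ with hθ
      have hθp : θ ^ p = algebraMap k' M ((c - a) / (b - a)) := Subtype.ext hθ₀
      have hθR : θ ∈ R := hint _ (by rw [hθp]; exact hconst _)
      have hYR : Y ∈ R := by
        apply hint
        have h6 : Y ^ p = algebraMap k' M (b - a)⁻¹ * (t - algebraMap k' M a) := by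
          rw [hYt, map_inv₀, inv_mul_cancel_left₀ hbaM]
        rw [h6]
        exact R.mul_mem (hconst _) (hcusp a ha).1
      obtain ⟨hc1, hc2, hc3⟩ := hcusp c hc
      obtain ⟨hb1, hb2, hb3⟩ := hcusp b hb
      have e1 : Y ^ p - θ ^ p = algebraMap k' M (b - a)⁻¹ * (t - algebraMap k' M c) := by
        have h6 : Y ^ p = algebraMap k' M (b - a)⁻¹ * (t - algebraMap k' M a) := by
          rw [hYt, map_inv₀, inv_mul_cancel_left₀ hbaM]
        rw [h6, hθp, map_div₀, map_inv₀]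
        simp only [map_sub] at hbaM ⊢
        field_simp
        ring
      have e2 : Y ^ p - 1 ^ p = algebraMap k' M (b - a)⁻¹ * (t - algebraMap k' M b) := by
        have h6 : Y ^ p = algebraMap k' M (b - a)⁻¹ * (t - algebraMap k' M a) := by
          rw [hYt, map_inv₀, inv_mul_cancel_left₀ hbaM]
        rw [h6, one_pow, map_inv₀]
        simp only [map_sub] at hbaM ⊢
        field_simp
        ring
      have hinvM : algebraMap k' M (b - a)⁻¹ ≠ 0 := (_root_.map_ne_zero _).2 (inv_ne_zero hba')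
      obtain ⟨f1, f2, f3⟩ := unit_factor hpp.pos hYR hθR e1 (by
        rw [mul_inv, ← map_inv₀, inv_inv]
        exact R.mul_mem (hconst _) hc2) (mul_ne_zero hinvM hc3)
      obtain ⟨g1, g2, g3⟩ := unit_factor hpp.pos hYR R.one_mem e2 (by
        rw [mul_inv, ← map_inv₀, inv_inv]
        exact R.mul_mem (hconst _) hb2) (mul_ne_zero hinvM hb3)
      obtain ⟨γ, hγ⟩ := hroot ((Y - θ) / (Y - 1)) (by
          rw [div_eq_mul_inv]
          exact R.mul_mem f1 g2) (by
          rw [inv_div, div_eq_mul_inv]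
          exact R.mul_mem g1 f2) (div_ne_zero f3 g3)
      rcases norm_relation hM hs B hζ a b c (x c) hba' hca' t Y (y c) hYG hycG hyc g3 hYt htc θ
        (by rw [hθp, ← map_mul, mul_div_cancel₀ _ hba']) f3 γ hγ with ⟨θ0, hθ0⟩ | ⟨f, hf⟩
      · have h6 : clsm p ((c - a) / (b - a)) = 0 :=
          (clsm_eq_zero hpp.ne_zero _ (div_ne_zero hca' hba')).2 ⟨θ0, hθ0⟩
        rw [h6, map_zero]
        rfl
      · exact hH _ _ f (div_ne_zero hca' hba') (div_ne_zero hxc hba') hf)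
  refine ⟨z, fun a ha => ⟨(hz a ha).1, x a, y a, ?_⟩⟩
  obtain ⟨h1, h2, h3, h4⟩ := hxy a (hA.subset ha)
  exact ⟨h1, h2, h3, h4, (hz a ha).2⟩

end Vale.Agent.P025.R2.H637
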