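import Mathlib

/-! # Belyi type maps that are close to the identity

For `n` with `2 n - 1 = p ^ m` the rational function `y + ∑ α_j h ^ (2 j) y ^ (1 - 2 j)` with
`α_j = (-1) ^ j * (n choose j) / (1 - 2 j)` has derivative `(1 - h ^ 2 / y ^ 2) ^ n`. -/

open Polynomial

namespace Vale.Agent.P025.R2.H637

universe u v

section alg

variable {F : Type u} [Field F]

/-- the coefficient `α_j` -/
noncomputable def al (F : Type u) [Field F] (n j : ℕ) : F :=
  (-1) ^ j * (n.choose j : F) / (1 - 2 * (j : F))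

lemma al_zero (n : ℕ) : al F n 0 = 1 := by simp [al]

/-- the numerator `∑ α_j h ^ (2 j) X ^ (2 n - 2 j)` -/
noncomputable def num (F : Type u) [Field F] (n : ℕ) (h : F) : F[X] :=
  ∑ j ∈ Finset.range (n + 1), C (al F n j * h ^ (2 * j)) * X ^ (2 * (n - j))

lemma one_sub_ne [CharZero F] (j : ℕ) : (1 - 2 * (j : F)) ≠ 0 := by
  intro h
  have h1 : ((2 * j : ℕ) : F) = ((1 : ℕ) : F) := by
    push_cast
    linear_combination -h
  have h2 := Nat.cast_injective h1
  omega

/-- the derivative identity -/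
lemma num_deriv [CharZero F] (n : ℕ) (h : F) :
    X * derivative (num F n h) - C (2 * (n : F) - 1) * num F n h = (X ^ 2 - C (h ^ 2)) ^ n := by
  have e0 : (X ^ 2 - C (h ^ 2) : F[X]) ^ n = (-C (h ^ 2) + X ^ 2) ^ n := by
    congr 1
    ring
  rw [e0, num, derivative_sum, Finset.mul_sum, Finset.mul_sum, ← Finset.sum_sub_distrib, add_pow]
  refine Finset.sum_congr rfl (fun j hj => ?_)
  have hj' : j ≤ n := Nat.lt_succ_iff.1 (Finset.mem_range.1 hj)
  have h1 : (X : F[X]) * derivative (C (al F n j * h ^ (2 * j)) * X ^ (2 * (n - j))) =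
      C (al F n j * h ^ (2 * j)) * (C (2 * ((n : F) - j)) * X ^ (2 * (n - j))) := by
    rw [derivative_C_mul, derivative_X_pow]
    rcases Nat.eq_zero_or_pos (n - j) with h0 | h0
    · have h2 : (n : F) - j = 0 := by
        have h3 : n = j := by omega
        rw [h3, sub_self]
      rw [h0, h2]
      simp
    · have h2 : (((2 * (n - j) : ℕ)) : F) = 2 * ((n : F) - j) := by
        push_cast [Nat.cast_sub hj']
        ring
      have h3 : (X : F[X]) ^ (2 * (n - j)) = X * X ^ (2 * (n - j) - 1) := by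
        rw [← pow_succ']
        congr 1
        omega
      rw [h2, h3]
      ring
  rw [h1]
  have key : ∀ (A B D E' : F) (Y : F[X]), E' = A * B - D * A →
      C A * (C B * Y) - C D * (C A * Y) = C E' * Y := by
    intro A B D E' Y hE
    rw [hE, C_sub, C_mul, C_mul]
    ring
  rw [key _ _ _ ((al F n j * (1 - 2 * (j : F))) * h ^ (2 * j)) _ (by ring), al,
    div_mul_cancel₀ _ (one_sub_ne j)]
  have h6 : C ((-1) ^ j * (n.choose j : F) * h ^ (2 * j)) = (-C (h ^ 2)) ^ j * C (n.choose j : F) := by
    rw [← C_neg, ← C_pow, ← C_mul]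
    congr 1
    rw [neg_pow (h ^ 2), ← pow_mul]
    ring
  rw [h6, map_natCast, ← pow_mul]
  ring

/-- evaluation of the numerator -/
lemma num_eval (n : ℕ) (h y : F) : (num F n h).eval y =
    ∑ j ∈ Finset.range (n + 1), al F n j * h ^ (2 * j) * y ^ (2 * (n - j)) := by
  rw [num, eval_finsetSum]
  refine Finset.sum_congr rfl (fun j _ => ?_)
  rw [eval_mul, eval_C, eval_pow, eval_X]

/-- the sum of the `α_j` -/
noncomputable def be (F : Type u) [Field F] (n : ℕ) : F := ∑ j ∈ Finset.range (n + 1), al F n j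

lemma num_eval_self (n : ℕ) (h : F) : (num F n h).eval h = h ^ (2 * n) * be F n := by
  rw [num_eval, be, Finset.mul_sum]
  refine Finset.sum_congr rfl (fun j hj => ?_)
  have hj' : j ≤ n := Nat.lt_succ_iff.1 (Finset.mem_range.1 hj)
  have h1 : h ^ (2 * n) = h ^ (2 * j) * h ^ (2 * (n - j)) := by
    rw [← pow_add]
    congr 1
    omega
  rw [h1]
  ring

lemma num_eval_neg_self (n : ℕ) (h : F) : (num F n h).eval (-h) = h ^ (2 * n) * be F n := by
  rw [← num_eval_self, num_eval, num_eval]
  refine Finset.sum_congr rfl (fun j _ => ?_)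
  rw [Even.neg_pow (even_two_mul _)]

lemma num_eval_zero (n : ℕ) (h : F) : (num F n h).eval 0 = al F n n * h ^ (2 * n) := by
  rw [num_eval, Finset.sum_range_succ, Nat.sub_self, Finset.sum_eq_zero, zero_add, mul_zero,
    pow_zero, mul_one]
  intro j hj
  have hj' := Finset.mem_range.1 hj
  rw [zero_pow (by omega), mul_zero]

/-- the numerator is `X ^ (2 n)` plus lower terms -/
lemma num_eq (n : ℕ) (h : F) : num F n h = X ^ (2 * n) +
    ∑ j ∈ Finset.range n, C (al F n (j + 1) * h ^ (2 * (j + 1))) * X ^ (2 * (n - (j + 1))) := by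
  rw [num, Finset.sum_range_succ', al_zero, mul_zero, pow_zero, mul_one, map_one, one_mul,
    Nat.sub_zero, add_comm]

lemma al_ne_zero [CharZero F] (n j : ℕ) (hj : j ≤ n) : al F n j ≠ 0 := by
  rw [al]
  refine div_ne_zero (mul_ne_zero (pow_ne_zero _ (neg_ne_zero.2 one_ne_zero)) ?_) (one_sub_ne j)
  exact_mod_cast (Nat.choose_pos hj).ne'

section map

variable {K : Type v} [Field K] (f : F →+* K)

lemma map_al (n j : ℕ) : f (al F n j) = al K n j := by
  rw [al, al, map_div₀, map_mul, map_pow, map_neg, map_one, map_natCast, map_sub, map_mul,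
    map_natCast, map_one, map_ofNat]

lemma map_be (n : ℕ) : f (be F n) = be K n := by
  rw [be, be, map_sum]
  exact Finset.sum_congr rfl (fun j _ => map_al f n j)

lemma map_num (n : ℕ) (h : F) : (num F n h).map f = num K n (f h) := by
  rw [num, num, Polynomial.map_sum]
  refine Finset.sum_congr rfl (fun j _ => ?_)
  rw [Polynomial.map_mul, map_C, Polynomial.map_pow, map_X, map_mul, map_pow, map_al]

lemma map_num_eval (n : ℕ) (h x : F) : (num K n (f h)).eval (f x) = f ((num F n h).eval x) := by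
  rw [← map_num, eval_map, eval₂_hom]

end map

end alg

end Vale.Agent.P025.R2.H637
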