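import Vale.Agent.P025.R2.H637.Main
import Vale.Agent.P025.H641.GeoStmt

/-! # Restriction of sections to the unramified extension -/

open IntermediateField Polynomial P025H641

namespace Vale.Agent.P025.R2.H637

universe u v w

section restrict

variable {k : Type u} {E : Type v} [Field k] [Field E] [Algebra k E]
  {T : Set (ValuationSubring E)}

lemma restrict_aux {N M : IntermediateField E (AlgebraicClosure E)} (hle : N ≤ M)
    {P : ValuationSubring E → Prop} {Q : AlgebraicClosure E → AlgebraicClosure E → Prop}
    (W₁ : ValuationSubring M) (hW₁ : P (W₁.comap (algebraMap E M)))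
    (hst : ∀ x y : M, Q x y → x ∈ W₁ → y ∈ W₁) :
    ∃ W : ValuationSubring N, P (W.comap (algebraMap E N)) ∧
      ∀ x y : N, Q x y → x ∈ W → y ∈ W := by
  let j : N →ₐ[E] M := IntermediateField.inclusion hle
  refine ⟨W₁.comap (j : N →+* M), ?_, ?_⟩
  · have h1 : (W₁.comap (j : N →+* M)).comap (algebraMap E N) = W₁.comap (algebraMap E M) := by
      ext x
      rw [ValuationSubring.mem_comap, ValuationSubring.mem_comap, ValuationSubring.mem_comap]
      have h2 : (j : N →+* M) (algebraMap E N x) = algebraMap E M x := j.commutes x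
      rw [h2]
    rw [h1]
    exact hW₁
  · intro x y hxy hx
    rw [ValuationSubring.mem_comap] at hx ⊢
    exact hst (j x) (j y) hxy hx

/-- sections which lift to geometric sections are geometric -/
theorem isGeometric_of_lift (s : Section k E)
    (s₁ : SecOf k (maxOut k T : IntermediateField E (AlgebraicClosure E))) (hl : s₁.Lifts s)
    (h : s₁.IsGeometric) : s.IsGeometric := by
  obtain ⟨W₁, hW₁, hst⟩ := h
  obtain ⟨W, hW, hW'⟩ := restrict_aux (P := IsRatPlace k E)
    (Q := fun x y => ∃ σ : GalOf (constClosure k E), (s.hom σ).Maps x y)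
    (maxUnr_le_maxOut (k := k) (T := T)) W₁ hW₁ (by
      rintro x y ⟨σ, hσ⟩ hx
      exact hst σ x y (hl σ x y hσ) hx)
  exact ⟨W, hW, fun σ x y hxy hx => hW' x y ⟨σ, hxy⟩ hx⟩

end restrict

end Vale.Agent.P025.R2.H637
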