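import Vale.Agent.P025.R2.H637.Est

/-! # Location of the root -/

open Polynomial

namespace Vale.Agent.P025.R2.H637

universe u v

section

variable {p : ℕ} [Fact p.Prime] {M : Type u} [Field M] [Algebra ℚ_[p] M] {v : AbsoluteValue M ℝ}

/-- `v` extends the `p`-adic absolute value -/
def Ext (p : ℕ) [Fact p.Prime] {M : Type u} [Field M] [Algebra ℚ_[p] M] (v : AbsoluteValue M ℝ) :
    Prop := ∀ x : ℚ_[p], v (algebraMap ℚ_[p] M x) = ‖x‖

lemma v_al_le (hp : Ext p v) (n j : ℕ) : v (al M n (j + 1)) ≤ 2 * j + 1 := by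
  rw [← map_al (algebraMap ℚ_[p] M), hp]
  exact norm_al_le n j

lemma v_be (hp : Ext p v) {n m : ℕ} (hm : 0 < m) (hn : 2 * n - 1 = p ^ m) :
    v (be M n) = (p : ℝ) ^ m := by
  rw [← map_be (algebraMap ℚ_[p] M), hp]
  exact norm_be hm hn

/-- the correction term -/
noncomputable def gs (n : ℕ) (h u : M) : M :=
  ∑ j ∈ Finset.range n, al M n (j + 1) * h ^ (2 * (j + 1)) * u ^ (2 * j + 1)

omit [Algebra ℚ_[p] M] [Fact p.Prime] in
lemma eq_of_root {n : ℕ} (hn : 0 < n) {h y t : M} (hy : y ≠ 0)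
    (hroot : (num M n h).eval y = t * y ^ (2 * n - 1)) : y + gs n h y⁻¹ = t := by
  have h1 : (num M n h).eval y = (y + gs n h y⁻¹) * y ^ (2 * n - 1) := by
    rw [num_eq, eval_add, eval_pow, eval_X, eval_finsetSum, add_mul, gs, Finset.sum_mul]
    congr 1
    · rw [← pow_succ']
      congr 1
      omega
    · refine Finset.sum_congr rfl (fun j hj => ?_)
      have hj' := Finset.mem_range.1 hj
      rw [eval_mul, eval_C, eval_pow, eval_X, mul_assoc (al M n (j + 1) * h ^ (2 * (j + 1)))]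
      congr 1
      have h2 : y ^ (2 * n - 1) = y ^ (2 * j + 1) * y ^ (2 * (n - (j + 1))) := by
        rw [← pow_add]
        congr 1
        omega
      rw [h2, ← mul_assoc, ← mul_pow, inv_mul_cancel₀ hy, one_pow, one_mul]
  rw [h1] at hroot
  exact mul_right_cancel₀ (pow_ne_zero _ hy) hroot

omit [Fact p.Prime] in
lemma nat_le_pow_nine (j : ℕ) : (2 * j + 1 : ℝ) ≤ 9 ^ j := by
  induction j with
  | zero => norm_num
  | succ j ih =>
    push_cast
    rw [pow_succ]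
    nlinarith [pow_nonneg (show (0 : ℝ) ≤ 9 by norm_num) j]

lemma term_le (hp : Ext p v) {τ : ℝ} (hτ : 0 < τ) {h : M} (hh : v h ≤ τ / 3) (n j : ℕ) :
    v (al M n (j + 1) * h ^ (2 * (j + 1))) ≤ v h ^ 2 * τ ^ (2 * j) := by
  rw [v.map_mul, v.map_pow]
  have h1 : v h ^ (2 * (j + 1)) = v h ^ 2 * v h ^ (2 * j) := by
    rw [← pow_add]; congr 1; ring
  have h2 : v h ^ (2 * j) ≤ (τ / 3) ^ (2 * j) := pow_le_pow_left₀ (v.nonneg _) hh _
  have h3 : (τ / 3) ^ (2 * j) = τ ^ (2 * j) / 9 ^ j := by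
    rw [div_pow, pow_mul (3 : ℝ)]; norm_num
  have h4 := v_al_le hp n j
  have h5 := nat_le_pow_nine j
  have h9 : (0 : ℝ) < 9 ^ j := by positivity
  have h6 : (0 : ℝ) ≤ τ ^ (2 * j) := by positivity
  calc v (al M n (j + 1)) * v h ^ (2 * (j + 1))
      = v h ^ 2 * (v (al M n (j + 1)) * v h ^ (2 * j)) := by rw [h1]; ring
    _ ≤ v h ^ 2 * (9 ^ j * (τ ^ (2 * j) / 9 ^ j)) := by
        apply mul_le_mul_of_nonneg_left _ (pow_nonneg (v.nonneg _) 2)
        refine mul_le_mul (h4.trans h5) (h2.trans_eq h3) (pow_nonneg (v.nonneg _) _) h9.le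
    _ = v h ^ 2 * τ ^ (2 * j) := by rw [mul_div_cancel₀ _ h9.ne']

/-- a root of large absolute value is close to `t` -/
lemma root_near (hv : NA v) (hp : Ext p v) {n : ℕ} (hn : 0 < n) {h y t : M} {τ : ℝ} (hτ : 0 < τ)
    (hh : v h ≤ τ / 3) (hy : τ ≤ v y)
    (hroot : (num M n h).eval y = t * y ^ (2 * n - 1)) : v (y - t) ≤ v h ^ 2 / τ := by
  have hy0 : y ≠ 0 := by
    rintro rfl
    rw [v.map_zero] at hy
    exact absurd hτ (not_lt.2 hy)
  have h1 := eq_of_root hn hy0 hroot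
  have h2 : y - t = - gs n h y⁻¹ := by rw [← h1]; ring
  rw [h2, v.map_neg, gs]
  refine hv.sum_le _ _ (by positivity) (fun j _ => ?_)
  rw [v.map_mul, v.map_pow, map_inv₀]
  have h3 := term_le hp hτ hh n j
  have h4 : (v y)⁻¹ ^ (2 * j + 1) ≤ τ⁻¹ ^ (2 * j + 1) :=
    pow_le_pow_left₀ (inv_nonneg.2 (v.nonneg _)) (inv_anti₀ hτ hy) _
  calc _ ≤ (v h ^ 2 * τ ^ (2 * j)) * τ⁻¹ ^ (2 * j + 1) :=
        mul_le_mul h3 h4 (pow_nonneg (inv_nonneg.2 (v.nonneg _)) _)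
          (mul_nonneg (pow_nonneg (v.nonneg _) 2) (pow_nonneg hτ.le _))
    _ = v h ^ 2 / τ := by
        rw [pow_succ τ⁻¹, inv_pow]
        field_simp

/-- there is at most one root of large absolute value -/
lemma root_unique (hv : NA v) (hp : Ext p v) {n : ℕ} (hn : 0 < n) {h y y' t : M} {τ : ℝ}
    (hτ : 0 < τ) (hh : v h ≤ τ / 3) (hy : τ ≤ v y) (hy' : τ ≤ v y')
    (hroot : (num M n h).eval y = t * y ^ (2 * n - 1))
    (hroot' : (num M n h).eval y' = t * y' ^ (2 * n - 1)) : y = y' := by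
  have hne : ∀ z : M, τ ≤ v z → z ≠ 0 := by
    rintro z hz rfl
    rw [v.map_zero] at hz
    exact absurd hτ (not_lt.2 hz)
  have hy0 := hne y hy
  have hy0' := hne y' hy'
  have h1 := eq_of_root hn hy0 hroot
  have h1' := eq_of_root hn hy0' hroot'
  by_contra hcon
  have hpos : 0 < v (y - y') := v.pos (sub_ne_zero.2 hcon)
  have h2 : y - y' = ∑ j ∈ Finset.range n, al M n (j + 1) * h ^ (2 * (j + 1)) *
      (y'⁻¹ ^ (2 * j + 1) - y⁻¹ ^ (2 * j + 1)) := by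
    have h3 : y - y' = gs n h y'⁻¹ - gs n h y⁻¹ := by linear_combination h1 - h1'
    rw [h3, gs, gs, ← Finset.sum_sub_distrib]
    exact Finset.sum_congr rfl (fun j _ => by ring)
  have hinv : ∀ z : M, τ ≤ v z → v z⁻¹ ≤ τ⁻¹ := by
    intro z hz
    rw [map_inv₀]
    exact inv_anti₀ hτ hz
  have h3 : v (y'⁻¹ - y⁻¹) ≤ v (y - y') * (τ⁻¹ * τ⁻¹) := by
    have h4 : y'⁻¹ - y⁻¹ = (y - y') * (y⁻¹ * y'⁻¹) := by
      field_simp
    rw [h4, v.map_mul, v.map_mul]
    exact mul_le_mul_of_nonneg_left (mul_le_mul (hinv y hy) (hinv y' hy') (v.nonneg _)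
      (inv_nonneg.2 hτ.le)) (v.nonneg _)
  have h4 : v (y - y') ≤ v (y - y') / 9 := by
    conv_lhs => rw [h2]
    refine hv.sum_le _ _ (by positivity) (fun j _ => ?_)
    rw [v.map_mul]
    have h5 := hv.pow_sub_pow (inv_nonneg.2 hτ.le) (hinv y' hy') (hinv y hy) (2 * j)
    have h6 := term_le hp hτ hh n j
    have h7 : v h ^ 2 ≤ (τ / 3) ^ 2 := pow_le_pow_left₀ (v.nonneg _) hh _
    calc _ ≤ (v h ^ 2 * τ ^ (2 * j)) * (v (y - y') * (τ⁻¹ * τ⁻¹) * τ⁻¹ ^ (2 * j)) := by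
          refine mul_le_mul h6 (h5.trans ?_) (v.nonneg _)
            (mul_nonneg (pow_nonneg (v.nonneg _) 2) (pow_nonneg hτ.le _))
          exact mul_le_mul_of_nonneg_right h3 (pow_nonneg (inv_nonneg.2 hτ.le) _)
      _ = v h ^ 2 * (v (y - y') * (τ⁻¹ * τ⁻¹)) := by
          rw [inv_pow]
          field_simp
      _ ≤ (τ / 3) ^ 2 * (v (y - y') * (τ⁻¹ * τ⁻¹)) :=
          mul_le_mul_of_nonneg_right h7 (by positivity)
      _ = v (y - y') / 9 := by
          field_simp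
          norm_num
  linarith

end

end Vale.Agent.P025.R2.H637
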