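import Vale.Agent.P025.R2.H637.NoAbsOut
import Mathlib.Data.Real.Embedding

/-! # From valuation rings to absolute values -/

open IntermediateField Polynomial P025H641

namespace Vale.Agent.P025.R2.H637

universe u v w

section coarse

variable {p : ℕ} {M : Type v} [Field M]

/-- the valuation ring of rank one over `O` -/
def coarse (p : ℕ) (O : ValuationSubring M) (hp : (p : M) ∈ O) : ValuationSubring M where
  carrier := {x | ∀ n : ℕ, (p : M) * x ^ n ∈ O}
  mul_mem' := by
    intro a b ha hb n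
    have h1 : ((p : M) * (a * b) ^ n) ^ 2 ∈ O := by
      have h2 : ((p : M) * (a * b) ^ n) ^ 2 = ((p : M) * a ^ (2 * n)) * ((p : M) * b ^ (2 * n)) := by
        rw [pow_mul', pow_mul']; ring
      rw [h2]
      exact O.mul_mem _ _ (ha _) (hb _)
    rcases O.mem_or_inv_mem ((p : M) * (a * b) ^ n) with h | h
    · exact h
    · by_cases h0 : (p : M) * (a * b) ^ n = 0
      · rw [h0]; exact O.zero_mem
      have h3 : (p : M) * (a * b) ^ n = ((p : M) * (a * b) ^ n) ^ 2 * ((p : M) * (a * b) ^ n)⁻¹ := by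
        rw [sq, mul_assoc, mul_inv_cancel₀ h0, mul_one]
      rw [h3]
      exact O.mul_mem _ _ h1 h
  one_mem' := by
    intro n
    rw [one_pow, mul_one]
    exact hp
  add_mem' := by
    have key : ∀ y z : M, z ∈ O → (∀ n : ℕ, (p : M) * y ^ n ∈ O) →
        ∀ n : ℕ, (p : M) * (y * z + y) ^ n ∈ O := by
      intro y z hz hy n
      have h1 : (p : M) * (y * z + y) ^ n = ((p : M) * y ^ n) * (z + 1) ^ n := by
        rw [mul_assoc, ← mul_pow]
        congr 2
        ring
      rw [h1]
      exact O.mul_mem _ _ (hy n) (pow_mem (O.add_mem _ _ hz O.one_mem) n)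
    intro a b ha hb
    by_cases hb0 : b = 0
    · rw [hb0, add_zero]; exact ha
    by_cases ha0 : a = 0
    · rw [ha0, zero_add]; exact hb
    rcases O.mem_or_inv_mem (a / b) with h | h
    · have h1 := key b (a / b) h hb
      rw [mul_div_cancel₀ _ hb0] at h1
      exact h1
    · rw [inv_div] at h
      have h1 := key a (b / a) h ha
      rw [mul_div_cancel₀ _ ha0, add_comm] at h1
      exact h1
  zero_mem' := by
    intro n
    rcases Nat.eq_zero_or_pos n with rfl | h
    · rw [pow_zero, mul_one]; exact hp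
    · rw [zero_pow h.ne', mul_zero]; exact O.zero_mem
  neg_mem' := by
    intro a ha n
    rcases Nat.even_or_odd n with h | h
    · rw [h.neg_pow]; exact ha n
    · rw [h.neg_pow, mul_neg]; exact O.neg_mem _ (ha n)
  mem_or_inv_mem' := by
    intro x
    by_cases hx : ∀ n : ℕ, (p : M) * x ^ n ∈ O
    · exact Or.inl hx
    · right
      push Not at hx
      obtain ⟨m, hm⟩ := hx
      have h1 : x ∉ O := fun h => hm (O.mul_mem _ _ hp (pow_mem h m))
      have h2 : x⁻¹ ∈ O := (O.mem_or_inv_mem x).resolve_left h1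
      intro n
      exact O.mul_mem _ _ hp (pow_mem h2 n)

lemma mem_coarse {O : ValuationSubring M} {hp : (p : M) ∈ O} {x : M} :
    x ∈ coarse p O hp ↔ ∀ n : ℕ, (p : M) * x ^ n ∈ O := Iff.rfl

lemma le_coarse {O : ValuationSubring M} {hp : (p : M) ∈ O} {x : M} (hx : x ∈ O) :
    x ∈ coarse p O hp := fun n => O.mul_mem _ _ hp (pow_mem hx n)

end coarse

section main

variable {p : ℕ} [Fact p.Prime] {M : Type v} [Field M] [Algebra ℚ_[p] M]

/-- **A valuation ring over the `p`-adic integers which is archimedean over `p` gives an absolute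
value.** -/
theorem exists_abs_of_val (O : ValuationSubring M)
    (hO : ∀ c : ℚ_[p], algebraMap ℚ_[p] M c ∈ O ↔ ‖c‖ ≤ 1)
    (harch : ∀ x : M, ∃ m : ℕ, (p : M) ^ m * x ∈ O) :
    ∃ v : AbsoluteValue M ℝ, NA v ∧ Ext p v ∧
      ∀ g : M ≃+* M, (∀ x ∈ O, g x ∈ O) → ∀ x, v (g x) = v x := by
  classical
  have hpp : p.Prime := Fact.out
  have hpR : (1 : ℝ) < p := by exact_mod_cast hpp.one_lt
  have hcharM : CharZero M := charZero_of_injective_algebraMap (algebraMap ℚ_[p] M).injective
  have hpM : (p : M) ≠ 0 := Nat.cast_ne_zero.2 hpp.ne_zero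
  have hpO : (p : M) ∈ O := by
    have h1 := (hO (p : ℚ_[p])).2 (by rw [Padic.norm_p]; exact inv_le_one_of_one_le₀ hpR.le)
    rwa [map_natCast] at h1
  have hpO' : (p : M)⁻¹ ∉ O := by
    intro h
    have h1 : algebraMap ℚ_[p] M (p : ℚ_[p])⁻¹ ∈ O := by rwa [map_inv₀, map_natCast]
    rw [hO, norm_inv, Padic.norm_p, inv_inv] at h1
    linarith
  set W := coarse p O hpO with hW
  set Γ := W.ValueGroup with hΓ
  set ν := W.valuation with hν
  -- archimedean
  have harch' : ∀ x y : M, 1 < ν x → ∃ n : ℕ, ν y ≤ ν x ^ n := by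
    intro x y hx
    have h1 : x ∉ W := fun h => not_lt.2 ((W.valuation_le_one_iff x).2 h) hx
    rw [hW, mem_coarse] at h1
    push Not at h1
    obtain ⟨n, hn⟩ := h1
    obtain ⟨m, hm⟩ := harch y
    have hx0 : x ≠ 0 := by
      rintro rfl
      rw [map_zero] at hx
      exact absurd hx (not_lt.2 zero_le)
    have h2 : ((p : M) * x ^ n)⁻¹ ∈ O := (O.mem_or_inv_mem _).resolve_left hn
    refine ⟨n * m, ?_⟩
    have h3 : y * (x ^ (n * m))⁻¹ ∈ O := by
      have h4 : y * (x ^ (n * m))⁻¹ = ((p : M) ^ m * y) * (((p : M) * x ^ n)⁻¹) ^ m := by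
        rw [pow_mul, mul_inv, mul_pow, inv_pow, inv_pow]
        field_simp
      rw [h4]
      exact O.mul_mem _ _ hm (pow_mem h2 m)
    have h5 : ν (y * (x ^ (n * m))⁻¹) ≤ 1 := (W.valuation_le_one_iff _).2 (le_coarse h3)
    have hpos : 0 < ν x := zero_lt_iff.2 ((_root_.map_ne_zero _).2 hx0)
    rw [map_mul, map_inv₀, map_pow, ← div_eq_mul_inv, div_le_one₀ (pow_pos hpos _)] at h5
    exact h5
  have hArch : Archimedean (Additive Γˣ) := by
    refine ⟨fun a b hb => ?_⟩
    obtain ⟨x, hx⟩ := W.valuation_surjective ((Additive.toMul b : Γˣ) : Γ)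
    obtain ⟨y, hy⟩ := W.valuation_surjective ((Additive.toMul a : Γˣ) : Γ)
    have h1 : 1 < ν x := by
      have h2 : (1 : Γˣ) < Additive.toMul b := hb
      rw [hν, hx]
      exact_mod_cast h2
    obtain ⟨n, hn⟩ := harch' x y h1
    refine ⟨n, ?_⟩
    have h3 : Additive.toMul a ≤ (Additive.toMul b) ^ n := by
      rw [← Units.val_le_val, Units.val_pow_eq_pow_val, ← hx, ← hy]
      exact hn
    exact h3
  obtain ⟨f, hf⟩ := Archimedean.exists_orderAddMonoidHom_real_injective (Additive Γˣ)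
  have hfmono : StrictMono f := f.monotone'.strictMono_of_injective hf
  -- the logarithm
  let u : ∀ x : M, x ≠ 0 → Γˣ := fun x hx => Units.mk0 (ν x) ((_root_.map_ne_zero _).2 hx)
  let L : ∀ x : M, x ≠ 0 → ℝ := fun x hx => f (Additive.ofMul (u x hx))
  have hLmul : ∀ x y (hx : x ≠ 0) (hy : y ≠ 0), L (x * y) (mul_ne_zero hx hy) =
      L x hx + L y hy := by
    intro x y hx hy
    show f _ = f _ + f _
    rw [← map_add, ← ofMul_mul]
    congr 2
    apply Units.ext
    show ν (x * y) = ν x * ν y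
    exact map_mul _ _ _
  have hLle : ∀ x y (hx : x ≠ 0) (hy : y ≠ 0), ν x ≤ ν y → L x hx ≤ L y hy := by
    intro x y hx hy h
    exact hfmono.monotone (show u x hx ≤ u y hy from h)
  have hLlt : ∀ x y (hx : x ≠ 0) (hy : y ≠ 0), L x hx ≤ L y hy → ν x ≤ ν y := by
    intro x y hx hy h
    have h1 := hfmono.le_iff_le.1 h
    exact (show u x hx ≤ u y hy from h1)
  have hL1 : L 1 one_ne_zero = 0 := by
    have h1 := hLmul 1 1 one_ne_zero one_ne_zero
    simp only [mul_one] at h1
    linarith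
  have hLp : L (p : M) hpM < 0 := by
    by_contra hcon
    push Not at hcon
    rw [← hL1] at hcon
    have h1 := hLlt 1 _ one_ne_zero hpM hcon
    rw [map_one] at h1
    have h2 : ν ((p : M)⁻¹) ≤ 1 := by
      rw [map_inv₀]
      exact inv_le_one_of_one_le₀ h1
    have h3 : (p : M)⁻¹ ∈ W := (W.valuation_le_one_iff _).1 h2
    have h4 := h3 2
    have h5 : (p : M) * ((p : M)⁻¹) ^ 2 = (p : M)⁻¹ := by
      rw [sq, ← mul_assoc, mul_inv_cancel₀ hpM, one_mul]
    rw [h5] at h4
    exact hpO' h4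
  set c : ℝ := -Real.log p / L (p : M) hpM with hc
  have hlogp : 0 < Real.log p := Real.log_pos hpR
  have hc0 : 0 < c := div_pos_of_neg_of_neg (by linarith) hLp
  have hcp : c * L (p : M) hpM = -Real.log p := div_mul_cancel₀ _ hLp.ne
  let V : M → ℝ := fun x => if hx : x = 0 then 0 else Real.exp (c * L x hx)
  have hV0 : V 0 = 0 := dif_pos rfl
  have hVx : ∀ x (hx : x ≠ 0), V x = Real.exp (c * L x hx) := fun x hx => dif_neg hx
  have hVpos : ∀ x, x ≠ 0 → 0 < V x := fun x hx => by rw [hVx x hx]; exact Real.exp_pos _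
  have hVnonneg : ∀ x, 0 ≤ V x := by
    intro x
    by_cases hx : x = 0
    · rw [hx, hV0]
    · exact (hVpos x hx).le
  have hVle : ∀ x y, ν x ≤ ν y → V x ≤ V y := by
    intro x y h
    by_cases hx : x = 0
    · rw [hx, hV0]; exact hVnonneg y
    have hy : y ≠ 0 := by
      rintro rfl
      rw [map_zero] at h
      exact (_root_.map_ne_zero ν).2 hx (le_antisymm h zero_le)
    rw [hVx x hx, hVx y hy, Real.exp_le_exp]
    exact mul_le_mul_of_nonneg_left (hLle x y hx hy h) hc0.le
  have hVlt : ∀ x y, V x ≤ V y → ν x ≤ ν y := by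
    intro x y h
    by_cases hx : x = 0
    · rw [hx, map_zero]; exact zero_le
    have hy : y ≠ 0 := by
      rintro rfl
      rw [hV0] at h
      exact absurd (hVpos x hx) (not_lt.2 h)
    rw [hVx x hx, hVx y hy, Real.exp_le_exp] at h
    exact hLlt x y hx hy (le_of_mul_le_mul_left h hc0)
  have hVmul : ∀ x y, V (x * y) = V x * V y := by
    intro x y
    by_cases hx : x = 0
    · rw [hx, zero_mul, hV0, zero_mul]
    by_cases hy : y = 0
    · rw [hy, mul_zero, hV0, mul_zero]
    rw [hVx x hx, hVx y hy, hVx _ (mul_ne_zero hx hy), ← Real.exp_add, hLmul x y hx hy]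
    congr 1
    ring
  have hVna : ∀ x y, V (x + y) ≤ max (V x) (V y) := by
    intro x y
    rcases le_max_iff.1 (ν.map_add x y) with h | h
    · exact (hVle _ _ h).trans (le_max_left _ _)
    · exact (hVle _ _ h).trans (le_max_right _ _)
  let v : AbsoluteValue M ℝ :=
    { toFun := V
      map_mul' := hVmul
      nonneg' := hVnonneg
      eq_zero' := by
        intro x
        constructor
        · intro h
          by_contra hx
          exact (hVpos x hx).ne' h
        · rintro rfl
          exact hV0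
      add_le' := by
        intro x y
        exact (hVna x y).trans (max_le_add_of_nonneg (hVnonneg x) (hVnonneg y)) }
  have hvV : ∀ x, v x = V x := fun x => rfl
  have hvp : v (p : M) = (p : ℝ)⁻¹ := by
    rw [hvV, hVx _ hpM, hcp, Real.exp_neg, Real.exp_log (by linarith)]
  have hv1 : ∀ x, v x ≤ 1 ↔ x ∈ W := by
    intro x
    rw [← W.valuation_le_one_iff, ← map_one v, ← map_one W.valuation, hvV, hvV]
    exact ⟨fun h => hVlt _ _ h, fun h => hVle _ _ h⟩
  refine ⟨v, hVna, ?_, ?_⟩
  · -- extension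
    intro x
    by_cases hx : x = 0
    · rw [hx, map_zero, v.map_zero, norm_zero]
    obtain ⟨n, hn⟩ : ∃ n : ℤ, ‖x‖ = (p : ℝ) ^ (-n) :=
      ⟨_, Padic.norm_eq_zpow_neg_valuation hx⟩
    set y : ℚ_[p] := x * (p : ℚ_[p]) ^ (-n) with hy
    have hpQ : (p : ℚ_[p]) ≠ 0 := Nat.cast_ne_zero.2 hpp.ne_zero
    have hyn : ‖y‖ = 1 := by
      rw [hy, norm_mul, hn, Padic.norm_p_zpow, neg_neg, ← zpow_add₀ (by linarith : (p : ℝ) ≠ 0),
        neg_add_cancel, zpow_zero]
    have hy0 : y ≠ 0 := by
      intro h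
      rw [h, norm_zero] at hyn
      exact zero_ne_one hyn
    have h1 : v (algebraMap ℚ_[p] M y) = 1 := by
      apply le_antisymm
      · rw [hv1]
        exact le_coarse ((hO y).2 hyn.le)
      · have h2 : v ((algebraMap ℚ_[p] M y)⁻¹) ≤ 1 := by
          rw [hv1, ← map_inv₀]
          exact le_coarse ((hO _).2 (by rw [norm_inv, hyn, inv_one]))
        rw [map_inv₀] at h2
        have h3 : 0 < v (algebraMap ℚ_[p] M y) := v.pos ((_root_.map_ne_zero _).2 hy0)
        exact (inv_le_one₀ h3).1 h2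
    have hxy : x = y * (p : ℚ_[p]) ^ n := by
      rw [hy, mul_assoc, ← zpow_add₀ hpQ, neg_add_cancel, zpow_zero, mul_one]
    rw [hn, hxy, map_mul, map_mul, h1, one_mul, map_zpow₀, map_natCast, map_zpow₀, hvp, inv_zpow,
      zpow_neg]
  · -- invariance
    intro g hg
    have hgW : ∀ x ∈ W, g x ∈ W := by
      intro x hx n
      have h1 := hg _ (hx n)
      rwa [map_mul, map_natCast, map_pow] at h1
    have key : ∀ x, x ≠ 0 → v (g x) ≤ v x := by
      intro x hx
      by_contra hcon
      push Not at hcon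
      have hvx : 0 < v x := v.pos hx
      have h1 : 1 < v (g x) / v x := (one_lt_div hvx).2 hcon
      obtain ⟨n, hn⟩ := pow_unbounded_of_one_lt (p : ℝ) h1
      obtain ⟨m, hm1, hm2⟩ := exists_mem_Ioc_zpow (pow_pos hvx n) hpR
      have h2 : v (x ^ n * ((p : M) ^ (m + 1))) ≤ 1 := by
        rw [map_mul, map_pow, map_zpow₀, hvp, inv_zpow, ← div_eq_mul_inv, div_le_one₀ (by positivity)]
        exact hm2
      have h3 : v (g (x ^ n * ((p : M) ^ (m + 1)))) ≤ 1 := (hv1 _).2 (hgW _ ((hv1 _).1 h2))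
      rw [map_mul, map_pow, map_zpow₀, map_natCast, map_mul, map_pow, map_zpow₀, hvp, inv_zpow,
        ← div_eq_mul_inv, div_le_one₀ (by positivity)] at h3
      rw [div_pow, lt_div_iff₀ (pow_pos hvx n)] at hn
      have h4 : (p : ℝ) ^ (m + 1) = p * (p : ℝ) ^ m := by
        rw [zpow_add₀ (by linarith), zpow_one, mul_comm]
      rw [h4] at h3
      have h5 : (p : ℝ) * (p : ℝ) ^ m < (p : ℝ) * v x ^ n :=
        mul_lt_mul_of_pos_left hm1 (by linarith)
      linarith
    intro x
    by_cases hx : x = 0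
    · rw [hx, map_zero]
    apply le_antisymm (key x hx)
    have h1 := key x⁻¹ (inv_ne_zero hx)
    rw [map_inv₀, map_inv₀, map_inv₀] at h1
    have hgx : g x ≠ 0 := (map_ne_zero_iff g g.injective).2 hx
    exact (inv_le_inv₀ (v.pos hgx) (v.pos hx)).1 h1

end main

end Vale.Agent.P025.R2.H637
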